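import Vale.Agent.P195A.RS

/-!
# P195A: exactness of the complexes `RR(n)` in an abstract system
-/

namespace P195A

variable {k U T : Type} [Field k] [AddCommGroup U] [Module k U] [AddCommGroup T] [Module k T]

namespace RS

variable (S : RS k U T)

/-! ### the pieces `V_m` of weight `w` and order `d` -/

/-- homogeneous polynomials of degree `m` in `y_0, y_1` with coefficients in `W w d` -/
noncomputable def VV (m w d : ℤ) : Submodule k (Vy U) :=
  Submodule.span k {v | ∃ i j : ℕ, ∃ u ∈ S.W w d, (i : ℤ) + j = m ∧ v = Finsupp.single (i, j) u}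

variable {S}

theorem single_mem {m w d : ℤ} {i j : ℕ} {u : U} (hu : u ∈ S.W w d) (h : (i : ℤ) + j = m) :
    Finsupp.single (i, j) u ∈ S.VV m w d :=
  Submodule.subset_span ⟨i, j, u, hu, h, rfl⟩

theorem VV_map {m w d : ℤ} {N : Type} [AddCommGroup N] [Module k N] {Q : Submodule k N}
    (f : Vy U →ₗ[k] N)
    (hf : ∀ (i j : ℕ) (u : U), u ∈ S.W w d → (i : ℤ) + j = m → f (Finsupp.single (i, j) u) ∈ Q)
    {v : Vy U} (hv : v ∈ S.VV m w d) : f v ∈ Q := by
  have h : S.VV m w d ≤ Q.comap f := by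
    refine Submodule.span_le.2 ?_
    rintro _ ⟨i, j, u, hu, h, rfl⟩
    exact hf i j u hu h
  exact h hv

theorem VV_neg {m w d : ℤ} (hm : m < 0) {v : Vy U} (hv : v ∈ S.VV m w d) : v = 0 := by
  have h : LinearMap.id (R := k) v ∈ (⊥ : Submodule k (Vy U)) :=
    VV_map (LinearMap.id) (fun i j u _ hij => by exfalso; omega) hv
  exact h

theorem VV_mono {m w d d' : ℤ} (h : d ≤ d') {v : Vy U} (hv : v ∈ S.VV m w d) :
    v ∈ S.VV m w d' :=
  VV_map (LinearMap.id) (fun _ _ _ hu hij => single_mem (S.mono h hu) hij) hv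

theorem y0_mem {m w d : ℤ} {v : Vy U} (hv : v ∈ S.VV m w d) : y0 k U v ∈ S.VV (m + 1) w d :=
  VV_map _ (fun i j u hu hij => by
    rw [y0_single]
    exact single_mem hu (by push_cast; omega)) hv

theorem y1_mem {m w d : ℤ} {v : Vy U} (hv : v ∈ S.VV m w d) : y1 k U v ∈ S.VV (m + 1) w d :=
  VV_map _ (fun i j u hu hij => by
    rw [y1_single]
    exact single_mem hu (by push_cast; omega)) hv

theorem q0_mem {m w d : ℤ} {v : Vy U} (hv : v ∈ S.VV m w d) : q0 k U v ∈ S.VV (m - 1) w d :=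
  VV_map _ (fun i j u hu hij => by
    rw [q0_single]
    cases i with
    | zero => simp
    | succ i =>
      refine Submodule.smul_mem _ _ (single_mem hu ?_)
      push_cast at hij
      simp only [Nat.add_sub_cancel]
      omega) hv

theorem q1_mem {m w d : ℤ} {v : Vy U} (hv : v ∈ S.VV m w d) : q1 k U v ∈ S.VV (m - 1) w d :=
  VV_map _ (fun i j u hu hij => by
    rw [q1_single]
    cases j with
    | zero => simp
    | succ j =>
      refine Submodule.smul_mem _ _ (single_mem hu ?_)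
      push_cast at hij
      simp only [Nat.add_sub_cancel]
      omega) hv

theorem X_mem (a : Fin 2) {m w d : ℤ} {v : Vy U} (hv : v ∈ S.VV m w d) :
    lf (S.X a) v ∈ S.VV m (w + 1) d :=
  VV_map _ (fun i j u hu hij => by
    rw [lf_single]
    exact single_mem (S.Xm a hu) hij) hv

theorem D_mem (a : Fin 2) {m w d : ℤ} {v : Vy U} (hv : v ∈ S.VV m w d) :
    lf (S.D a) v ∈ S.VV m (w - 1) (d + 1) :=
  VV_map _ (fun i j u hu hij => by
    rw [lf_single]
    exact single_mem (S.Dm a hu) hij) hv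

theorem al_mem {m w d : ℤ} {v : Vy U} (hv : v ∈ S.VV m w d) :
    S.al v ∈ S.VV (m + 1) (w + 1) d := by
  rw [al_apply]
  exact Submodule.sub_mem _ (X_mem 0 (y1_mem hv)) (X_mem 1 (y0_mem hv))

theorem be_mem {m w d : ℤ} {v : Vy U} (hv : v ∈ S.VV m w d) :
    S.be v ∈ S.VV (m - 1) (w - 1) (d + 1) := by
  rw [be_apply]
  exact Submodule.sub_mem _ (D_mem 1 (q0_mem hv)) (D_mem 0 (q1_mem hv))

theorem g0_mem {m w d : ℤ} {v : Vy U} (hv : v ∈ S.VV m w d) :
    S.g0 v ∈ S.VV (m - 1) (w + 1) d := by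
  rw [g0_apply]
  exact Submodule.add_mem _ (X_mem 0 (q0_mem hv)) (X_mem 1 (q1_mem hv))

theorem rho_mem {m w d : ℤ} {v : Vy U} (hv : v ∈ S.VV m w d) :
    S.rho v ∈ S.VV (m + 1) (w - 1) (d + 1) := by
  rw [rho_apply]
  exact Submodule.add_mem _ (D_mem 0 (y0_mem hv)) (D_mem 1 (y1_mem hv))

theorem Z_mem {m w d : ℤ} {v : Vy U} (hv : v ∈ S.VV m w d) : S.Z v ∈ S.VV m w (d + 1) := by
  have h : ∀ a, lf (S.D a) (lf (S.X a) v) ∈ S.VV m w (d + 1) := fun a => by
    have := D_mem a (X_mem a hv)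
    rwa [show w + 1 - 1 = w by ring] at this
  have h0 : y0 k U (q0 k U v) ∈ S.VV m w (d + 1) := by
    have := y0_mem (q0_mem hv)
    rw [show m - 1 + 1 = m by ring] at this
    exact VV_mono (by omega) this
  have h1 : y1 k U (q1 k U v) ∈ S.VV m w (d + 1) := by
    have := y1_mem (q1_mem hv)
    rw [show m - 1 + 1 = m by ring] at this
    exact VV_mono (by omega) this
  rw [Z_apply]
  exact Submodule.sub_mem _ (Submodule.sub_mem _ (Submodule.add_mem _ (h 0) (h 1)) h0) h1

theorem Xpow_mem (a : Fin 2) {w d : ℤ} {u : U} (hu : u ∈ S.W w d) (i : ℕ) :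
    ((S.X a) ^ i) u ∈ S.W (w + i) d := by
  induction i with
  | zero => simpa using hu
  | succ i ih =>
    rw [pow_succ', Module.End.mul_apply]
    have := S.Xm a ih
    rwa [show w + (i : ℤ) + 1 = w + ((i + 1 : ℕ) : ℤ) by push_cast; ring] at this

theorem ev_mem {m w d : ℤ} {v : Vy U} (hv : v ∈ S.VV m w d) : S.ev v ∈ S.W (w + m) d :=
  VV_map _ (fun i j u hu hij => by
    rw [ev_single]
    have := Xpow_mem 0 (Xpow_mem 1 hu j) i
    rwa [show w + (j : ℤ) + i = w + m by omega] at this) hv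

theorem euler {m w d : ℤ} {v : Vy U} (hv : v ∈ S.VV m w d) :
    y0 k U (q0 k U v) + y1 k U (q1 k U v) = (m : k) • v := by
  have h : (y0 k U ∘ₗ q0 k U + y1 k U ∘ₗ q1 k U - (m : k) • LinearMap.id :
      Vy U →ₗ[k] Vy U) v ∈ (⊥ : Submodule k (Vy U)) := by
    refine VV_map _ (fun i j u hu hij => ?_) hv
    rw [Submodule.mem_bot]
    simp only [LinearMap.sub_apply, LinearMap.add_apply, LinearMap.comp_apply,
      LinearMap.smul_apply, LinearMap.id_apply, q0_single, q1_single, map_smul, y0_single,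
      y1_single]
    have h0 : (i : k) • (Finsupp.single (i - 1 + 1, j) u : Vy U) =
        (i : k) • Finsupp.single (i, j) u := by
      cases i with
      | zero => simp
      | succ i => rfl
    have h1 : (j : k) • (Finsupp.single (i, j - 1 + 1) u : Vy U) =
        (j : k) • Finsupp.single (i, j) u := by
      cases j with
      | zero => simp
      | succ j => rfl
    rw [h0, h1, ← add_smul, ← sub_smul]
    have h2 : (m : k) = (i : k) + j := by
      rw [← hij]
      push_cast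
      rfl
    rw [h2, sub_self, zero_smul]
  rw [Submodule.mem_bot] at h
  exact sub_eq_zero.1 h

/-! ### `ev` -/

theorem ev_y0 (v : Vy U) : S.ev (y0 k U v) = S.X 0 (S.ev v) := by
  have h : S.ev ∘ₗ y0 k U = S.X 0 ∘ₗ S.ev := by
    refine Finsupp.lhom_ext fun p u => ?_
    obtain ⟨i, j⟩ := p
    rw [LinearMap.comp_apply, LinearMap.comp_apply, y0_single, ev_single, ev_single, pow_succ',
      Module.End.mul_apply]
  exact LinearMap.congr_fun h v

theorem X1_pow0 (i : ℕ) (u : U) : ((S.X 0) ^ i) (S.X 1 u) = S.X 1 (((S.X 0) ^ i) u) := by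
  induction i with
  | zero => rfl
  | succ i ih =>
    rw [pow_succ', Module.End.mul_apply, Module.End.mul_apply, ih, S.XX]

theorem ev_y1 (v : Vy U) : S.ev (y1 k U v) = S.X 1 (S.ev v) := by
  have h : S.ev ∘ₗ y1 k U = S.X 1 ∘ₗ S.ev := by
    refine Finsupp.lhom_ext fun p u => ?_
    obtain ⟨i, j⟩ := p
    rw [LinearMap.comp_apply, LinearMap.comp_apply, y1_single, ev_single, ev_single, pow_succ',
      Module.End.mul_apply, X1_pow0]
  exact LinearMap.congr_fun h v

theorem X0_pow1 (j : ℕ) (u : U) : ((S.X 1) ^ j) (S.X 0 u) = S.X 0 (((S.X 1) ^ j) u) := by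
  induction j with
  | zero => rfl
  | succ j ih =>
    rw [pow_succ', Module.End.mul_apply, Module.End.mul_apply, ih, S.XX]

theorem ev_X0 (v : Vy U) : S.ev (lf (S.X 0) v) = S.X 0 (S.ev v) := by
  have h : S.ev ∘ₗ lf (S.X 0) = S.X 0 ∘ₗ S.ev := by
    refine Finsupp.lhom_ext fun p u => ?_
    obtain ⟨i, j⟩ := p
    rw [LinearMap.comp_apply, LinearMap.comp_apply, lf_single, ev_single, ev_single, X0_pow1,
      ← Module.End.mul_apply, ← pow_succ, pow_succ', Module.End.mul_apply]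
  exact LinearMap.congr_fun h v

theorem ev_X1 (v : Vy U) : S.ev (lf (S.X 1) v) = S.X 1 (S.ev v) := by
  have h : S.ev ∘ₗ lf (S.X 1) = S.X 1 ∘ₗ S.ev := by
    refine Finsupp.lhom_ext fun p u => ?_
    obtain ⟨i, j⟩ := p
    have h1 : ((S.X 1) ^ j) (S.X 1 u) = S.X 1 (((S.X 1) ^ j) u) := by
      rw [← Module.End.mul_apply, ← pow_succ, pow_succ', Module.End.mul_apply]
    rw [LinearMap.comp_apply, LinearMap.comp_apply, lf_single, ev_single, ev_single, ← X1_pow0,
      h1]
  exact LinearMap.congr_fun h v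

theorem pow_DX (a b : Fin 2) (i : ℕ) (u : U) : ((S.X a) ^ i) (S.D b u) =
    S.D b (((S.X a) ^ i) u) + if a = b then (i : k) • ((S.X a) ^ (i - 1)) u else 0 := by
  induction i with
  | zero => simp
  | succ i ih =>
    rw [pow_succ', Module.End.mul_apply, ih, map_add, S.XD, Module.End.mul_apply, add_assoc]
    congr 1
    by_cases hab : a = b
    · rw [if_pos hab, if_pos hab, if_pos hab, map_smul, ← Module.End.mul_apply, ← pow_succ']
      cases i with
      | zero => simp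
      | succ i =>
        simp only [Nat.add_sub_cancel]
        rw [Nat.cast_succ (i + 1), add_smul, one_smul, add_comm]
    · rw [if_neg hab, if_neg hab, if_neg hab, map_zero, add_zero]

theorem ev_D0 (v : Vy U) : S.ev (lf (S.D 0) v) = S.D 0 (S.ev v) + S.ev (q0 k U v) := by
  have h : S.ev ∘ₗ lf (S.D 0) = S.D 0 ∘ₗ S.ev + S.ev ∘ₗ q0 k U := by
    refine Finsupp.lhom_ext fun p u => ?_
    obtain ⟨i, j⟩ := p
    rw [LinearMap.add_apply, LinearMap.comp_apply, LinearMap.comp_apply, LinearMap.comp_apply,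
      lf_single, ev_single, ev_single, q0_single, map_smul, ev_single, pow_DX, if_neg (by decide),
      add_zero, pow_DX, if_pos rfl]
  exact LinearMap.congr_fun h v

theorem ev_D1 (v : Vy U) : S.ev (lf (S.D 1) v) = S.D 1 (S.ev v) + S.ev (q1 k U v) := by
  have h : S.ev ∘ₗ lf (S.D 1) = S.D 1 ∘ₗ S.ev + S.ev ∘ₗ q1 k U := by
    refine Finsupp.lhom_ext fun p u => ?_
    obtain ⟨i, j⟩ := p
    rw [LinearMap.add_apply, LinearMap.comp_apply, LinearMap.comp_apply, LinearMap.comp_apply,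
      lf_single, ev_single, ev_single, q1_single, map_smul, ev_single, pow_DX, if_pos rfl,
      map_add, pow_DX, if_neg (by decide), add_zero, map_smul]
  exact LinearMap.congr_fun h v

theorem ev_al (v : Vy U) : S.ev (S.al v) = 0 := by
  rw [al_apply, map_sub, ev_X0, ev_X1, ev_y0, ev_y1, S.XX, sub_self]

theorem ev_be (v : Vy U) :
    S.ev (S.be v) = S.D 1 (S.ev (q0 k U v)) - S.D 0 (S.ev (q1 k U v)) := by
  rw [be_apply, map_sub, ev_D0, ev_D1, q0_q1]
  abel

theorem ev_q0_al (v : Vy U) : S.ev (q0 k U (S.al v)) = -S.X 1 (S.ev v) := by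
  have h : q0 k U (S.al v) = S.al (q0 k U v) - lf (S.X 1) v := by
    simp only [al_apply, map_sub, ← lf_q0, q0_y0, q0_y1, map_add]
    abel
  rw [h, map_sub, ev_al, ev_X1, zero_sub]

theorem ev_q1_al (v : Vy U) : S.ev (q1 k U (S.al v)) = S.X 0 (S.ev v) := by
  have h : q1 k U (S.al v) = S.al (q1 k U v) + lf (S.X 0) v := by
    simp only [al_apply, map_sub, ← lf_q1, q1_y0, q1_y1, map_add]
    abel
  rw [h, map_add, ev_al, ev_X0, zero_add]

theorem ev_euler {m w d : ℤ} {v : Vy U} (hv : v ∈ S.VV m w d) :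
    S.X 0 (S.ev (q0 k U v)) + S.X 1 (S.ev (q1 k U v)) = (m : k) • S.ev v := by
  rw [← ev_y0, ← ev_y1, ← map_add, euler hv, map_smul]

theorem ev_g0 {m w d : ℤ} {v : Vy U} (hv : v ∈ S.VV m w d) :
    S.ev (S.g0 v) = (m : k) • S.ev v := by
  rw [g0_apply, map_add, ev_X0, ev_X1, ev_euler hv]

theorem A_rho {m w d : ℤ} {v : Vy U} (hv : v ∈ S.VV m w d) :
    S.A (S.ev (S.rho v)) = ((m : k) + 2) • S.A (S.ev v) := by
  rw [rho_apply, map_add, ev_D0, ev_D1, q0_y0, q1_y1]
  have h : S.ev (y0 k U (q0 k U v)) + S.ev (y1 k U (q1 k U v)) = (m : k) • S.ev v := by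
    rw [← map_add, euler hv, map_smul]
  simp only [map_add, S.AD, zero_add]
  have h2 := congrArg S.A h
  rw [map_add, map_smul] at h2
  rw [add_smul, ← h2, two_smul]
  abel

theorem A_be (v : Vy U) : S.A (S.ev (S.be v)) = 0 := by
  rw [ev_be, map_sub, S.AD, S.AD, sub_self]

theorem ev_Z (v : Vy U) :
    S.ev (S.Z v) = S.D 0 (S.X 0 (S.ev v)) + S.D 1 (S.X 1 (S.ev v)) := by
  rw [Z_apply, map_sub, map_sub, map_add, ev_D0, ev_D1, ev_X0, ev_X1, ev_y0, ev_y1, ← lf_q0,
    ← lf_q1, ev_X0, ev_X1]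
  abel

/-! ### the maps of `RR(n)` -/

variable (S)

/-- first component of `phi` -/
noncomputable def phi1 (u v : Vy U) : Vy U :=
  S.Z u - (u + u) - S.be (S.al u) - S.be (S.be v)

/-- second component of `phi` -/
noncomputable def phi2 (u v : Vy U) : Vy U :=
  S.Z v + (v + v) + S.al (S.al u) + S.al (S.be v)

variable {S}

theorem phi1_mem {m w d : ℤ} {u v : Vy U} (hu : u ∈ S.VV m w d)
    (hv : v ∈ S.VV (m + 2) (w + 2) (d - 1)) : S.phi1 u v ∈ S.VV m w (d + 1) := by
  have h1 : S.be (S.al u) ∈ S.VV m w (d + 1) := by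
    have := be_mem (al_mem hu)
    rwa [show m + 1 - 1 = m by ring, show w + 1 - 1 = w by ring] at this
  have h2 : S.be (S.be v) ∈ S.VV m w (d + 1) := by
    have := be_mem (be_mem hv)
    rwa [show m + 2 - 1 - 1 = m by ring, show w + 2 - 1 - 1 = w by ring,
      show d - 1 + 1 + 1 = d + 1 by ring] at this
  have h3 := VV_mono (d' := d + 1) (by omega) hu
  exact Submodule.sub_mem _ (Submodule.sub_mem _ (Submodule.sub_mem _ (Z_mem hu)
    (Submodule.add_mem _ h3 h3)) h1) h2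

theorem phi2_mem {m w d : ℤ} {u v : Vy U} (hu : u ∈ S.VV (m - 2) (w - 2) (d + 1))
    (hv : v ∈ S.VV m w d) : S.phi2 u v ∈ S.VV m w (d + 1) := by
  have h1 : S.al (S.be v) ∈ S.VV m w (d + 1) := by
    have := al_mem (be_mem hv)
    rwa [show m - 1 + 1 = m by ring, show w - 1 + 1 = w by ring] at this
  have h2 : S.al (S.al u) ∈ S.VV m w (d + 1) := by
    have := al_mem (al_mem hu)
    rwa [show m - 2 + 1 + 1 = m by ring, show w - 2 + 1 + 1 = w by ring] at this
  have h3 := VV_mono (d' := d + 1) (by omega) hv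
  exact Submodule.add_mem _ (Submodule.add_mem _ (Submodule.add_mem _ (Z_mem hv)
    (Submodule.add_mem _ h3 h3)) h2) h1

theorem phi1_sub (u v u' v' : Vy U) :
    S.phi1 (u - u') (v - v') = S.phi1 u v - S.phi1 u' v' := by
  simp only [phi1, map_sub]
  abel

theorem phi2_sub (u v u' v' : Vy U) :
    S.phi2 (u - u') (v - v') = S.phi2 u v - S.phi2 u' v' := by
  simp only [phi2, map_sub]
  abel

/-- `phi ∘ d_3 = 0` -/
theorem phi1_d3 (z : Vy U) : S.phi1 (S.be z) (-S.al z) = 0 := by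
  have h1 := ZA (S := S) z
  have h2 := ZA (S := S) (S.be z)
  have h3 := Z_be (S := S) z
  simp only [phi1, map_neg, sub_neg_eq_add]
  have h4 := congrArg S.be h1
  rw [map_add] at h4
  rw [h3, h4]
  abel

theorem phi2_d3 (z : Vy U) : S.phi2 (S.be z) (-S.al z) = 0 := by
  have h1 := ZA (S := S) z
  have h2 := ZA (S := S) (S.al z)
  have h3 := Z_al (S := S) z
  simp only [phi2, map_neg]
  have h4 := congrArg S.al h1
  rw [map_add] at h4
  rw [h3, h4]
  abel

/-- `d_1 ∘ phi = 0` -/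
theorem d1_phi (u v : Vy U) : S.al (S.phi1 u v) + S.be (S.phi2 u v) = 0 := by
  have e1 : S.al (S.be (S.al u)) = S.be (S.al (S.al u)) + S.Z (S.al u) := ZA (S := S) _
  have e2 : S.al (S.be (S.be v)) = S.be (S.al (S.be v)) + S.Z (S.be v) := ZA (S := S) _
  have e3 := Z_al (S := S) u
  have e4 := Z_be (S := S) v
  simp only [phi1, phi2, map_add, map_sub]
  rw [e1, e2, e3, e4]
  abel

theorem ev_q0_phi2 {m w d : ℤ} (u : Vy U) {v : Vy U} (hv : v ∈ S.VV m w d) :
    S.ev (q0 k U (S.phi2 u v)) = (m : k) • S.D 0 (S.ev v) := by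
  have h1 : q0 k U (S.Z v) = S.Z (q0 k U v) - q0 k U v := by
    simp only [Z_apply, map_sub, map_add, ← lf_q0, q0_y0, q0_y1, q0_q1]
    abel
  have h2 := ev_euler hv
  have h3 := S.XD 1 1 (S.ev (q0 k U v))
  rw [if_pos rfl] at h3
  have h4 := S.XD 1 0 (S.ev (q1 k U v))
  rw [if_neg (by decide), add_zero] at h4
  simp only [phi2, map_add]
  rw [h1, map_sub, ev_Z, ev_q0_al, ev_q0_al, ev_al, ev_be, map_zero, neg_zero, map_sub, h3, h4,
    ← map_smul, ← h2, map_add]
  abel

theorem ev_q1_phi2 {m w d : ℤ} (u : Vy U) {v : Vy U} (hv : v ∈ S.VV m w d) :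
    S.ev (q1 k U (S.phi2 u v)) = (m : k) • S.D 1 (S.ev v) := by
  have h1 : q1 k U (S.Z v) = S.Z (q1 k U v) - q1 k U v := by
    simp only [Z_apply, map_sub, map_add, ← lf_q1, q1_y0, q1_y1, q0_q1]
    abel
  have h2 := ev_euler hv
  have h3 := S.XD 0 0 (S.ev (q1 k U v))
  rw [if_pos rfl] at h3
  have h4 := S.XD 0 1 (S.ev (q0 k U v))
  rw [if_neg (by decide), add_zero] at h4
  simp only [phi2, map_add]
  rw [h1, map_sub, ev_Z, ev_q1_al, ev_q1_al, ev_al, ev_be, map_zero, map_sub, h3, h4,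
    ← map_smul, ← h2, map_add]
  abel

end RS

end P195A
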