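import Vale.Agent.P195A.Inst
import Vale.Agent.P195A.RR

/-!
# P195A: the pairing between `W[y]` and the divided power dual; the operators of the primal
system are adjoint to the operators of the dual system
-/

namespace P195A

open MvPolynomial

variable {k : Type} [Field k]

/-- `p!` for `p = (i, j)` -/
def pf (p : ℕ × ℕ) : ℕ := p.1.factorial * p.2.factorial

theorem pf_ne (p : ℕ × ℕ) : pf p ≠ 0 :=
  Nat.mul_ne_zero (Nat.factorial_ne_zero _) (Nat.factorial_ne_zero _)

/-- the pairing `(a y^p, b η^q) ↦ p! a b` if `p = q`, and `0` otherwise -/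
noncomputable def pr : Vy (Wo k) →ₗ[k] Vy (Wo k) →ₗ[k] Wo k :=
  Finsupp.lsum k (fun p => LinearMap.mk₂ k (fun (a : Wo k) (m : Vy (Wo k)) => (pf p : k) • (a * m p))
    (fun a b m => by simp only [add_mul, smul_add])
    (fun c a m => by simp only [smul_mul_assoc]; rw [smul_comm])
    (fun a m m' => by simp only [Finsupp.add_apply, mul_add, smul_add])
    (fun c a m => by simp only [Finsupp.smul_apply, mul_smul_comm]; rw [smul_comm]))

theorem pr_single (p : ℕ × ℕ) (a : Wo k) (m : Vy (Wo k)) :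
    pr (Finsupp.single p a) m = (pf p : k) • (a * m p) := by
  simp [pr]

theorem pr_eq_sum (v m : Vy (Wo k)) : pr v m = v.sum (fun p a => (pf p : k) • (a * m p)) := by
  rw [pr, Finsupp.lsum_apply]
  simp only [Finsupp.sum]
  rw [LinearMap.sum_apply]
  rfl

/-- the pairing determines the second argument -/
theorem pr_ext [CharZero k] {m m' : Vy (Wo k)}
    (h : ∀ p : ℕ × ℕ, pr (Finsupp.single p 1) m = pr (Finsupp.single p 1) m') : m = m' := by
  refine Finsupp.ext fun p => ?_
  have h1 := h p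
  rw [pr_single, pr_single, one_mul, one_mul] at h1
  have h2 : (pf p : k) ≠ 0 := Nat.cast_ne_zero.2 (pf_ne p)
  exact smul_right_injective _ h2 h1

theorem pr_left_mul (S : Wo k) (v m : Vy (Wo k)) :
    pr (lf (LinearMap.mulLeft k S) v) m = S * pr v m := by
  have h : (LinearMap.flip pr m) ∘ₗ lf (LinearMap.mulLeft k S) =
      LinearMap.mulLeft k S ∘ₗ (LinearMap.flip pr m) := by
    refine Finsupp.lhom_ext fun p u => ?_
    show pr (lf (LinearMap.mulLeft k S) (Finsupp.single p u)) m =
      S * pr (Finsupp.single p u) m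
    rw [lf_single, pr_single, pr_single, LinearMap.mulLeft_apply, mul_assoc, mul_smul_comm]
  exact LinearMap.congr_fun h v

theorem pr_lf (S : Wo k) (v m : Vy (Wo k)) :
    pr (lf (LinearMap.mulRight k S) v) m = pr v (lf (LinearMap.mulLeft k S) m) := by
  have h : (LinearMap.flip pr m) ∘ₗ lf (LinearMap.mulRight k S) =
      LinearMap.flip pr (lf (LinearMap.mulLeft k S) m) := by
    refine Finsupp.lhom_ext fun p u => ?_
    show pr (lf (LinearMap.mulRight k S) (Finsupp.single p u)) m =
      pr (Finsupp.single p u) (lf (LinearMap.mulLeft k S) m)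
    rw [lf_single, pr_single, pr_single, LinearMap.mulRight_apply, mul_assoc]
    rfl
  exact LinearMap.congr_fun h v

theorem q0_apply (m : Vy (Wo k)) (i j : ℕ) :
    q0 k (Wo k) m (i, j) = ((i : k) + 1) • m (i + 1, j) := by
  have h : (Finsupp.lapply (i, j) : Vy (Wo k) →ₗ[k] Wo k) ∘ₗ q0 k (Wo k) =
      ((i : k) + 1) • (Finsupp.lapply (i + 1, j) : Vy (Wo k) →ₗ[k] Wo k) := by
    refine Finsupp.lhom_ext fun p u => ?_
    obtain ⟨i', j'⟩ := p
    rw [LinearMap.comp_apply, q0_single, map_smul, LinearMap.smul_apply, Finsupp.lapply_apply,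
      Finsupp.lapply_apply, Finsupp.single_apply, Finsupp.single_apply]
    cases i' with
    | zero => simp
    | succ i' =>
      by_cases h1 : i' = i ∧ j' = j
      · obtain ⟨rfl, rfl⟩ := h1
        simp
      · rw [if_neg, if_neg, smul_zero, smul_zero]
        · intro h2
          apply h1
          simpa using h2
        · intro h2
          apply h1
          simpa using h2
  exact LinearMap.congr_fun h m

theorem q1_apply (m : Vy (Wo k)) (i j : ℕ) :
    q1 k (Wo k) m (i, j) = ((j : k) + 1) • m (i, j + 1) := by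
  have h : (Finsupp.lapply (i, j) : Vy (Wo k) →ₗ[k] Wo k) ∘ₗ q1 k (Wo k) =
      ((j : k) + 1) • (Finsupp.lapply (i, j + 1) : Vy (Wo k) →ₗ[k] Wo k) := by
    refine Finsupp.lhom_ext fun p u => ?_
    obtain ⟨i', j'⟩ := p
    rw [LinearMap.comp_apply, q1_single, map_smul, LinearMap.smul_apply, Finsupp.lapply_apply,
      Finsupp.lapply_apply, Finsupp.single_apply, Finsupp.single_apply]
    cases j' with
    | zero => simp
    | succ j' =>
      by_cases h1 : i' = i ∧ j' = j
      · obtain ⟨rfl, rfl⟩ := h1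
        simp
      · rw [if_neg, if_neg, smul_zero, smul_zero]
        · intro h2
          apply h1
          simpa using h2
        · intro h2
          apply h1
          simpa using h2
  exact LinearMap.congr_fun h m

theorem y0_apply_succ (m : Vy (Wo k)) (i j : ℕ) : y0 k (Wo k) m (i + 1, j) = m (i, j) := by
  have hinj : Function.Injective (fun p : ℕ × ℕ => (p.1 + 1, p.2)) := by
    rintro ⟨a, b⟩ ⟨c, d⟩ h
    simpa using h
  exact Finsupp.mapDomain_apply hinj m (i, j)

theorem y0_apply_zero (m : Vy (Wo k)) (j : ℕ) : y0 k (Wo k) m (0, j) = 0 := by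
  refine Finsupp.mapDomain_of_notMem_range _ _ ?_
  rintro ⟨⟨a, b⟩, h⟩
  simp at h

theorem y1_apply_succ (m : Vy (Wo k)) (i j : ℕ) : y1 k (Wo k) m (i, j + 1) = m (i, j) := by
  have hinj : Function.Injective (fun p : ℕ × ℕ => (p.1, p.2 + 1)) := by
    rintro ⟨a, b⟩ ⟨c, d⟩ h
    simpa using h
  exact Finsupp.mapDomain_apply hinj m (i, j)

theorem y1_apply_zero (m : Vy (Wo k)) (i : ℕ) : y1 k (Wo k) m (i, 0) = 0 := by
  refine Finsupp.mapDomain_of_notMem_range _ _ ?_
  rintro ⟨⟨a, b⟩, h⟩
  simp at h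

theorem pr_y0 (v m : Vy (Wo k)) : pr (y0 k (Wo k) v) m = pr v (q0 k (Wo k) m) := by
  have h : (LinearMap.flip pr m) ∘ₗ y0 k (Wo k) = LinearMap.flip pr (q0 k (Wo k) m) := by
    refine Finsupp.lhom_ext fun p u => ?_
    obtain ⟨i, j⟩ := p
    show pr (y0 k (Wo k) (Finsupp.single (i, j) u)) m =
      pr (Finsupp.single (i, j) u) (q0 k (Wo k) m)
    rw [y0_single, pr_single, pr_single, q0_apply, mul_smul_comm, smul_smul]
    congr 1
    simp only [pf, Nat.factorial_succ]
    push_cast
    ring
  exact LinearMap.congr_fun h v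

theorem pr_y1 (v m : Vy (Wo k)) : pr (y1 k (Wo k) v) m = pr v (q1 k (Wo k) m) := by
  have h : (LinearMap.flip pr m) ∘ₗ y1 k (Wo k) = LinearMap.flip pr (q1 k (Wo k) m) := by
    refine Finsupp.lhom_ext fun p u => ?_
    obtain ⟨i, j⟩ := p
    show pr (y1 k (Wo k) (Finsupp.single (i, j) u)) m =
      pr (Finsupp.single (i, j) u) (q1 k (Wo k) m)
    rw [y1_single, pr_single, pr_single, q1_apply, mul_smul_comm, smul_smul]
    congr 1
    simp only [pf, Nat.factorial_succ]
    push_cast
    ring
  exact LinearMap.congr_fun h v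

theorem pr_q0 (v m : Vy (Wo k)) : pr (q0 k (Wo k) v) m = pr v (y0 k (Wo k) m) := by
  have h : (LinearMap.flip pr m) ∘ₗ q0 k (Wo k) = LinearMap.flip pr (y0 k (Wo k) m) := by
    refine Finsupp.lhom_ext fun p u => ?_
    obtain ⟨i, j⟩ := p
    show pr (q0 k (Wo k) (Finsupp.single (i, j) u)) m =
      pr (Finsupp.single (i, j) u) (y0 k (Wo k) m)
    rw [q0_single, map_smul, LinearMap.smul_apply, pr_single, pr_single]
    cases i with
    | zero => rw [y0_apply_zero, mul_zero, smul_zero, Nat.cast_zero, zero_smul]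
    | succ i =>
      rw [y0_apply_succ, smul_smul, Nat.add_sub_cancel]
      congr 1
      simp only [pf, Nat.factorial_succ]
      push_cast
      ring
  exact LinearMap.congr_fun h v

theorem pr_q1 (v m : Vy (Wo k)) : pr (q1 k (Wo k) v) m = pr v (y1 k (Wo k) m) := by
  have h : (LinearMap.flip pr m) ∘ₗ q1 k (Wo k) = LinearMap.flip pr (y1 k (Wo k) m) := by
    refine Finsupp.lhom_ext fun p u => ?_
    obtain ⟨i, j⟩ := p
    show pr (q1 k (Wo k) (Finsupp.single (i, j) u)) m =
      pr (Finsupp.single (i, j) u) (y1 k (Wo k) m)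
    rw [q1_single, map_smul, LinearMap.smul_apply, pr_single, pr_single]
    cases j with
    | zero => rw [y1_apply_zero, mul_zero, smul_zero, Nat.cast_zero, zero_smul]
    | succ j =>
      rw [y1_apply_succ, smul_smul, Nat.add_sub_cancel]
      congr 1
      simp only [pf, Nat.factorial_succ]
      push_cast
      ring
  exact LinearMap.congr_fun h v

variable [CharZero k]

theorem pr_X (a : Fin 2) (v m : Vy (Wo k)) :
    pr (lf ((primal k).X a) v) m = pr v (lf ((dual k).D a) m) := pr_lf _ v m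

theorem pr_D (a : Fin 2) (v m : Vy (Wo k)) :
    pr (lf ((primal k).D a) v) m = pr v (lf ((dual k).X a) m) := pr_lf _ v m

theorem pr_al (v m : Vy (Wo k)) : pr ((primal k).al v) m = -pr v ((dual k).be m) := by
  rw [RS.al_apply, RS.be_apply, map_sub, map_sub, LinearMap.sub_apply, pr_X, pr_X, pr_y0, pr_y1,
    lf_q0, lf_q1]
  abel

theorem pr_be (v m : Vy (Wo k)) : pr ((primal k).be v) m = -pr v ((dual k).al m) := by
  rw [RS.al_apply, RS.be_apply, map_sub, map_sub, LinearMap.sub_apply, pr_D, pr_D, pr_q0, pr_q1,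
    lf_y0, lf_y1]
  abel

theorem pr_g0 (v m : Vy (Wo k)) : pr ((primal k).g0 v) m = pr v ((dual k).rho m) := by
  rw [RS.g0_apply, RS.rho_apply, map_add, map_add, LinearMap.add_apply, pr_X, pr_X, pr_q0, pr_q1,
    lf_y0, lf_y1]

theorem pr_rho (v m : Vy (Wo k)) : pr ((primal k).rho v) m = pr v ((dual k).g0 m) := by
  rw [RS.g0_apply, RS.rho_apply, map_add, map_add, LinearMap.add_apply, pr_D, pr_D, pr_y0, pr_y1,
    lf_q0, lf_q1]

theorem pr_Z (v m : Vy (Wo k)) : pr ((primal k).Z v) m = pr v ((dual k).Z m) := by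
  rw [RS.Z_apply, RS.Z_apply]
  simp only [map_sub, map_add, LinearMap.sub_apply, LinearMap.add_apply, pr_D, pr_X, pr_y0, pr_y1,
    pr_q0, pr_q1]

/-- the transpose of `phi` -/
theorem pr_phi (u v m m' : Vy (Wo k)) :
    pr ((primal k).phi1 u v) m + pr ((primal k).phi2 u v) m' =
      pr u ((dual k).phi1 m (-m')) - pr v ((dual k).phi2 m (-m')) := by
  simp only [RS.phi1, RS.phi2, map_sub, map_add, map_neg, LinearMap.sub_apply,
    LinearMap.add_apply, pr_Z, pr_al, pr_be, neg_neg]
  abel

end P195A
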