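import Vale.Agent.P195A.RRx

/-!
# P195A: exactness of `PP(n)` at a line bundle, in an abstract system (primal side)

Normalisation (helper4): `del3 = psi d3`, `del2 = psi chi - (n+1)`, `del1 = d1 chi`.
-/

namespace P195A

variable {k U T : Type} [Field k] [AddCommGroup U] [Module k U] [AddCommGroup T] [Module k T]

namespace RS

variable (S : RS k U T)

/-- `s = y_1 g_0 - y_0 g_1 + ∂_0 h_1 - ∂_1 h_0` -/
noncomputable def sv (g h : Fin 2 → Vy U) : Vy U :=
  y1 k U (g 0) - y0 k U (g 1) + q0 k U (h 1) - q1 k U (h 0)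

/-- first component of `chi` -/
noncomputable def chi1 (g h : Fin 2 → Vy U) : Vy U :=
  lf (S.D 0) (g 0) + lf (S.D 1) (g 1) - S.be (sv (k := k) g h)

/-- second component of `chi` -/
noncomputable def chi2 (g h : Fin 2 → Vy U) : Vy U :=
  lf (S.X 0) (h 0) + lf (S.X 1) (h 1) + S.al (sv (k := k) g h)

variable {S}

/-- membership in `VV`, coefficientwise -/
theorem mem_VV_iff {m w d : ℤ} {v : Vy U} : v ∈ S.VV m w d ↔
    ∀ i j : ℕ, v (i, j) ∈ S.W w d ∧ ((i : ℤ) + j ≠ m → v (i, j) = 0) := by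
  constructor
  · intro hv i j
    constructor
    · exact VV_map (Q := S.W w d) (Finsupp.lapply (i, j)) (fun i' j' u hu h => by
        rw [Finsupp.lapply_apply, Finsupp.single_apply]
        split_ifs
        · exact hu
        · exact Submodule.zero_mem _) hv
    · intro hne
      exact VV_map (Q := (⊥ : Submodule k U)) (Finsupp.lapply (i, j)) (fun i' j' u hu h => by
        rw [Finsupp.lapply_apply, Finsupp.single_apply, if_neg]
        · exact Submodule.zero_mem _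
        · intro he
          rw [Prod.mk.injEq] at he
          rw [he.1, he.2] at h
          exact hne h) hv
  · intro h
    rw [← Finsupp.sum_single v]
    refine Submodule.sum_mem _ fun p hp => ?_
    obtain ⟨i, j⟩ := p
    refine single_mem (h i j).1 ?_
    by_contra hne
    exact (Finsupp.mem_support_iff.1 hp) ((h i j).2 hne)

theorem lf_apply (L : U →ₗ[k] U) (v : Vy U) (p : ℕ × ℕ) : (lf L v) p = L (v p) := by
  simp [lf]

/-- strictness for `X` -/
theorem X_strict {m w d d' : ℤ} {u : Vy U} (hu : u ∈ S.VV m w d')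
    (h0 : lf (S.X 0) u ∈ S.VV m (w + 1) d) (h1 : lf (S.X 1) u ∈ S.VV m (w + 1) d) :
    u ∈ S.VV m w d := by
  rw [mem_VV_iff] at hu h0 h1 ⊢
  intro i j
  refine ⟨?_, (hu i j).2⟩
  have e0 := (h0 i j).1
  have e1 := (h1 i j).1
  rw [lf_apply] at e0 e1
  obtain ⟨r, hr, h2, h3⟩ := S.kx (a := S.X 1 (u (i, j))) (b := -S.X 0 (u (i, j))) e1
    (Submodule.neg_mem _ e0) (by rw [map_neg, S.XX, add_neg_cancel])
  rw [show w + 1 - 1 = w by ring] at hr
  rcases le_total d d' with hd | hd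
  · have h4 : u (i, j) - r = 0 := S.Xinj (Submodule.sub_mem _ (hu i j).1 (S.mono hd hr))
      (by rw [map_sub, h2, sub_self])
    rw [sub_eq_zero.1 h4]
    exact hr
  · exact S.mono hd (hu i j).1

/-- strictness for `D` -/
theorem D_strict {m w d d' : ℤ} {u : Vy U} (hu : u ∈ S.VV m w d')
    (h0 : lf (S.D 0) u ∈ S.VV m (w - 1) d) (h1 : lf (S.D 1) u ∈ S.VV m (w - 1) d) :
    u ∈ S.VV m w (d - 1) := by
  rw [mem_VV_iff] at hu h0 h1 ⊢
  intro i j
  refine ⟨?_, (hu i j).2⟩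
  have e0 := (h0 i j).1
  have e1 := (h1 i j).1
  rw [lf_apply] at e0 e1
  obtain ⟨r, hr, h2, h3⟩ := S.kd (a := S.D 1 (u (i, j))) (b := S.D 0 (u (i, j))) e1 e0
    (S.DD _)
  rw [show w - 1 + 1 = w by ring] at hr
  rcases le_total (d - 1) d' with hd | hd
  · have h4 : u (i, j) - r = 0 := S.Dinj (Submodule.sub_mem _ (hu i j).1 (S.mono hd hr))
      (by rw [map_sub, h3, sub_self])
    rw [sub_eq_zero.1 h4]
    exact hr
  · exact S.mono hd (hu i j).1

theorem D0_inj {m w d : ℤ} {u : Vy U} (hu : u ∈ S.VV m w d) (h : lf (S.D 0) u = 0) : u = 0 := by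
  ext p
  obtain ⟨i, j⟩ := p
  have h1 := DFunLike.congr_fun h (i, j)
  rw [lf_apply] at h1
  exact S.Dinj ((mem_VV_iff.1 hu) i j).1 h1

theorem sv_psi (u v : Vy U) : sv (k := k) (fun a => lf (S.X a) u) (fun a => lf (S.D a) v) =
    S.al u + S.be v := by
  simp only [sv, al_apply, be_apply, lf_y0, lf_y1, lf_q0, lf_q1]
  abel

/-- `chi psi = phi + (n+1)`, first component -/
theorem chi1_psi {n w d : ℤ} {u : Vy U} (hu : u ∈ S.VV (n - 1) w d) (v : Vy U) :
    S.chi1 (fun a => lf (S.X a) u) (fun a => lf (S.D a) v) =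
      S.phi1 u v + ((n + 1 : ℤ) : k) • u := by
  have e := euler hu
  have h1 : ((n + 1 : ℤ) : k) • u = y0 k U (q0 k U u) + y1 k U (q1 k U u) + (u + u) := by
    rw [e, show ((n + 1 : ℤ) : k) = ((n - 1 : ℤ) : k) + 2 by push_cast; ring, add_smul, two_smul]
  rw [h1, chi1, sv_psi, phi1, Z_apply, map_add]
  abel

/-- `chi psi = phi + (n+1)`, second component -/
theorem chi2_psi {n w d : ℤ} (u : Vy U) {v : Vy U} (hv : v ∈ S.VV (n + 1) w d) :
    S.chi2 (fun a => lf (S.X a) u) (fun a => lf (S.D a) v) =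
      S.phi2 u v + ((n + 1 : ℤ) : k) • v := by
  rw [← euler hv, chi2, sv_psi, phi2, Z_apply, map_add, lXD, lXD]
  abel

/-- the pieces `O_1 ⊗ Q` -/
def OQ (S : RS k U T) (n w d : ℤ) (g h : Fin 2 → Vy U) : Prop :=
  (∀ a, g a ∈ S.VV (n - 1) w (d - 1)) ∧ ∀ a, h a ∈ S.VV (n + 1) w (d - 1)

theorem sv_mem {n w d : ℤ} {g h : Fin 2 → Vy U} (hq : S.OQ n w d g h) :
    sv (k := k) g h ∈ S.VV n w (d - 1) := by
  obtain ⟨hg, hh⟩ := hq
  have e1 : ∀ a, y1 k U (g a) ∈ S.VV n w (d - 1) := fun a => by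
    have := y1_mem (hg a)
    rwa [show n - 1 + 1 = n by ring] at this
  have e0 : ∀ a, y0 k U (g a) ∈ S.VV n w (d - 1) := fun a => by
    have := y0_mem (hg a)
    rwa [show n - 1 + 1 = n by ring] at this
  have f1 : ∀ a, q1 k U (h a) ∈ S.VV n w (d - 1) := fun a => by
    have := q1_mem (hh a)
    rwa [show n + 1 - 1 = n by ring] at this
  have f0 : ∀ a, q0 k U (h a) ∈ S.VV n w (d - 1) := fun a => by
    have := q0_mem (hh a)
    rwa [show n + 1 - 1 = n by ring] at this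
  exact Submodule.sub_mem _ (Submodule.add_mem _ (Submodule.sub_mem _ (e1 0) (e0 1)) (f0 1))
    (f1 0)

theorem chi1_mem {n w d : ℤ} {g h : Fin 2 → Vy U} (hq : S.OQ n w d g h) :
    S.chi1 g h ∈ S.VV (n - 1) (w - 1) d := by
  have e : ∀ a, lf (S.D a) (g a) ∈ S.VV (n - 1) (w - 1) d := fun a => by
    have := D_mem a (hq.1 a)
    rwa [show d - 1 + 1 = d by ring] at this
  have f := be_mem (sv_mem hq)
  rw [show d - 1 + 1 = d by ring] at f
  exact Submodule.sub_mem _ (Submodule.add_mem _ (e 0) (e 1)) f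

theorem chi2_mem {n w d : ℤ} {g h : Fin 2 → Vy U} (hq : S.OQ n w d g h) :
    S.chi2 g h ∈ S.VV (n + 1) (w + 1) (d - 1) :=
  Submodule.add_mem _ (Submodule.add_mem _ (X_mem 0 (hq.2 0)) (X_mem 1 (hq.2 1)))
    (al_mem (sv_mem hq))

theorem sv_lin (g h g' h' : Fin 2 → Vy U) (c c' : k) :
    sv (k := k) (c • g + c' • g') (c • h + c' • h') = c • sv (k := k) g h + c' • sv (k := k) g' h' := by
  simp only [sv, Pi.add_apply, Pi.smul_apply, map_add, map_smul, smul_add, smul_sub]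
  abel

theorem chi1_lin (g h g' h' : Fin 2 → Vy U) (c c' : k) :
    S.chi1 (c • g + c' • g') (c • h + c' • h') = c • S.chi1 g h + c' • S.chi1 g' h' := by
  rw [chi1, sv_lin]
  simp only [chi1, Pi.add_apply, Pi.smul_apply, map_add, map_smul, smul_add, smul_sub]
  abel

theorem chi2_lin (g h g' h' : Fin 2 → Vy U) (c c' : k) :
    S.chi2 (c • g + c' • g') (c • h + c' • h') = c • S.chi2 g h + c' • S.chi2 g' h' := by
  rw [chi2, sv_lin]
  simp only [chi2, Pi.add_apply, Pi.smul_apply, map_add, map_smul, smul_add]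
  abel

variable [CharZero k]

omit [CharZero k] in
/-- exactness of `PP(n)` at `P_3` -/
theorem pp3 {n w d : ℤ} {z : Vy U} (hz : z ∈ S.VV n w d)
    (h : ∀ a, lf (S.D a) (S.al z) = 0) : z = 0 :=
  al_inj hz (D0_inj (al_mem hz) (h 0))

/-- exactness of `PP(n)` at `P_2` -/
theorem pp2 (n : ℕ) {w d : ℤ} {g h : Fin 2 → Vy U} (hq : S.OQ n w d g h)
    (h1 : ∀ a, lf (S.X a) (S.chi1 g h) = (((n : ℤ) + 1 : ℤ) : k) • g a)
    (h2 : ∀ a, lf (S.D a) (S.chi2 g h) = (((n : ℤ) + 1 : ℤ) : k) • h a) :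
    ∃ z ∈ S.VV (n : ℤ) w (d - 2), (∀ a, g a = lf (S.X a) (S.be z)) ∧
      ∀ a, h a = lf (S.D a) (-S.al z) := by
  set c : k := (((n : ℤ) + 1 : ℤ) : k) with hc
  have hc0 : c ≠ 0 := cast_succ_ne n
  set u : Vy U := c⁻¹ • S.chi1 g h with hu
  set v : Vy U := c⁻¹ • S.chi2 g h with hv
  have hgu : ∀ a, g a = lf (S.X a) u := fun a => by
    rw [hu, map_smul, h1, inv_smul_smul₀ hc0]
  have hhv : ∀ a, h a = lf (S.D a) v := fun a => by
    rw [hv, map_smul, h2, inv_smul_smul₀ hc0]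
  have hu' : u ∈ S.VV ((n : ℤ) - 1) (w - 1) (d - 1) := by
    refine X_strict (Submodule.smul_mem _ _ (chi1_mem hq)) ?_ ?_
    · rw [← hgu, show w - 1 + 1 = w by ring]
      exact hq.1 0
    · rw [← hgu, show w - 1 + 1 = w by ring]
      exact hq.1 1
  have hv' : v ∈ S.VV ((n : ℤ) + 1) (w + 1) (d - 2) := by
    have := D_strict (d := d - 1) (Submodule.smul_mem _ c⁻¹ (chi2_mem hq)) (by
      rw [← hhv, show w + 1 - 1 = w by ring]
      exact hq.2 0) (by
      rw [← hhv, show w + 1 - 1 = w by ring]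
      exact hq.2 1)
    rwa [show d - 1 - 1 = d - 2 by ring] at this
  have e2 : S.phi2 u v = 0 := by
    have h3 := chi2_psi (S := S) (n := n) u hv'
    have h4 : S.chi2 (fun a => lf (S.X a) u) (fun a => lf (S.D a) v) = c • v := by
      rw [← funext hgu, ← funext hhv, hv, smul_inv_smul₀ hc0]
    rw [h4] at h3
    exact (left_eq_add.1 (by rw [add_comm] at h3; exact h3))
  obtain ⟨z, hz, h5, h6⟩ := rr2 n hu' hv' e2
  exact ⟨z, hz, fun a => by rw [hgu, h5], fun a => by rw [hhv, h6]⟩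

/-- exactness of `PP(n)` at `P_1` -/
theorem pp1 (n : ℕ) {w d : ℤ} (hw : -1 ≤ w) {g h : Fin 2 → Vy U} (hq : S.OQ n w d g h)
    {u v : Vy U} (hu : u ∈ S.VV ((n : ℤ) - 1) (w - 1) d)
    (hv : v ∈ S.VV ((n : ℤ) + 1) (w + 1) (d - 1))
    (h0 : S.al (S.chi1 (g + fun a => lf (S.X a) u) (h + fun a => lf (S.D a) v)) +
      S.be (S.chi2 (g + fun a => lf (S.X a) u) (h + fun a => lf (S.D a) v)) = 0) :
    ∃ g' h' : Fin 2 → Vy U, S.OQ n w d g' h' ∧
      (∀ a, g a + lf (S.X a) u = lf (S.X a) (S.chi1 g' h') - (((n : ℤ) + 1 : ℤ) : k) • g' a) ∧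
      ∀ a, h a + lf (S.D a) v = lf (S.D a) (S.chi2 g' h') - (((n : ℤ) + 1 : ℤ) : k) • h' a := by
  set c : k := (((n : ℤ) + 1 : ℤ) : k) with hc
  have hc0 : c ≠ 0 := cast_succ_ne n
  have e1 : S.chi1 (g + fun a => lf (S.X a) u) (h + fun a => lf (S.D a) v) =
      S.chi1 g h + (S.phi1 u v + c • u) := by
    have := chi1_lin (S := S) g h (fun a => lf (S.X a) u) (fun a => lf (S.D a) v) 1 1
    rw [one_smul, one_smul, one_smul, one_smul, one_smul, one_smul, chi1_psi (n := n) hu] at this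
    exact this
  have e2 : S.chi2 (g + fun a => lf (S.X a) u) (h + fun a => lf (S.D a) v) =
      S.chi2 g h + (S.phi2 u v + c • v) := by
    have := chi2_lin (S := S) g h (fun a => lf (S.X a) u) (fun a => lf (S.D a) v) 1 1
    rw [one_smul, one_smul, one_smul, one_smul, one_smul, one_smul, chi2_psi (n := n) u hv] at this
    exact this
  have h1 : S.al (S.chi1 g h + c • u) + S.be (S.chi2 g h + c • v) = 0 := by
    have h2 := d1_phi (S := S) u v
    rw [e1, e2] at h0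
    simp only [map_add] at h0 ⊢
    rw [← h0]
    have h3 : S.al (S.chi1 g h) + (S.al (S.phi1 u v) + S.al (c • u)) +
        (S.be (S.chi2 g h) + (S.be (S.phi2 u v) + S.be (c • v))) =
        S.al (S.chi1 g h) + S.al (c • u) + (S.be (S.chi2 g h) + S.be (c • v)) +
        (S.al (S.phi1 u v) + S.be (S.phi2 u v)) := by abel
    rw [h3, h2, add_zero]
  obtain ⟨u', hu', v', hv', h3, h4⟩ := rr1 n hw
    (Submodule.add_mem _ (chi1_mem hq) (Submodule.smul_mem _ c hu))
    (Submodule.add_mem _ (chi2_mem hq) (Submodule.smul_mem _ c hv)) h1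
  have hpsi : S.OQ n w d (fun a => lf (S.X a) u') (fun a => lf (S.D a) v') := by
    constructor
    · intro a
      have := X_mem a hu'
      rwa [show w - 1 + 1 = w by ring] at this
    · intro a
      have := D_mem a hv'
      rwa [show w + 1 - 1 = w by ring, show d - 2 + 1 = d - 1 by ring] at this
  refine ⟨(-c⁻¹) • g + c⁻¹ • (fun a => lf (S.X a) u'), (-c⁻¹) • h + c⁻¹ • (fun a => lf (S.D a) v'),
    ⟨fun a => Submodule.add_mem _ (Submodule.smul_mem _ _ (hq.1 a))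
      (Submodule.smul_mem _ _ (hpsi.1 a)), fun a => Submodule.add_mem _
      (Submodule.smul_mem _ _ (hq.2 a)) (Submodule.smul_mem _ _ (hpsi.2 a))⟩, ?_, ?_⟩
  · intro a
    rw [chi1_lin, chi1_psi (n := n) hu', ← h3]
    have h5 : (-c⁻¹) • S.chi1 g h + c⁻¹ • (S.chi1 g h + c • u + c • u') = u + u' := by
      rw [smul_add, smul_add, inv_smul_smul₀ hc0, inv_smul_smul₀ hc0, neg_smul]
      abel
    rw [h5, Pi.add_apply, Pi.smul_apply, Pi.smul_apply, smul_add, smul_smul, smul_smul, map_add,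
      mul_neg, mul_inv_cancel₀ hc0, one_smul, neg_smul, one_smul]
    abel
  · intro a
    rw [chi2_lin, chi2_psi (n := n) u' hv', ← h4]
    have h5 : (-c⁻¹) • S.chi2 g h + c⁻¹ • (S.chi2 g h + c • v + c • v') = v + v' := by
      rw [smul_add, smul_add, inv_smul_smul₀ hc0, inv_smul_smul₀ hc0, neg_smul]
      abel
    rw [h5, Pi.add_apply, Pi.smul_apply, Pi.smul_apply, smul_add, smul_smul, smul_smul, map_add,
      mul_neg, mul_inv_cancel₀ hc0, one_smul, neg_smul, one_smul]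
    abel

/-- exactness of `PP(n)` at `P_0` -/
theorem pp0 (n : ℕ) {w d : ℤ} (hw : -1 ≤ w) {z : Vy U} (hz : z ∈ S.VV (n : ℤ) w d)
    (h : S.A (S.ev z) = 0) :
    ∃ u ∈ S.VV ((n : ℤ) - 1) (w - 1) d, ∃ v ∈ S.VV ((n : ℤ) + 1) (w + 1) (d - 1),
      z = S.al (S.chi1 (fun a => lf (S.X a) u) (fun a => lf (S.D a) v)) +
        S.be (S.chi2 (fun a => lf (S.X a) u) (fun a => lf (S.D a) v)) := by
  obtain ⟨u, hu, v, hv, h1⟩ := rr0 n hw hz h
  set c : k := (((n : ℤ) + 1 : ℤ) : k) with hc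
  have hc0 : c ≠ 0 := cast_succ_ne n
  have hu' := Submodule.smul_mem (S.VV ((n : ℤ) - 1) (w - 1) d) c⁻¹ hu
  have hv' := Submodule.smul_mem (S.VV ((n : ℤ) + 1) (w + 1) (d - 1)) c⁻¹ hv
  refine ⟨c⁻¹ • u, hu', c⁻¹ • v, hv', ?_⟩
  rw [chi1_psi (n := n) hu', chi2_psi (n := n) _ hv', smul_inv_smul₀ hc0, smul_inv_smul₀ hc0,
    map_add, map_add, h1]
  have h2 := d1_phi (S := S) (c⁻¹ • u) (c⁻¹ • v)
  have h3 : S.al (S.phi1 (c⁻¹ • u) (c⁻¹ • v)) + S.al u +
      (S.be (S.phi2 (c⁻¹ • u) (c⁻¹ • v)) + S.be v) =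
      S.al (S.phi1 (c⁻¹ • u) (c⁻¹ • v)) + S.be (S.phi2 (c⁻¹ • u) (c⁻¹ • v)) +
      (S.al u + S.be v) := by abel
  rw [h3, h2, zero_add]

end RS

end P195A
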