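import Vale.Agent.P195A.Dict
import Vale.Agent.P195A.PPx

/-!
# P195A: the transposes of `psi`, `chi` and of the differentials of `PP(n)`
-/

namespace P195A

variable {k U T : Type} [Field k] [AddCommGroup U] [Module k U] [AddCommGroup T] [Module k T]

namespace RS

variable (S : RS k U T)

/-- first component of the transpose of `psi` -/
noncomputable def pT1 (G : Fin 2 → Vy U) : Vy U := lf (S.D 0) (G 0) + lf (S.D 1) (G 1)

/-- second component of the transpose of `psi` -/
noncomputable def pT2 (H : Fin 2 → Vy U) : Vy U := lf (S.X 0) (H 0) + lf (S.X 1) (H 1)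

/-- `s = al M - be N` -/
noncomputable def cTs (M N : Vy U) : Vy U := S.al M - S.be N

/-- first component of the transpose of `chi` -/
noncomputable def cTg (M N : Vy U) : Fin 2 → Vy U :=
  ![lf (S.X 0) M + q1 k U (S.cTs M N), lf (S.X 1) M - q0 k U (S.cTs M N)]

/-- second component of the transpose of `chi` -/
noncomputable def cTh (M N : Vy U) : Fin 2 → Vy U :=
  ![lf (S.D 0) N - y1 k U (S.cTs M N), lf (S.D 1) N + y0 k U (S.cTs M N)]

theorem cTg_zero (M N : Vy U) : S.cTg M N 0 = lf (S.X 0) M + q1 k U (S.cTs M N) := rfl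

theorem cTg_one (M N : Vy U) : S.cTg M N 1 = lf (S.X 1) M - q0 k U (S.cTs M N) := rfl

theorem cTh_zero (M N : Vy U) : S.cTh M N 0 = lf (S.D 0) N - y1 k U (S.cTs M N) := rfl

theorem cTh_one (M N : Vy U) : S.cTh M N 1 = lf (S.D 1) N + y0 k U (S.cTs M N) := rfl

end RS

/-- the pairing on `O_1 ⊗ Q` -/
noncomputable def prQ (g h G H : Fin 2 → Vy (Wo k)) : Wo k :=
  pr (g 0) (G 0) + pr (g 1) (G 1) + (pr (h 0) (H 0) + pr (h 1) (H 1))

theorem pr_sv (g h : Fin 2 → Vy (Wo k)) (s : Vy (Wo k)) :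
    pr (RS.sv (k := k) g h) s = pr (g 0) (q1 k (Wo k) s) - pr (g 1) (q0 k (Wo k) s) +
      pr (h 1) (y0 k (Wo k) s) - pr (h 0) (y1 k (Wo k) s) := by
  simp only [RS.sv, map_sub, map_add, LinearMap.sub_apply, LinearMap.add_apply, pr_y0, pr_y1,
    pr_q0, pr_q1]

variable [CharZero k]

/-- the transpose of `psi` -/
theorem prQ_psi (u v : Vy (Wo k)) (G H : Fin 2 → Vy (Wo k)) :
    prQ (fun a => lf ((primal k).X a) u) (fun a => lf ((primal k).D a) v) G H =
      pr u ((dual k).pT1 G) + pr v ((dual k).pT2 H) := by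
  simp only [prQ, pr_X, pr_D, RS.pT1, RS.pT2, map_add]

/-- the transpose of `chi` -/
theorem pr_chi (g h : Fin 2 → Vy (Wo k)) (M N : Vy (Wo k)) :
    pr ((primal k).chi1 g h) M + pr ((primal k).chi2 g h) N =
      prQ g h ((dual k).cTg M N) ((dual k).cTh M N) := by
  simp only [prQ, RS.cTg_zero, RS.cTg_one, RS.cTh_zero, RS.cTh_one, RS.chi1, RS.chi2, map_sub,
    map_add, LinearMap.sub_apply, LinearMap.add_apply, pr_D, pr_X, pr_be, pr_al, pr_sv, RS.cTs]
  abel

end P195A
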