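import Vale.Agent.P195A.VF

/-!
# P195A: the dual of `PP(n)`: exactness from the exactness of the dual of `RR(n)`, for an
arbitrary family `E w d` of subspaces

Coordinates: `(g, h)` for the dual of `O_1 ⊗ Q`, `(u, v)` for the dual of `RR_1, RR_2`; the sign of
the `Sym^(n+1)` parts is changed, so that `phi^* = phi`, `d_3^* = -(al u + be v)`,
`d_1^* z = -(be z, -al z)`.
-/

namespace P195A

variable {k U T : Type} [Field k] [AddCommGroup U] [Module k U] [AddCommGroup T] [Module k T]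

namespace RS

variable (S : RS k U T)

/-- `psi^*`, first component -/
noncomputable def ka1 (g : Fin 2 → Vy U) : Vy U := lf (S.D 0) (g 0) + lf (S.D 1) (g 1)

/-- `psi^*`, second component -/
noncomputable def ka2 (h : Fin 2 → Vy U) : Vy U := lf (S.X 0) (h 0) + lf (S.X 1) (h 1)

/-- `t = al u + be v` -/
noncomputable def tv (u v : Vy U) : Vy U := S.al u + S.be v

/-- `chi^*`, first component -/
noncomputable def la1 (u v : Vy U) : Fin 2 → Vy U :=
  ![lf (S.X 0) u + q1 k U (S.tv u v), lf (S.X 1) u - q0 k U (S.tv u v)]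

/-- `chi^*`, second component -/
noncomputable def la2 (u v : Vy U) : Fin 2 → Vy U :=
  ![lf (S.D 0) v + y1 k U (S.tv u v), lf (S.D 1) v - y0 k U (S.tv u v)]

variable {S}

theorem ka1_la {Q : Submodule k U} {n : ℤ} {u : Vy U} (hu : u ∈ VVf Q (n - 1)) (v : Vy U) :
    S.ka1 (S.la1 u v) = S.phi1 u v + ((n + 1 : ℤ) : k) • u := by
  have e := VVf_euler hu
  have h1 : ((n + 1 : ℤ) : k) • u = y0 k U (q0 k U u) + y1 k U (q1 k U u) + (u + u) := by
    rw [e, show ((n + 1 : ℤ) : k) = ((n - 1 : ℤ) : k) + 2 by push_cast; ring, add_smul, two_smul]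
  rw [h1]
  simp only [ka1, la1, tv, phi1, Z_apply, Matrix.cons_val_zero, Matrix.cons_val_one, map_add,
    map_sub, be_apply]
  abel

theorem ka2_la {Q : Submodule k U} {n : ℤ} (u : Vy U) {v : Vy U} (hv : v ∈ VVf Q (n + 1)) :
    S.ka2 (S.la2 u v) = S.phi2 u v + ((n + 1 : ℤ) : k) • v := by
  rw [← VVf_euler hv]
  simp only [ka2, la2, tv, phi2, Z_apply, Matrix.cons_val_zero, Matrix.cons_val_one, map_add,
    map_sub, lXD]
  simp only [al_apply, map_sub, lf_y0, lf_y1]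
  abel

theorem ka1_lin (g g' : Fin 2 → Vy U) (c c' : k) :
    S.ka1 (c • g + c' • g') = c • S.ka1 g + c' • S.ka1 g' := by
  simp only [ka1, Pi.add_apply, Pi.smul_apply, map_add, map_smul, smul_add]
  abel

theorem ka2_lin (g g' : Fin 2 → Vy U) (c c' : k) :
    S.ka2 (c • g + c' • g') = c • S.ka2 g + c' • S.ka2 g' := by
  simp only [ka2, Pi.add_apply, Pi.smul_apply, map_add, map_smul, smul_add]
  abel

theorem tv_lin (u v u' v' : Vy U) (c c' : k) :
    S.tv (c • u + c' • u') (c • v + c' • v') = c • S.tv u v + c' • S.tv u' v' := by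
  simp only [tv, map_add, map_smul, smul_add]
  abel

theorem la1_lin (u v u' v' : Vy U) (c c' : k) :
    S.la1 (c • u + c' • u') (c • v + c' • v') = c • S.la1 u v + c' • S.la1 u' v' := by
  funext a
  fin_cases a
  · simp only [la1, tv_lin, map_add, map_smul, Fin.zero_eta, Matrix.cons_val_zero, Pi.add_apply,
      Pi.smul_apply, smul_add]
    abel
  · simp only [la1, tv_lin, map_add, map_smul, Fin.mk_one, Matrix.cons_val_one,
      Matrix.cons_val_zero, Pi.add_apply, Pi.smul_apply, smul_sub]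
    abel

theorem la2_lin (u v u' v' : Vy U) (c c' : k) :
    S.la2 (c • u + c' • u') (c • v + c' • v') = c • S.la2 u v + c' • S.la2 u' v' := by
  funext a
  fin_cases a
  · simp only [la2, tv_lin, map_add, map_smul, Fin.zero_eta, Matrix.cons_val_zero, Pi.add_apply,
      Pi.smul_apply, smul_add]
    abel
  · simp only [la2, tv_lin, map_add, map_smul, Fin.mk_one, Matrix.cons_val_one,
      Matrix.cons_val_zero, Pi.add_apply, Pi.smul_apply, smul_sub]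
    abel

theorem la1_smul (u v : Vy U) (c : k) : S.la1 (c • u) (c • v) = c • S.la1 u v := by
  have := la1_lin (S := S) u v 0 0 c 0
  simpa using this

theorem la2_smul (u v : Vy U) (c : k) : S.la2 (c • u) (c • v) = c • S.la2 u v := by
  have := la2_lin (S := S) u v 0 0 c 0
  simpa using this

/-- hypotheses on the family `E` -/
structure Fam (S : RS k U T) (E : ℤ → ℤ → Submodule k U) : Prop where
  hX : ∀ w d a u, u ∈ E w d → S.X a u ∈ E (w + 1) (d - 1)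
  hD : ∀ w d a u, u ∈ E w d → S.D a u ∈ E (w - 1) d
  hm : ∀ w d, E w (d + 1) ≤ E w d

/-- RR-exactness (dual side) of the family `E`, degree `n` -/
structure FamEx (S : RS k U T) (E : ℤ → ℤ → Submodule k U) (n : ℤ) : Prop where
  t1 : ∀ z ∈ VVf (E 0 2) n, S.al z = 0 → z = 0
  t2 : ∀ u ∈ VVf (E (-1) 2) (n - 1), ∀ v ∈ VVf (E 1 1) (n + 1), S.phi1 u v = 0 →
    S.phi2 u v = 0 → ∃ z ∈ VVf (E 0 2) n, u = S.be z ∧ v = -S.al z
  t3 : ∀ u ∈ VVf (E (-1) 1) (n - 1), ∀ v ∈ VVf (E 1 0) (n + 1), S.al u + S.be v = 0 →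
    ∃ u' ∈ VVf (E (-1) 2) (n - 1), ∃ v' ∈ VVf (E 1 1) (n + 1),
      u = S.phi1 u' v' ∧ v = S.phi2 u' v'

/-- the generation conditions -/
structure FamGen (S : RS k U T) (E : ℤ → ℤ → Submodule k U) : Prop where
  gD : ∀ u ∈ E (-1) 1, ∃ a ∈ E 0 1, ∃ b ∈ E 0 1, ∃ c ∈ E (-1) 2, u = S.D 0 a + S.D 1 b + c
  gX : ∀ u ∈ E 1 0, ∃ a ∈ E 0 1, ∃ b ∈ E 0 1, ∃ c ∈ E 1 1, u = S.X 0 a + S.X 1 b + c

variable {E : ℤ → ℤ → Submodule k U}

theorem tv_mem (hE : Fam S E) {n : ℤ} {u v : Vy U} (hu : u ∈ VVf (E (-1) 2) (n - 1))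
    (hv : v ∈ VVf (E 1 1) (n + 1)) : S.tv u v ∈ VVf (E 0 1) n := by
  have e : ∀ a, lf (S.X a) u ∈ VVf (E 0 1) (n - 1) := fun a =>
    VVf_lf (fun x hx => by
      have := hE.hX _ _ a x hx
      simpa using this) hu
  have f : ∀ a, lf (S.D a) v ∈ VVf (E 0 1) (n + 1) := fun a =>
    VVf_lf (fun x hx => by
      have := hE.hD _ _ a x hx
      simpa using this) hv
  have e1 := VVf_y1 (e 0)
  have e0 := VVf_y0 (e 1)
  have f1 := VVf_q0 (f 1)
  have f0 := VVf_q1 (f 0)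
  rw [show n - 1 + 1 = n by ring, ← lf_y1] at e1
  rw [show n - 1 + 1 = n by ring, ← lf_y0] at e0
  rw [show n + 1 - 1 = n by ring, ← lf_q0] at f1
  rw [show n + 1 - 1 = n by ring, ← lf_q1] at f0
  exact Submodule.add_mem _ (Submodule.sub_mem _ e1 e0) (Submodule.sub_mem _ f1 f0)

theorem la1_mem (hE : Fam S E) {n : ℤ} {u v : Vy U} (hu : u ∈ VVf (E (-1) 2) (n - 1))
    (hv : v ∈ VVf (E 1 1) (n + 1)) (a : Fin 2) : S.la1 u v a ∈ VVf (E 0 1) (n - 1) := by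
  have ht := tv_mem hE hu hv
  have e : ∀ a, lf (S.X a) u ∈ VVf (E 0 1) (n - 1) := fun a =>
    VVf_lf (fun x hx => by
      have := hE.hX _ _ a x hx
      simpa using this) hu
  fin_cases a
  · exact Submodule.add_mem _ (e 0) (VVf_q1 ht)
  · exact Submodule.sub_mem _ (e 1) (VVf_q0 ht)

theorem la2_mem (hE : Fam S E) {n : ℤ} {u v : Vy U} (hu : u ∈ VVf (E (-1) 2) (n - 1))
    (hv : v ∈ VVf (E 1 1) (n + 1)) (a : Fin 2) : S.la2 u v a ∈ VVf (E 0 1) (n + 1) := by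
  have ht := tv_mem hE hu hv
  have f : ∀ a, lf (S.D a) v ∈ VVf (E 0 1) (n + 1) := fun a =>
    VVf_lf (fun x hx => by
      have := hE.hD _ _ a x hx
      simpa using this) hv
  fin_cases a
  · exact Submodule.add_mem _ (f 0) (VVf_y1 ht)
  · exact Submodule.sub_mem _ (f 1) (VVf_y0 ht)

variable [CharZero k]

/-- dual of `PP(n)`, spot `P_0^*` -/
theorem pd0 (n : ℕ) (hx : FamEx S E n) {z : Vy U} (hz : z ∈ VVf (E 0 2) n)
    (h2 : S.la2 (S.be z) (-S.al z) = 0) : z = 0 := by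
  have hal : S.al z ∈ VVf (⊤ : Submodule k U) ((n : ℤ) + 1) := by
    have hz' : z ∈ VVf (⊤ : Submodule k U) (n : ℤ) := VVf_mono le_top hz
    exact Submodule.sub_mem _ (VVf_lf (fun _ _ => Submodule.mem_top) (VVf_y1 hz'))
      (VVf_lf (fun _ _ => Submodule.mem_top) (VVf_y0 hz'))
  have h3 := ka2_la (S := S) (n := n) (S.be z) (Submodule.neg_mem _ hal)
  rw [h2, phi2_d3, zero_add] at h3
  have h4 : S.ka2 (0 : Fin 2 → Vy U) = 0 := by simp [ka2]
  rw [h4] at h3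
  have h5 := (smul_eq_zero.1 h3.symm).resolve_left (cast_succ_ne n)
  exact hx.t1 z hz (neg_eq_zero.1 h5)

/-- dual of `PP(n)`, spot `P_1^*` -/
theorem pd1 (n : ℕ) (hx : FamEx S E n) {g h : Fin 2 → Vy U}
    (hg : S.ka1 g ∈ VVf (E (-1) 2) ((n : ℤ) - 1)) (hh : S.ka2 h ∈ VVf (E 1 1) ((n : ℤ) + 1))
    (h1 : S.la1 (S.ka1 g) (S.ka2 h) = (((n : ℤ) + 1 : ℤ) : k) • g)
    (h2 : S.la2 (S.ka1 g) (S.ka2 h) = (((n : ℤ) + 1 : ℤ) : k) • h) :
    ∃ z ∈ VVf (E 0 2) (n : ℤ), g = S.la1 (S.be z) (-S.al z) ∧ h = S.la2 (S.be z) (-S.al z) := by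
  set c : k := (((n : ℤ) + 1 : ℤ) : k) with hc
  have hc0 : c ≠ 0 := cast_succ_ne n
  set u : Vy U := c⁻¹ • S.ka1 g with hu
  set v : Vy U := c⁻¹ • S.ka2 h with hv
  have hu' : u ∈ VVf (E (-1) 2) ((n : ℤ) - 1) := Submodule.smul_mem _ _ hg
  have hv' : v ∈ VVf (E 1 1) ((n : ℤ) + 1) := Submodule.smul_mem _ _ hh
  have hgu : g = S.la1 u v := by rw [hu, hv, la1_smul, h1, inv_smul_smul₀ hc0]
  have hhv : h = S.la2 u v := by rw [hu, hv, la2_smul, h2, inv_smul_smul₀ hc0]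
  have e1 : S.phi1 u v = 0 := by
    have h3 := ka1_la (S := S) (n := n) hu' v
    have h4 : S.ka1 (S.la1 u v) = c • u := by rw [← hgu, hu, smul_inv_smul₀ hc0]
    rw [h4, add_comm] at h3
    exact left_eq_add.1 h3
  have e2 : S.phi2 u v = 0 := by
    have h3 := ka2_la (S := S) (n := n) u hv'
    have h4 : S.ka2 (S.la2 u v) = c • v := by rw [← hhv, hv, smul_inv_smul₀ hc0]
    rw [h4, add_comm] at h3
    exact left_eq_add.1 h3
  obtain ⟨z, hz, h5, h6⟩ := hx.t2 u hu' v hv' e1 e2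
  exact ⟨z, hz, by rw [hgu, h5, h6], by rw [hhv, h5, h6]⟩

/-- dual of `PP(n)`, spot `P_2^*` -/
theorem pd2 (n : ℕ) (hE : Fam S E) (hx : FamEx S E n) {g h : Fin 2 → Vy U}
    (hg : ∀ a, g a ∈ VVf (E 0 1) ((n : ℤ) - 1)) (hh : ∀ a, h a ∈ VVf (E 0 1) ((n : ℤ) + 1))
    (h0 : S.al (S.ka1 g) + S.be (S.ka2 h) = 0) :
    ∃ g' h' : Fin 2 → Vy U, (∀ a, g' a ∈ VVf (E 0 1) ((n : ℤ) - 1)) ∧
      (∀ a, h' a ∈ VVf (E 0 1) ((n : ℤ) + 1)) ∧ S.ka1 g' ∈ VVf (E (-1) 2) ((n : ℤ) - 1) ∧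
      S.ka2 h' ∈ VVf (E 1 1) ((n : ℤ) + 1) ∧
      g = S.la1 (S.ka1 g') (S.ka2 h') - (((n : ℤ) + 1 : ℤ) : k) • g' ∧
      h = S.la2 (S.ka1 g') (S.ka2 h') - (((n : ℤ) + 1 : ℤ) : k) • h' := by
  set c : k := (((n : ℤ) + 1 : ℤ) : k) with hc
  have hc0 : c ≠ 0 := cast_succ_ne n
  have m1 : S.ka1 g ∈ VVf (E (-1) 1) ((n : ℤ) - 1) := by
    have e : ∀ a, lf (S.D a) (g a) ∈ VVf (E (-1) 1) ((n : ℤ) - 1) := fun a =>
      VVf_lf (fun x hx => by
        have := hE.hD _ _ a x hx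
        simpa using this) (hg a)
    exact Submodule.add_mem _ (e 0) (e 1)
  have m2 : S.ka2 h ∈ VVf (E 1 0) ((n : ℤ) + 1) := by
    have e : ∀ a, lf (S.X a) (h a) ∈ VVf (E 1 0) ((n : ℤ) + 1) := fun a =>
      VVf_lf (fun x hx => by
        have := hE.hX _ _ a x hx
        simpa using this) (hh a)
    exact Submodule.add_mem _ (e 0) (e 1)
  obtain ⟨u, hu, v, hv, h1, h2⟩ := hx.t3 _ m1 _ m2 h0
  have e1 := ka1_la (S := S) (n := n) hu v
  have e2 := ka2_la (S := S) (n := n) u hv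
  rw [← h1, ← hc] at e1
  rw [← h2, ← hc] at e2
  have f1 : S.ka1 (c⁻¹ • S.la1 u v + (-c⁻¹) • g) = u := by
    rw [ka1_lin, e1, smul_add, inv_smul_smul₀ hc0, neg_smul]
    abel
  have f2 : S.ka2 (c⁻¹ • S.la2 u v + (-c⁻¹) • h) = v := by
    rw [ka2_lin, e2, smul_add, inv_smul_smul₀ hc0, neg_smul]
    abel
  refine ⟨c⁻¹ • S.la1 u v + (-c⁻¹) • g, c⁻¹ • S.la2 u v + (-c⁻¹) • h, ?_, ?_, ?_, ?_, ?_, ?_⟩
  · intro a
    exact Submodule.add_mem _ (Submodule.smul_mem _ _ (la1_mem hE hu hv a))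
      (Submodule.smul_mem _ _ (hg a))
  · intro a
    exact Submodule.add_mem _ (Submodule.smul_mem _ _ (la2_mem hE hu hv a))
      (Submodule.smul_mem _ _ (hh a))
  · rw [f1]
    exact hu
  · rw [f2]
    exact hv
  · rw [f1, f2, smul_add, smul_inv_smul₀ hc0, neg_smul, smul_neg, smul_inv_smul₀ hc0]
    abel
  · rw [f1, f2, smul_add, smul_inv_smul₀ hc0, neg_smul, smul_neg, smul_inv_smul₀ hc0]
    abel

/-- dual of `PP(n)`: the image of `P_2^* → P_3^*` is the image of `RR_2^* → RR_3^*` -/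
theorem pd3 (n : ℕ) (hE : Fam S E) (hG : FamGen S E) {u v : Vy U}
    (hu : u ∈ VVf (E (-1) 1) ((n : ℤ) - 1)) (hv : v ∈ VVf (E 1 0) ((n : ℤ) + 1)) :
    ∃ g h : Fin 2 → Vy U, (∀ a, g a ∈ VVf (E 0 1) ((n : ℤ) - 1)) ∧
      (∀ a, h a ∈ VVf (E 0 1) ((n : ℤ) + 1)) ∧
      S.al u + S.be v = S.al (S.ka1 g) + S.be (S.ka2 h) := by
  set c : k := (((n : ℤ) + 1 : ℤ) : k) with hc
  have hc0 : c ≠ 0 := cast_succ_ne n
  obtain ⟨a, ha, b, hb, u', hu', h1⟩ := VVf_gen hG.gD hu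
  obtain ⟨a', ha', b', hb', v', hv', h2⟩ := VVf_gen hG.gX hv
  have e1 := ka1_la (S := S) (n := n) hu' v'
  have e2 := ka2_la (S := S) (n := n) u' hv'
  have h3 := d1_phi (S := S) u' v'
  refine ⟨![a, b] + c⁻¹ • S.la1 u' v', ![a', b'] + c⁻¹ • S.la2 u' v', ?_, ?_, ?_⟩
  · intro i
    refine Submodule.add_mem _ ?_ (Submodule.smul_mem _ _ (la1_mem hE hu' hv' i))
    fin_cases i
    · exact ha
    · exact hb
  · intro i
    refine Submodule.add_mem _ ?_ (Submodule.smul_mem _ _ (la2_mem hE hu' hv' i))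
    fin_cases i
    · exact ha'
    · exact hb'
  · have f1 : S.ka1 (![a, b] + c⁻¹ • S.la1 u' v') =
        lf (S.D 0) a + lf (S.D 1) b + (c⁻¹ • S.phi1 u' v' + u') := by
      have := ka1_lin (S := S) ![a, b] (S.la1 u' v') 1 c⁻¹
      rw [one_smul, one_smul, e1, smul_add, inv_smul_smul₀ hc0] at this
      exact this
    have f2 : S.ka2 (![a', b'] + c⁻¹ • S.la2 u' v') =
        lf (S.X 0) a' + lf (S.X 1) b' + (c⁻¹ • S.phi2 u' v' + v') := by
      have := ka2_lin (S := S) ![a', b'] (S.la2 u' v') 1 c⁻¹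
      rw [one_smul, one_smul, e2, smul_add, inv_smul_smul₀ hc0] at this
      exact this
    rw [f1, f2, h1, h2]
    simp only [map_add, map_smul]
    have h4 : c⁻¹ • S.al (S.phi1 u' v') + c⁻¹ • S.be (S.phi2 u' v') = 0 := by
      rw [← smul_add, h3, smul_zero]
    have h5 : ∀ p q r s t w x y : Vy U, x + y = 0 →
        p + q + r + (s + t + w) = p + q + (x + r) + (s + t + (y + w)) := by
      intro p q r s t w x y hxy
      have : p + q + (x + r) + (s + t + (y + w)) = p + q + r + (s + t + w) + (x + y) := by abel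
      rw [this, hxy, add_zero]
    exact h5 _ _ _ _ _ _ _ _ h4

end RS

end P195A
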