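import Vale.Agent.P195A.PiSys
import Vale.Agent.P195A.PPd
import Vale.Agent.P195M.Ident

/-!
# P195A: the transposes of the differentials of `PP(n)` in the coordinates of `PPd`
-/

namespace P195A

variable {k : Type} [Field k] {I : Type}

/-- the (signed) pairing on `P_1`, `P_2` -/
noncomputable def prS (q t : Fin 2 → Vy (Wo k)) (G H : Fin 2 → Vy (I → Wo k)) : I → Wo k :=
  prI (q 0) (G 0) + prI (q 1) (G 1) - (prI (t 0) (H 0) + prI (t 1) (H 1))

theorem prS_sub (q t : Fin 2 → Vy (Wo k)) (G H G' H' : Fin 2 → Vy (I → Wo k)) :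
    prS q t (G - G') (H - H') = prS q t G H - prS q t G' H' := by
  simp only [prS, Pi.sub_apply, map_sub]
  abel

theorem prS_smul (c : k) (q t : Fin 2 → Vy (Wo k)) (G H : Fin 2 → Vy (I → Wo k)) :
    prS q t (c • G) (c • H) = c • prS q t G H := by
  simp only [prS, Pi.smul_apply, map_smul, smul_sub, smul_add]

theorem prS_sub_left (q t q' t' : Fin 2 → Vy (Wo k)) (G H : Fin 2 → Vy (I → Wo k)) :
    prS (q - q') (t - t') G H = prS q t G H - prS q' t' G H := by
  simp only [prS, Pi.sub_apply, map_sub, LinearMap.sub_apply]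
  abel

theorem prS_smul_left (c : k) (q t : Fin 2 → Vy (Wo k)) (G H : Fin 2 → Vy (I → Wo k)) :
    prS (c • q) (c • t) G H = c • prS q t G H := by
  simp only [prS, Pi.smul_apply, map_smul, LinearMap.smul_apply, smul_sub, smul_add]

variable [CharZero k]

/-- the pairing determines `G`, `H` -/
theorem prS_ext {G H G' H' : Fin 2 → Vy (I → Wo k)}
    (h1 : ∀ (a : Fin 2) (p : ℕ × ℕ), prS (Pi.single a (Finsupp.single p 1)) 0 G H =
      prS (Pi.single a (Finsupp.single p 1)) 0 G' H')
    (h2 : ∀ (a : Fin 2) (p : ℕ × ℕ), prS 0 (Pi.single a (Finsupp.single p 1)) G H =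
      prS 0 (Pi.single a (Finsupp.single p 1)) G' H') : G = G' ∧ H = H' := by
  constructor
  · funext a
    refine prI_ext fun p => ?_
    have := h1 a p
    fin_cases a <;> simpa [prS] using this
  · funext a
    refine prI_ext fun p => ?_
    have := h2 a p
    fin_cases a <;> simpa [prS] using this

theorem prS_psi (u v : Vy (Wo k)) (G H : Fin 2 → Vy (I → Wo k)) :
    prS ((primal k).psi1 u) ((primal k).psi2 v) G H =
      prI u (((dual k).pi I).ka1 G) - prI v (((dual k).pi I).ka2 H) := by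
  simp only [prS, RS.psi1_apply, RS.psi2_apply, prI_X, prI_D, RS.ka1, RS.ka2, map_add]

theorem prS_chi (q t : Fin 2 → Vy (Wo k)) (M N : Vy (I → Wo k)) :
    prI ((primal k).chi1 q t) M - prI ((primal k).chi2 q t) N =
      prS q t (((dual k).pi I).la1 M N) (((dual k).pi I).la2 M N) := by
  simp only [prS, RS.la1, RS.la2, RS.tv, RS.chi1, RS.chi2, RS.sv, map_sub, map_add,
    LinearMap.sub_apply, LinearMap.add_apply, prI_D, prI_X, prI_be, prI_al, prI_y0, prI_y1,
    prI_q0, prI_q1, Matrix.cons_val_zero, Matrix.cons_val_one]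
  abel

/-- transpose of `del_1` -/
theorem prI_dl1 (q t : Fin 2 → Vy (Wo k)) (z : Vy (I → Wo k)) :
    prI ((primal k).dl1 q t) z =
      -prS q t (((dual k).pi I).la1 (((dual k).pi I).be z) (-((dual k).pi I).al z))
        (((dual k).pi I).la2 (((dual k).pi I).be z) (-((dual k).pi I).al z)) := by
  rw [← prS_chi, RS.dl1, map_add, LinearMap.add_apply, prI_al, prI_be, map_neg]
  abel

/-- transpose of `del_2` -/
theorem prS_dl2 (n : ℕ) (q t : Fin 2 → Vy (Wo k)) (G H : Fin 2 → Vy (I → Wo k)) :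
    prS ((primal k).dl2a n q t) ((primal k).dl2b n q t) G H =
      prS q t (((dual k).pi I).la1 (((dual k).pi I).ka1 G) (((dual k).pi I).ka2 H) -
          ((n : k) + 1) • G)
        (((dual k).pi I).la2 (((dual k).pi I).ka1 G) (((dual k).pi I).ka2 H) -
          ((n : k) + 1) • H) := by
  rw [prS_sub, prS_smul, RS.dl2a, RS.dl2b, prS_sub_left, prS_smul_left, prS_psi, prS_chi]

/-- transpose of `del_3` -/
theorem prS_dl3 (r : Vy (Wo k)) (G H : Fin 2 → Vy (I → Wo k)) :
    prS ((primal k).dl3a r) ((primal k).dl3b r) G H =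
      -prI r (((dual k).pi I).al (((dual k).pi I).ka1 G) +
        ((dual k).pi I).be (((dual k).pi I).ka2 H)) := by
  rw [RS.dl3a, RS.dl3b, prS_psi, map_neg, LinearMap.neg_apply, prI_be, prI_al, map_add]
  abel

end P195A
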