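import Vale.Agent.P195A.Sym

/-!
# P195A: division facts in the filtered pieces of the Weyl algebra
-/

namespace P195A

open MvPolynomial

variable {k : Type} [Field k]

theorem FS_of_x_mul {w d : ℤ} (a : Fin 2) {p : Sy k} (hp : X (Sum.inl a) * p ∈ FS k w d) :
    p ∈ FS k (w - 1) d := by
  intro m hm
  have h1 : Finsupp.single (Sum.inl a) 1 + m ∈ (X (Sum.inl a) * p).support := by
    rw [mem_support_iff, coeff_X_mul]
    exact mem_support_iff.1 hm
  obtain ⟨h2, h3⟩ := hp _ h1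
  fin_cases a <;> simp [wtm, odm] at h2 h3 ⊢ <;> omega

theorem FS_of_xi_mul {w d : ℤ} (a : Fin 2) {p : Sy k} (hp : X (Sum.inr a) * p ∈ FS k w d) :
    p ∈ FS k (w + 1) (d - 1) := by
  intro m hm
  have h1 : Finsupp.single (Sum.inr a) 1 + m ∈ (X (Sum.inr a) * p).support := by
    rw [mem_support_iff, coeff_X_mul]
    exact mem_support_iff.1 hm
  obtain ⟨h2, h3⟩ := hp _ h1
  fin_cases a <;> simp [wtm, odm] at h2 h3 ⊢ <;> omega

theorem FS_monomial {w d : ℤ} {m : Fin 2 ⊕ Fin 2 →₀ ℕ} (h1 : wtm m = w) (h2 : odm m ≤ d) :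
    monomial m (1 : k) ∈ FS k w d := by
  classical
  intro m' hm'
  rw [Finset.mem_singleton.1 (support_monomial_subset hm')]
  exact ⟨h1, h2⟩

/-- operators of positive weight are combinations of right multiples of `x_0, x_1` -/
theorem Dg_pos {w d : ℤ} (hw : 0 < w) {T : Wo k} (hT : T ∈ Dg k w d) :
    ∃ S₀ ∈ Dg k (w - 1) d, ∃ S₁ ∈ Dg k (w - 1) d, T = S₀ * xo k 0 + S₁ * xo k 1 := by
  classical
  rw [Dg_eq_AO] at hT
  obtain ⟨p, hp, rfl⟩ := hT
  let N : Submodule k (Wo k) :=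
    (Dg k (w - 1) d).map (LinearMap.mulRight k (xo k 0)) ⊔
      (Dg k (w - 1) d).map (LinearMap.mulRight k (xo k 1))
  have key : AO k p ∈ N := by
    rw [p.as_sum, map_sum]
    refine Submodule.sum_mem _ fun m hm => ?_
    obtain ⟨h1, h2⟩ := hp m hm
    have h3 : (monomial m (coeff m p) : Sy k) = coeff m p • monomial m 1 := by
      rw [smul_monomial, smul_eq_mul, mul_one]
    rw [h3, map_smul]
    refine Submodule.smul_mem _ _ ?_
    have h4 : ∃ a : Fin 2, m (Sum.inl a) ≠ 0 := by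
      by_contra hcon
      push Not at hcon
      have e0 := hcon 0
      have e1 := hcon 1
      simp only [wtm, e0, e1] at h1
      omega
    obtain ⟨a, ha⟩ := h4
    obtain ⟨m', rfl⟩ : ∃ m', m = Finsupp.single (Sum.inl a) 1 + m' :=
      ⟨m - Finsupp.single (Sum.inl a) 1, by
        rw [add_tsub_cancel_of_le]
        rw [Finsupp.single_le_iff]
        omega⟩
    have h5 : (monomial (Finsupp.single (Sum.inl a) 1 + m') (1 : k) : Sy k) =
        X (Sum.inl a) * monomial m' 1 := by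
      rw [X, monomial_mul, one_mul]
    have h6 : AO k (monomial m' 1) ∈ Dg k (w - 1) d := by
      rw [Dg_eq_AO]
      refine ⟨_, FS_of_x_mul a ?_, rfl⟩
      rw [← h5]
      exact FS_monomial h1 h2
    rw [h5, AO_x_mul]
    fin_cases a
    · exact Submodule.mem_sup_left ⟨_, h6, rfl⟩
    · exact Submodule.mem_sup_right ⟨_, h6, rfl⟩
  obtain ⟨y, ⟨S₀, h0, rfl⟩, z, ⟨S₁, h1, rfl⟩, h⟩ := Submodule.mem_sup.1 key
  exact ⟨S₀, h0, S₁, h1, h.symm⟩

/-- operators of negative weight are combinations of right multiples of `∂_0, ∂_1` -/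
theorem Dg_neg_aux {w d : ℤ} {p : Sy k} (hp : p ∈ FS k w d)
    (h : ∀ m ∈ p.support, ∃ a : Fin 2, m (Sum.inr a) ≠ 0) :
    ∃ S₀ ∈ Dg k (w + 1) (d - 1), ∃ S₁ ∈ Dg k (w + 1) (d - 1),
      NO k p = S₀ * po k 0 + S₁ * po k 1 := by
  classical
  let N : Submodule k (Wo k) :=
    (Dg k (w + 1) (d - 1)).map (LinearMap.mulRight k (po k 0)) ⊔
      (Dg k (w + 1) (d - 1)).map (LinearMap.mulRight k (po k 1))
  have key : NO k p ∈ N := by
    rw [p.as_sum, map_sum]
    refine Submodule.sum_mem _ fun m hm => ?_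
    obtain ⟨h1, h2⟩ := hp m hm
    have h3 : (monomial m (coeff m p) : Sy k) = coeff m p • monomial m 1 := by
      rw [smul_monomial, smul_eq_mul, mul_one]
    rw [h3, map_smul]
    refine Submodule.smul_mem _ _ ?_
    obtain ⟨a, ha⟩ := h m hm
    obtain ⟨m', rfl⟩ : ∃ m', m = Finsupp.single (Sum.inr a) 1 + m' :=
      ⟨m - Finsupp.single (Sum.inr a) 1, by
        rw [add_tsub_cancel_of_le]
        rw [Finsupp.single_le_iff]
        omega⟩
    have h5 : (monomial (Finsupp.single (Sum.inr a) 1 + m') (1 : k) : Sy k) =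
        X (Sum.inr a) * monomial m' 1 := by
      rw [X, monomial_mul, one_mul]
    have h6 : NO k (monomial m' 1) ∈ Dg k (w + 1) (d - 1) := by
      rw [Dg_eq_NO]
      refine ⟨_, FS_of_xi_mul a ?_, rfl⟩
      rw [← h5]
      exact FS_monomial h1 h2
    rw [h5, NO_xi_mul]
    fin_cases a
    · exact Submodule.mem_sup_left ⟨_, h6, rfl⟩
    · exact Submodule.mem_sup_right ⟨_, h6, rfl⟩
  obtain ⟨y, ⟨S₀, h0, rfl⟩, z, ⟨S₁, h1, rfl⟩, h⟩ := Submodule.mem_sup.1 key
  exact ⟨S₀, h0, S₁, h1, h.symm⟩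

/-- operators of negative weight are combinations of right multiples of `∂_0, ∂_1` -/
theorem Dg_neg {w d : ℤ} (hw : w < 0) {T : Wo k} (hT : T ∈ Dg k w d) :
    ∃ S₀ ∈ Dg k (w + 1) (d - 1), ∃ S₁ ∈ Dg k (w + 1) (d - 1),
      T = S₀ * po k 0 + S₁ * po k 1 := by
  rw [Dg_eq_NO] at hT
  obtain ⟨p, hp, rfl⟩ := hT
  refine Dg_neg_aux hp fun m hm => ?_
  obtain ⟨h1, h2⟩ := hp m hm
  by_contra hcon
  push Not at hcon
  have e0 := hcon 0
  have e1 := hcon 1
  simp only [wtm, e0, e1] at h1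
  omega

variable [CharZero k]

/-- if `S x_0^n ∈ W x_1` then `S ∈ W x_1` -/
theorem mul_xo_dvd {w d w' d' : ℤ} (n : ℕ) {S T : Wo k} (hS : S ∈ Dg k w d)
    (hT : T ∈ Dg k w' d') (h : S * xo k 0 ^ n = T * xo k 1) :
    ∃ C ∈ Dg k (w - 1) d, S = C * xo k 1 := by
  classical
  rw [Dg_eq_AO] at hS hT
  obtain ⟨p, hp, rfl⟩ := hS
  obtain ⟨q, hq, rfl⟩ := hT
  have h1 : ∀ n : ℕ, AO k p * xo k 0 ^ n = AO k (X (Sum.inl 0) ^ n * p) := by
    intro n
    induction n with
    | zero => simp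
    | succ n ih => rw [pow_succ, ← mul_assoc, ih, pow_succ', mul_assoc, AO_x_mul]
  rw [h1, ← AO_x_mul] at h
  have h2 := AO_injective h
  have h3 : (X (Sum.inl 1) : Sy k) ∣ p := by
    have h4 : (X (Sum.inl 1) : Sy k) ∣ X (Sum.inl 0) ^ n * p := ⟨q, h2⟩
    rcases X_dvd_mul_iff.1 h4 with h5 | h5
    · exfalso
      have h6 := X_prime.dvd_of_dvd_pow h5
      rw [X_dvd_X] at h6
      simp at h6
    · exact h5
  obtain ⟨c, rfl⟩ := h3
  refine ⟨AO k c, ?_, AO_x_mul 1 c⟩
  rw [Dg_eq_AO]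
  exact ⟨c, FS_of_x_mul 1 hp, rfl⟩

/-- Koszul exactness in the middle -/
theorem koszul_mid {w d : ℤ} {S T : Wo k} (hS : S ∈ Dg k w d) (hT : T ∈ Dg k w d)
    (h : S * po k 0 = T * po k 1) :
    ∃ C ∈ Dg k (w + 1) (d - 1), S = C * po k 1 ∧ T = C * po k 0 := by
  classical
  rw [Dg_eq_NO] at hS hT
  obtain ⟨p, hp, rfl⟩ := hS
  obtain ⟨q, hq, rfl⟩ := hT
  rw [← NO_xi_mul, ← NO_xi_mul] at h
  have h2 := NO_injective h
  have h3 : (X (Sum.inr 1) : Sy k) ∣ p := by
    have h4 : (X (Sum.inr 1) : Sy k) ∣ X (Sum.inr 0) * p := ⟨q, h2⟩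
    rcases X_dvd_mul_iff.1 h4 with h5 | h5
    · exfalso
      rw [X_dvd_X] at h5
      simp at h5
    · exact h5
  obtain ⟨c, rfl⟩ := h3
  have h6 : q = X (Sum.inr 0) * c := by
    have : (X (Sum.inr 1) : Sy k) * q = X (Sum.inr 1) * (X (Sum.inr 0) * c) := by
      rw [← h2]; ring
    exact mul_left_cancel₀ (X_ne_zero _) this
  refine ⟨NO k c, ?_, NO_xi_mul 1 c, ?_⟩
  · rw [Dg_eq_NO]
    exact ⟨c, FS_of_xi_mul 1 hp, rfl⟩
  · rw [h6, NO_xi_mul]

omit [CharZero k] in
theorem pm_apply_one {m : Fin 2 ⊕ Fin 2 →₀ ℕ} (h : ∃ a : Fin 2, m (Sum.inr a) ≠ 0) :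
    pm m (1 : Rx k) = 0 := by
  have h1 : ∀ (a : Fin 2) (n : ℕ), n ≠ 0 → (po k a ^ n) (1 : Rx k) = 0 := by
    intro a n hn
    obtain ⟨n', rfl⟩ := Nat.exists_eq_succ_of_ne_zero hn
    rw [pow_succ]
    show (po k a ^ n') (po k a 1) = 0
    rw [po_apply, pderiv_one, map_zero]
  have h2 : ∀ (a : Fin 2) (n : ℕ), (po k a ^ n) (1 : Rx k) = if n = 0 then 1 else 0 := by
    intro a n
    split_ifs with hn
    · rw [hn, pow_zero]; rfl
    · exact h1 a n hn
  rw [pm]
  show (po k 0 ^ m (Sum.inr 0)) ((po k 1 ^ m (Sum.inr 1)) 1) = 0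
  rw [h2]
  split_ifs with h3
  · rw [h2]
    split_ifs with h4
    · exfalso
      obtain ⟨a, ha⟩ := h
      fin_cases a
      · exact ha h4
      · exact ha h3
    · rfl
  · rw [map_zero]

omit [CharZero k] in
theorem NO_apply_one (p : Sy k) :
    NO k p (1 : Rx k) = killCompl (R := k) (Sum.inl_injective (α := Fin 2) (β := Fin 2)) p := by
  classical
  have key : ∀ m : Fin 2 ⊕ Fin 2 →₀ ℕ, NO k (monomial m 1) (1 : Rx k) =
      killCompl (R := k) (Sum.inl_injective (α := Fin 2) (β := Fin 2)) (monomial m 1) := by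
    intro m
    rw [NO_monomial, killCompl_monomial]
    show xm m (pm m 1) = _
    split_ifs with h
    · have h0 : m (Sum.inr 0) = 0 := by
        by_contra hcon
        obtain ⟨a, ha⟩ := h (Finsupp.mem_support_iff.2 hcon)
        cases ha
      have h1 : m (Sum.inr 1) = 0 := by
        by_contra hcon
        obtain ⟨a, ha⟩ := h (Finsupp.mem_support_iff.2 hcon)
        cases ha
      have e1 : pm (k := k) m = 1 := by
        rw [pm, h0, h1]; simp
      rw [e1]
      show xm m (1 : Rx k) = _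
      have e2 : ∀ (a : Fin 2) (n : ℕ) (f : Rx k), (xo k a ^ n) f = X a ^ n * f := by
        intro a n
        induction n with
        | zero => intro f; simp
        | succ n ih =>
          intro f
          rw [pow_succ]
          show (xo k a ^ n) (xo k a f) = _
          rw [xo_apply, ih]; ring
      rw [xm]
      show (xo k 0 ^ m (Sum.inl 0)) ((xo k 1 ^ m (Sum.inl 1)) 1) = _
      rw [e2, e2, mul_one, X_pow_eq_monomial, X_pow_eq_monomial, monomial_mul, one_mul]
      refine congrArg (fun s => monomial s (1 : k)) (Finsupp.ext fun i => ?_)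
      fin_cases i <;> simp
    · have h2 : ∃ a : Fin 2, m (Sum.inr a) ≠ 0 := by
        by_contra hcon
        push Not at hcon
        apply h
        intro i hi
        rcases i with i | i
        · exact ⟨i, rfl⟩
        · exact absurd (hcon i) (Finsupp.mem_support_iff.1 hi)
      rw [pm_apply_one h2, map_zero]
  induction p using MvPolynomial.induction_on' with
  | monomial m c =>
    have h3 : (monomial m c : Sy k) = c • monomial m 1 := by
      rw [smul_monomial, smul_eq_mul, mul_one]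
    rw [h3, map_smul, map_smul, LinearMap.smul_apply, key]
  | add p q hp hq => rw [map_add, map_add, LinearMap.add_apply, hp, hq]

omit [CharZero k] in
/-- Koszul exactness on the right: operators killing `1` -/
theorem koszul_end {w d : ℤ} {T : Wo k} (hT : T ∈ Dg k w d) (h : T 1 = 0) :
    ∃ S₀ ∈ Dg k (w + 1) (d - 1), ∃ S₁ ∈ Dg k (w + 1) (d - 1),
      T = S₀ * po k 0 + S₁ * po k 1 := by
  classical
  rw [Dg_eq_NO] at hT
  obtain ⟨p, hp, rfl⟩ := hT
  refine Dg_neg_aux hp fun m hm => ?_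
  by_contra hcon
  push Not at hcon
  rw [NO_apply_one] at h
  have h1 := coeff_killCompl (p := p) (Sum.inl_injective (α := Fin 2) (β := Fin 2))
    (s := m.comapDomain Sum.inl Sum.inl_injective.injOn)
  rw [h, coeff_zero, Finsupp.mapDomain_comapDomain _ Sum.inl_injective] at h1
  · exact mem_support_iff.1 hm h1.symm
  · intro i hi
    rcases i with i | i
    · exact ⟨i, rfl⟩
    · exact absurd (hcon i) (Finsupp.mem_support_iff.1 hi)

/-! ### the evaluation `w ⊗ f(y) ↦ w f(x)` -/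

/-- `ev m u = ∑ u_i x_0^(m-i) x_1^i` -/
noncomputable def ev (m : ℕ) (u : ℕ → Wo k) : Wo k :=
  ∑ i ∈ Finset.range (m + 1), u i * (xo k 0 ^ (m - i) * xo k 1 ^ i)

omit [CharZero k] in
theorem ev_succ' (m : ℕ) (u : ℕ → Wo k) :
    ev (m + 1) u = ev m (fun i => u (i + 1)) * xo k 1 + u 0 * xo k 0 ^ (m + 1) := by
  rw [ev, Finset.sum_range_succ', ev, Finset.sum_mul]
  congr 1
  refine Finset.sum_congr rfl fun i _ => ?_
  rw [Nat.add_sub_add_right, pow_succ, mul_assoc, mul_assoc]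

omit [CharZero k] in
theorem ev_add (m : ℕ) (u v : ℕ → Wo k) : ev m (fun i => u i + v i) = ev m u + ev m v := by
  rw [ev, ev, ev, ← Finset.sum_add_distrib]
  exact Finset.sum_congr rfl fun i _ => add_mul _ _ _

omit [CharZero k] in
/-- multiplying by `y_0` -/
theorem ev_mul_xo_zero (m : ℕ) (u : ℕ → Wo k) (hu0 : ∀ i, m < i → u i = 0) :
    ev m u * xo k 0 = ev (m + 1) u := by
  rw [ev, ev, Finset.sum_range_succ _ (m + 1), hu0 (m + 1) (Nat.lt_succ_self m), zero_mul,
    add_zero, Finset.sum_mul]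
  refine Finset.sum_congr rfl fun i hi => ?_
  have hi' : i ≤ m := Nat.lt_succ_iff.1 (Finset.mem_range.1 hi)
  have h1 : ∀ n : ℕ, xo k 1 ^ n * xo k 0 = xo k 0 * xo k 1 ^ n := fun n =>
    ((show Commute (xo k 0) (xo k 1) from xo_comm 0 1).pow_right n).symm.eq
  rw [mul_assoc, mul_assoc, h1, ← mul_assoc (xo k 0 ^ _), ← pow_succ,
    Nat.sub_add_comm hi']

omit [CharZero k] in
/-- multiplying by `y_1` -/
theorem ev_mul_xo_one (m : ℕ) (u : ℕ → Wo k) :
    ev m u * xo k 1 = ev (m + 1) (fun i => if i = 0 then 0 else u (i - 1)) := by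
  rw [ev_succ']
  simp

omit [CharZero k] in
/-- `ev` is surjective in nonnegative weights -/
theorem ev_surj {w d : ℤ} (hw : 0 ≤ w) (m : ℕ) {T : Wo k} (hT : T ∈ Dg k (w + m) d) :
    ∃ u : ℕ → Wo k, (∀ i, u i ∈ Dg k w d) ∧ (∀ i, m < i → u i = 0) ∧ ev m u = T := by
  induction m generalizing T with
  | zero =>
    refine ⟨fun i => if i = 0 then T else 0, fun i => ?_, fun i hi => ?_, ?_⟩
    · simp only
      split_ifs
      · simpa using hT
      · exact Submodule.zero_mem _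
    · exact if_neg (Nat.pos_iff_ne_zero.1 hi)
    · simp [ev]
  | succ m ih =>
    obtain ⟨S₀, h0, S₁, h1, rfl⟩ := Dg_pos (by omega) hT
    have e : w + ((m + 1 : ℕ) : ℤ) - 1 = w + m := by push_cast; ring
    rw [e] at h0 h1
    obtain ⟨u, hu, hu0, hu1⟩ := ih h0
    obtain ⟨v, hv, hv0, hv1⟩ := ih h1
    refine ⟨fun i => u i + if i = 0 then 0 else v (i - 1), fun i => ?_, fun i hi => ?_, ?_⟩
    · refine Submodule.add_mem _ (hu i) ?_
      split_ifs
      · exact Submodule.zero_mem _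
      · exact hv _
    · simp only
      rw [hu0 i (by omega), if_neg (by omega), hv0 (i - 1) (by omega), add_zero]
    · rw [ev_add, ← ev_mul_xo_one, ← ev_mul_xo_zero m u hu0, hu1, hv1]

/-- right multiplication by `x_a` is injective -/
theorem mul_xo_cancel' {w d : ℤ} (a : Fin 2) {S : Wo k} (hS : S ∈ Dg k w d)
    (h : S * xo k a = 0) : S = 0 := by
  rw [Dg_eq_AO] at hS
  obtain ⟨p, hp, rfl⟩ := hS
  rw [← AO_x_mul, ← map_zero (AO k)] at h
  have h1 := AO_injective h
  rw [mul_eq_zero, or_iff_right (X_ne_zero _)] at h1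
  rw [h1, map_zero]

omit [CharZero k] in
theorem Dg_mul_xo {w d : ℤ} (a : Fin 2) {S : Wo k} (hS : S ∈ Dg k w d) :
    S * xo k a ∈ Dg k (w + 1) d := by
  rw [Dg_eq_AO] at hS ⊢
  obtain ⟨p, hp, rfl⟩ := hS
  exact ⟨_, FS_x_mul a hp, AO_x_mul a p⟩

omit [CharZero k] in
theorem Dg_mul_xo_pow {w d : ℤ} (a : Fin 2) (n : ℕ) {S : Wo k} (hS : S ∈ Dg k w d) :
    S * xo k a ^ n ∈ Dg k (w + n) d := by
  induction n with
  | zero => simpa using hS
  | succ n ih =>
    rw [pow_succ, ← mul_assoc]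
    have := Dg_mul_xo a ih
    have e : w + ((n + 1 : ℕ) : ℤ) = w + n + 1 := by push_cast; ring
    rw [e]
    exact this

omit [CharZero k] in
theorem ev_mem {w d : ℤ} (m : ℕ) {u : ℕ → Wo k} (hu : ∀ i, u i ∈ Dg k w d) :
    ev m u ∈ Dg k (w + m) d := by
  refine Submodule.sum_mem _ fun i hi => ?_
  have hi' : i ≤ m := Nat.lt_succ_iff.1 (Finset.mem_range.1 hi)
  have h1 := Dg_mul_xo_pow 1 i (Dg_mul_xo_pow 0 (m - i) (hu i))
  rw [mul_assoc] at h1
  have e : w + ((m - i : ℕ) : ℤ) + i = w + m := by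
    rw [Nat.cast_sub hi']; ring
  rwa [e] at h1

/-- the kernel of `ev` is the image of `al = X_0 y_1 - X_1 y_0` -/
theorem ev_ker {w d : ℤ} (m : ℕ) {u : ℕ → Wo k} (hu : ∀ i, u i ∈ Dg k w d)
    (hu0 : ∀ i, m < i → u i = 0) (h : ev m u = 0) :
    ∃ r : ℕ → Wo k, (∀ i, r i ∈ Dg k (w - 1) d) ∧ (∀ i, m ≤ i → r i = 0) ∧
      u 0 = -(r 0 * xo k 1) ∧ ∀ i, u (i + 1) = r i * xo k 0 - r (i + 1) * xo k 1 := by
  induction m generalizing u with
  | zero =>
    refine ⟨fun _ => 0, fun _ => Submodule.zero_mem _, fun _ _ => rfl, ?_, fun i => ?_⟩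
    · have : u 0 = 0 := by simpa [ev] using h
      rw [this]; simp
    · rw [hu0 (i + 1) (Nat.succ_pos i)]; simp
  | succ m ih =>
    have h1 : u 0 * xo k 0 ^ (m + 1) = (-ev m (fun i => u (i + 1))) * xo k 1 := by
      rw [ev_succ'] at h
      refine (eq_neg_of_add_eq_zero_right h).trans ?_
      exact (neg_mul (ev m fun i => u (i + 1)) (xo k 1)).symm
    have hT : -ev m (fun i => u (i + 1)) ∈ Dg k (w + m) d :=
      Submodule.neg_mem _ (ev_mem m fun i => hu _)
    obtain ⟨C, hC, hC1⟩ := mul_xo_dvd (m + 1) (hu 0) hT h1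
    let u' : ℕ → Wo k := fun i => if i = 0 then u 1 + C * xo k 0 else u (i + 1)
    have hu' : ∀ i, u' i ∈ Dg k w d := by
      intro i
      show (if i = 0 then u 1 + C * xo k 0 else u (i + 1)) ∈ _
      split_ifs
      · refine Submodule.add_mem _ (hu 1) ?_
        have := Dg_mul_xo 0 hC
        rwa [sub_add_cancel] at this
      · exact hu _
    have hu0' : ∀ i, m < i → u' i = 0 := by
      intro i hi
      show (if i = 0 then u 1 + C * xo k 0 else u (i + 1)) = 0
      rw [if_neg (by omega), hu0 (i + 1) (by omega)]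
    have e1 : ev m u' = ev m (fun i => u (i + 1)) + C * xo k 0 ^ (m + 1) := by
      have e2 : u' = fun i => u (i + 1) + if i = 0 then C * xo k 0 else 0 := by
        funext i
        show (if i = 0 then u 1 + C * xo k 0 else u (i + 1)) = _
        split_ifs with h3
        · rw [h3]
        · rw [add_zero]
      rw [e2, ev_add]
      congr 1
      rw [ev, Finset.sum_eq_single 0]
      · rw [if_pos rfl, Nat.sub_zero, pow_zero, mul_one, mul_assoc, ← pow_succ']
      · intro i _ hi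
        rw [if_neg hi, zero_mul]
      · intro hcon
        exact absurd (Finset.mem_range.2 (Nat.succ_pos m)) hcon
    have e3 : ev m u' = 0 := by
      refine mul_xo_cancel' 1 (ev_mem m hu') ?_
      rw [e1, add_mul]
      have h4 : ∀ n : ℕ, xo k 0 ^ n * xo k 1 = xo k 1 * xo k 0 ^ n := fun n =>
        ((show Commute (xo k 1) (xo k 0) from xo_comm 1 0).pow_right n).symm.eq
      rw [mul_assoc C, h4, ← mul_assoc C, ← hC1, h1]
      exact (congrArg (fun z => ev m (fun i => u (i + 1)) * xo k 1 + z) (neg_mul _ _)).trans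
        (add_neg_cancel _)
    obtain ⟨r, hr, hr0, hr1, hr2⟩ := ih hu' hu0' e3
    refine ⟨fun i => if i = 0 then -C else r (i - 1), fun i => ?_, fun i hi => ?_, ?_, fun i => ?_⟩
    · simp only
      split_ifs
      · exact Submodule.neg_mem _ hC
      · exact hr _
    · simp only
      rw [if_neg (by omega), hr0 (i - 1) (by omega)]
    · simp only [if_true]
      rw [hC1]
      exact ((congrArg Neg.neg (neg_mul C (xo k 1))).trans (neg_neg _)).symm
    · rcases Nat.eq_zero_or_pos i with rfl | hi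
      · have h5 : u 1 + C * xo k 0 = -(r 0 * xo k 1) := hr1
        simp only [if_true, Nat.zero_add, one_ne_zero, if_false, Nat.sub_self]
        refine eq_sub_of_add_eq ?_
        refine (congrArg (fun z => u 1 + z) (neg_eq_iff_eq_neg.1 h5.symm)).trans ?_
        refine Eq.trans ?_ (neg_mul C (xo k 0)).symm
        abel
      · obtain ⟨j, rfl⟩ := Nat.exists_eq_succ_of_ne_zero (Nat.pos_iff_ne_zero.1 hi)
        have h5 : u' (j + 1) = r j * xo k 0 - r (j + 1) * xo k 1 := hr2 j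
        have h6 : u' (j + 1) = u (j + 1 + 1) := if_neg (Nat.succ_ne_zero j)
        simp only [Nat.succ_eq_add_one, Nat.succ_ne_zero, if_false, Nat.add_sub_cancel]
        rw [← h6, h5]

end P195A
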