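import Vale.Agent.P195A.Fact

/-!
# P195A: division facts for LEFT multiplication in the filtered pieces of the Weyl algebra
-/

namespace P195A

open MvPolynomial

variable {k : Type} [Field k]

theorem xo_mul_mem {w d : ℤ} (a : Fin 2) {T : Wo k} (hT : T ∈ Dg k w d) :
    xo k a * T ∈ Dg k (w + 1) d := by
  rw [Dg_eq_NO] at hT ⊢
  obtain ⟨p, hp, rfl⟩ := hT
  exact ⟨_, FS_x_mul a hp, NO_x_mul a p⟩

theorem po_mul_mem {w d : ℤ} (a : Fin 2) {T : Wo k} (hT : T ∈ Dg k w d) :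
    po k a * T ∈ Dg k (w - 1) (d + 1) := by
  rw [Dg_eq_AO] at hT ⊢
  obtain ⟨p, hp, rfl⟩ := hT
  exact ⟨_, FS_xi_mul a hp, AO_xi_mul a p⟩

theorem mul_po_mem {w d : ℤ} (a : Fin 2) {T : Wo k} (hT : T ∈ Dg k w d) :
    T * po k a ∈ Dg k (w - 1) (d + 1) := by
  rw [Dg_eq_NO] at hT ⊢
  obtain ⟨p, hp, rfl⟩ := hT
  exact ⟨_, FS_xi_mul a hp, NO_xi_mul a p⟩

/-- symbols in the ideal of the `ξ_a` -/
theorem sym_xi_split {w d : ℤ} {p : Sy k} (hp : p ∈ FS k w d)
    (h : ∀ m ∈ p.support, ∃ a : Fin 2, m (Sum.inr a) ≠ 0) :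
    ∃ q₀ ∈ FS k (w + 1) (d - 1), ∃ q₁ ∈ FS k (w + 1) (d - 1),
      p = X (Sum.inr 0) * q₀ + X (Sum.inr 1) * q₁ := by
  classical
  let N : Submodule k (Sy k) :=
    (FS k (w + 1) (d - 1)).map (LinearMap.mulLeft k (X (Sum.inr 0))) ⊔
      (FS k (w + 1) (d - 1)).map (LinearMap.mulLeft k (X (Sum.inr 1)))
  have key : p ∈ N := by
    rw [p.as_sum]
    refine Submodule.sum_mem _ fun m hm => ?_
    obtain ⟨h1, h2⟩ := hp m hm
    have h3 : (monomial m (coeff m p) : Sy k) = coeff m p • monomial m 1 := by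
      rw [smul_monomial, smul_eq_mul, mul_one]
    rw [h3]
    refine Submodule.smul_mem _ _ ?_
    obtain ⟨a, ha⟩ := h m hm
    obtain ⟨m', rfl⟩ : ∃ m', m = Finsupp.single (Sum.inr a) 1 + m' :=
      ⟨m - Finsupp.single (Sum.inr a) 1, by
        rw [add_tsub_cancel_of_le]
        rw [Finsupp.single_le_iff]
        omega⟩
    have h5 : (monomial (Finsupp.single (Sum.inr a) 1 + m') (1 : k) : Sy k) =
        X (Sum.inr a) * monomial m' 1 := by
      rw [X, monomial_mul, one_mul]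
    have h6 : (monomial m' 1 : Sy k) ∈ FS k (w + 1) (d - 1) := by
      refine FS_of_xi_mul a ?_
      rw [← h5]
      exact FS_monomial h1 h2
    rw [h5]
    fin_cases a
    · exact Submodule.mem_sup_left ⟨_, h6, rfl⟩
    · exact Submodule.mem_sup_right ⟨_, h6, rfl⟩
  obtain ⟨y, ⟨S₀, h0, rfl⟩, z, ⟨S₁, h1, rfl⟩, h⟩ := Submodule.mem_sup.1 key
  exact ⟨S₀, h0, S₁, h1, h.symm⟩

/-- symbols in the ideal of the `x_a` -/
theorem sym_x_split {w d : ℤ} {p : Sy k} (hp : p ∈ FS k w d)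
    (h : ∀ m ∈ p.support, ∃ a : Fin 2, m (Sum.inl a) ≠ 0) :
    ∃ q₀ ∈ FS k (w - 1) d, ∃ q₁ ∈ FS k (w - 1) d,
      p = X (Sum.inl 0) * q₀ + X (Sum.inl 1) * q₁ := by
  classical
  let N : Submodule k (Sy k) :=
    (FS k (w - 1) d).map (LinearMap.mulLeft k (X (Sum.inl 0))) ⊔
      (FS k (w - 1) d).map (LinearMap.mulLeft k (X (Sum.inl 1)))
  have key : p ∈ N := by
    rw [p.as_sum]
    refine Submodule.sum_mem _ fun m hm => ?_
    obtain ⟨h1, h2⟩ := hp m hm
    have h3 : (monomial m (coeff m p) : Sy k) = coeff m p • monomial m 1 := by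
      rw [smul_monomial, smul_eq_mul, mul_one]
    rw [h3]
    refine Submodule.smul_mem _ _ ?_
    obtain ⟨a, ha⟩ := h m hm
    obtain ⟨m', rfl⟩ : ∃ m', m = Finsupp.single (Sum.inl a) 1 + m' :=
      ⟨m - Finsupp.single (Sum.inl a) 1, by
        rw [add_tsub_cancel_of_le]
        rw [Finsupp.single_le_iff]
        omega⟩
    have h5 : (monomial (Finsupp.single (Sum.inl a) 1 + m') (1 : k) : Sy k) =
        X (Sum.inl a) * monomial m' 1 := by
      rw [X, monomial_mul, one_mul]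
    have h6 : (monomial m' 1 : Sy k) ∈ FS k (w - 1) d := by
      refine FS_of_x_mul a ?_
      rw [← h5]
      exact FS_monomial h1 h2
    rw [h5]
    fin_cases a
    · exact Submodule.mem_sup_left ⟨_, h6, rfl⟩
    · exact Submodule.mem_sup_right ⟨_, h6, rfl⟩
  obtain ⟨y, ⟨S₀, h0, rfl⟩, z, ⟨S₁, h1, rfl⟩, h⟩ := Submodule.mem_sup.1 key
  exact ⟨S₀, h0, S₁, h1, h.symm⟩

theorem sym_neg {w d : ℤ} (hw : w < 0) {p : Sy k} (hp : p ∈ FS k w d) :
    ∀ m ∈ p.support, ∃ a : Fin 2, m (Sum.inr a) ≠ 0 := by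
  intro m hm
  obtain ⟨h1, h2⟩ := hp m hm
  by_contra hcon
  push Not at hcon
  have e0 := hcon 0
  have e1 := hcon 1
  simp only [wtm, e0, e1] at h1
  omega

theorem sym_pos {w d : ℤ} (hw : 0 < w) {p : Sy k} (hp : p ∈ FS k w d) :
    ∀ m ∈ p.support, ∃ a : Fin 2, m (Sum.inl a) ≠ 0 := by
  intro m hm
  obtain ⟨h1, h2⟩ := hp m hm
  by_contra hcon
  push Not at hcon
  have e0 := hcon 0
  have e1 := hcon 1
  simp only [wtm, e0, e1] at h1
  omega

/-- operators of negative weight are combinations of left multiples of `∂_0, ∂_1` -/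
theorem Dg_negL {w d : ℤ} (hw : w < 0) {T : Wo k} (hT : T ∈ Dg k w d) :
    ∃ S₀ ∈ Dg k (w + 1) (d - 1), ∃ S₁ ∈ Dg k (w + 1) (d - 1),
      T = po k 0 * S₀ + po k 1 * S₁ := by
  rw [Dg_eq_AO] at hT
  obtain ⟨p, hp, rfl⟩ := hT
  obtain ⟨q₀, h0, q₁, h1, rfl⟩ := sym_xi_split hp (sym_neg hw hp)
  refine ⟨AO k q₀, ?_, AO k q₁, ?_, ?_⟩
  · rw [Dg_eq_AO]; exact ⟨q₀, h0, rfl⟩
  · rw [Dg_eq_AO]; exact ⟨q₁, h1, rfl⟩
  · rw [map_add, AO_xi_mul, AO_xi_mul]

/-- operators of positive weight are combinations of left multiples of `x_0, x_1` -/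
theorem Dg_posL {w d : ℤ} (hw : 0 < w) {T : Wo k} (hT : T ∈ Dg k w d) :
    ∃ S₀ ∈ Dg k (w - 1) d, ∃ S₁ ∈ Dg k (w - 1) d, T = xo k 0 * S₀ + xo k 1 * S₁ := by
  rw [Dg_eq_NO] at hT
  obtain ⟨p, hp, rfl⟩ := hT
  obtain ⟨q₀, h0, q₁, h1, rfl⟩ := sym_x_split hp (sym_pos hw hp)
  refine ⟨NO k q₀, ?_, NO k q₁, ?_, ?_⟩
  · rw [Dg_eq_NO]; exact ⟨q₀, h0, rfl⟩
  · rw [Dg_eq_NO]; exact ⟨q₁, h1, rfl⟩
  · rw [map_add, NO_x_mul, NO_x_mul]

/-! ### the functional `T ↦ (f ↦ (T f)(0))` -/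

/-- `T ↦ (f ↦ (T f)(0))` -/
noncomputable def evz : Wo k →ₗ[k] (Rx k →ₗ[k] k) where
  toFun T := (lcoeff k (0 : Fin 2 →₀ ℕ)).comp T
  map_add' S T := by
    refine LinearMap.ext fun f => ?_
    show coeff 0 ((S + T) f) = coeff 0 (S f) + coeff 0 (T f)
    rw [LinearMap.add_apply, coeff_add]
  map_smul' c T := by
    refine LinearMap.ext fun f => ?_
    show coeff 0 ((c • T) f) = c * coeff 0 (T f)
    rw [LinearMap.smul_apply, coeff_smul, smul_eq_mul]

theorem evz_apply (T : Wo k) (f : Rx k) : evz T f = coeff 0 (T f) := rfl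

theorem evz_xo (a : Fin 2) (T : Wo k) : evz (xo k a * T) = 0 := by
  classical
  refine LinearMap.ext fun f => ?_
  show coeff 0 (X a * T f) = 0
  rw [coeff_X_mul', if_neg (by simp)]

theorem po_pow_monomial (a : Fin 2) (n : ℕ) (s : Fin 2 →₀ ℕ) (c : k) :
    (po k a ^ n) (monomial s c) =
      monomial (s - Finsupp.single a n) (c * ((s a).descFactorial n : ℕ)) := by
  induction n with
  | zero => simp
  | succ n ih =>
    rw [pow_succ']
    show po k a ((po k a ^ n) (monomial s c)) = _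
    rw [ih, po_apply, pderiv_monomial]
    have e1 : s - Finsupp.single a n - Finsupp.single a 1 = s - Finsupp.single a (n + 1) := by
      rw [tsub_tsub, ← Finsupp.single_add]
    have e2 : (s - Finsupp.single a n) a = s a - n := by
      rw [Finsupp.tsub_apply, Finsupp.single_eq_same]
    rw [e1, e2, Nat.descFactorial_succ, Nat.cast_mul]
    congr 1
    ring

theorem xo_pow_apply (a : Fin 2) (n : ℕ) (f : Rx k) : (xo k a ^ n) f = X a ^ n * f := by
  induction n generalizing f with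
  | zero => simp
  | succ n ih =>
    rw [pow_succ]
    show (xo k a ^ n) (xo k a f) = _
    rw [xo_apply, ih]
    ring

theorem xm_pm_monomial (m : Fin 2 ⊕ Fin 2 →₀ ℕ) (s : Fin 2 →₀ ℕ) :
    (xm m * pm m : Wo k) (monomial s 1) =
      monomial (Finsupp.single 0 (m (Sum.inl 0)) + (Finsupp.single 1 (m (Sum.inl 1)) +
        (s - Finsupp.single 1 (m (Sum.inr 1)) - Finsupp.single 0 (m (Sum.inr 0)))))
        (((s 1).descFactorial (m (Sum.inr 1)) : ℕ) *
          ((s 0).descFactorial (m (Sum.inr 0)) : ℕ) : k) := by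
  show (xo k 0 ^ m (Sum.inl 0)) ((xo k 1 ^ m (Sum.inl 1)) ((po k 0 ^ m (Sum.inr 0))
    ((po k 1 ^ m (Sum.inr 1)) (monomial s 1)))) = _
  have e : (s - Finsupp.single 1 (m (Sum.inr 1)) : Fin 2 →₀ ℕ) 0 = s 0 := by
    rw [Finsupp.tsub_apply, Finsupp.single_eq_of_ne (by decide), Nat.sub_zero]
  rw [po_pow_monomial, po_pow_monomial, xo_pow_apply, xo_pow_apply, X_pow_eq_monomial,
    X_pow_eq_monomial, monomial_mul, monomial_mul, e, one_mul, one_mul, one_mul]

theorem coeff_NO (p : Sy k) (s : Fin 2 →₀ ℕ) :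
    coeff 0 (NO k p (monomial s 1)) =
      coeff (s.mapDomain Sum.inr) p * (((s 1).factorial : k) * (s 0).factorial) := by
  classical
  have hs : ∀ a : Fin 2, (s.mapDomain (Sum.inr : Fin 2 → Fin 2 ⊕ Fin 2)) (Sum.inr a) = s a :=
    fun a => Finsupp.mapDomain_apply Sum.inr_injective s a
  have hs' : ∀ a : Fin 2, (s.mapDomain (Sum.inr : Fin 2 → Fin 2 ⊕ Fin 2)) (Sum.inl a) = 0 := by
    intro a
    refine Finsupp.mapDomain_of_notMem_range _ _ ?_
    rintro ⟨b, hb⟩
    cases hb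
  have key : ∀ m : Fin 2 ⊕ Fin 2 →₀ ℕ, coeff 0 (NO k (monomial m 1) (monomial s 1)) =
      coeff (s.mapDomain Sum.inr) (monomial m (1 : k)) *
        (((s 1).factorial : k) * (s 0).factorial) := by
    intro m
    rw [NO_monomial, xm_pm_monomial, coeff_monomial, coeff_monomial]
    by_cases hm : m = s.mapDomain Sum.inr
    · rw [if_pos hm, one_mul, hm, hs, hs, hs', hs', Nat.descFactorial_self,
        Nat.descFactorial_self, if_pos]
      ext i
      fin_cases i <;> simp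
    · rw [if_neg hm, zero_mul]
      split_ifs with h1
      · have h2 : ∀ i : Fin 2, (Finsupp.single 0 (m (Sum.inl 0)) +
            (Finsupp.single 1 (m (Sum.inl 1)) +
              (s - Finsupp.single 1 (m (Sum.inr 1)) - Finsupp.single 0 (m (Sum.inr 0)))) :
                Fin 2 →₀ ℕ) i = 0 :=
          fun i => by rw [h1]; rfl
        have h3 := h2 0
        have h4 := h2 1
        simp at h3 h4
        by_cases h5 : s 0 < m (Sum.inr 0)
        · rw [Nat.descFactorial_eq_zero_iff_lt.2 h5, Nat.cast_zero, mul_zero]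
        by_cases h6 : s 1 < m (Sum.inr 1)
        · rw [Nat.descFactorial_eq_zero_iff_lt.2 h6, Nat.cast_zero, zero_mul]
        exfalso
        apply hm
        ext i
        rcases i with i | i
        · rw [hs']
          fin_cases i
          · exact h3.1
          · exact h4.1
        · rw [hs]
          fin_cases i
          · show m (Sum.inr 0) = s 0
            omega
          · show m (Sum.inr 1) = s 1
            omega
      · rfl
  induction p using MvPolynomial.induction_on' with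
  | monomial m c =>
    have h3 : (monomial m c : Sy k) = c • monomial m 1 := by
      rw [smul_monomial, smul_eq_mul, mul_one]
    rw [h3, map_smul, LinearMap.smul_apply, coeff_smul, coeff_smul, key, smul_eq_mul,
      smul_eq_mul, mul_assoc]
  | add p q hp hq => rw [map_add, LinearMap.add_apply, coeff_add, coeff_add, hp, hq, add_mul]

/-- lowering the order without changing `T ↦ (f ↦ (T f)(0))` -/
theorem evz_low {w d : ℤ} {T : Wo k} (hT : T ∈ Dg k w d) :
    ∃ T' ∈ Dg k w (-w), evz T' = evz T := by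
  classical
  rw [Dg_eq_NO] at hT
  obtain ⟨p, hp, rfl⟩ := hT
  let q : Sy k := ∑ m ∈ p.support.filter (fun m => ∀ a : Fin 2, m (Sum.inl a) = 0),
    monomial m (coeff m p)
  have hq : ∀ m, coeff m q = if ∀ a : Fin 2, m (Sum.inl a) = 0 then coeff m p else 0 := by
    intro m
    show coeff m (∑ m ∈ p.support.filter (fun m => ∀ a : Fin 2, m (Sum.inl a) = 0),
      monomial m (coeff m p)) = _
    rw [coeff_sum]
    simp only [coeff_monomial, Finset.sum_ite_eq', Finset.mem_filter, mem_support_iff]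
    split_ifs with h1 h2 h3
    · rfl
    · exact absurd h1.2 h2
    · by_contra h4
      exact h1 ⟨fun h5 => h4 h5.symm, h3⟩
    · rfl
  refine ⟨NO k q, ?_, ?_⟩
  · rw [Dg_eq_NO]
    refine ⟨q, fun m hm => ?_, rfl⟩
    have h1 := mem_support_iff.1 hm
    rw [hq] at h1
    split_ifs at h1 with h2
    · obtain ⟨h3, h4⟩ := hp m (mem_support_iff.2 h1)
      refine ⟨h3, ?_⟩
      have e0 := h2 0
      have e1 := h2 1
      simp only [wtm, odm, e0, e1] at h3 ⊢
      omega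
    · exact absurd rfl h1
  · refine LinearMap.ext fun f => ?_
    induction f using MvPolynomial.induction_on' with
    | monomial s c =>
      have h3 : (monomial s c : Rx k) = c • monomial s 1 := by
        rw [smul_monomial, smul_eq_mul, mul_one]
      rw [h3, map_smul, map_smul]
      congr 1
      rw [evz_apply, evz_apply, coeff_NO, coeff_NO, hq, if_pos]
      intro a
      refine Finsupp.mapDomain_of_notMem_range _ _ ?_
      rintro ⟨b, hb⟩
      cases hb
    | add f g hf hg => rw [map_add, map_add, hf, hg]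

/-- lowering the order without changing `T 1` -/
theorem one_low {w d : ℤ} {T : Wo k} (hT : T ∈ Dg k w d) :
    ∃ T' ∈ Dg k w 0, T' (1 : Rx k) = T 1 := by
  classical
  rw [Dg_eq_NO] at hT
  obtain ⟨p, hp, rfl⟩ := hT
  let q : Sy k := ∑ m ∈ p.support.filter (fun m => ∀ a : Fin 2, m (Sum.inr a) = 0),
    monomial m (coeff m p)
  have hq : ∀ m, coeff m q = if ∀ a : Fin 2, m (Sum.inr a) = 0 then coeff m p else 0 := by
    intro m
    show coeff m (∑ m ∈ p.support.filter (fun m => ∀ a : Fin 2, m (Sum.inr a) = 0),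
      monomial m (coeff m p)) = _
    rw [coeff_sum]
    simp only [coeff_monomial, Finset.sum_ite_eq', Finset.mem_filter, mem_support_iff]
    split_ifs with h1 h2 h3
    · rfl
    · exact absurd h1.2 h2
    · by_contra h4
      exact h1 ⟨fun h5 => h4 h5.symm, h3⟩
    · rfl
  refine ⟨NO k q, ?_, ?_⟩
  · rw [Dg_eq_NO]
    refine ⟨q, fun m hm => ?_, rfl⟩
    have h1 := mem_support_iff.1 hm
    rw [hq] at h1
    split_ifs at h1 with h2
    · obtain ⟨h3, h4⟩ := hp m (mem_support_iff.2 h1)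
      refine ⟨h3, ?_⟩
      have e0 := h2 0
      have e1 := h2 1
      simp only [odm, e0, e1]
      omega
    · exact absurd rfl h1
  · rw [NO_apply_one, NO_apply_one]
    ext s
    rw [coeff_killCompl, coeff_killCompl, hq, if_pos]
    intro a
    refine Finsupp.mapDomain_of_notMem_range _ _ ?_
    rintro ⟨b, hb⟩
    cases hb

variable [CharZero k]

/-- an operator with `(T f)(0) = 0` for all `f` is a combination of left multiples of
`x_0, x_1` -/
theorem evz_ker {w d : ℤ} {T : Wo k} (hT : T ∈ Dg k w d) (h : evz T = 0) :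
    ∃ S₀ ∈ Dg k (w - 1) d, ∃ S₁ ∈ Dg k (w - 1) d, T = xo k 0 * S₀ + xo k 1 * S₁ := by
  classical
  rw [Dg_eq_NO] at hT
  obtain ⟨p, hp, rfl⟩ := hT
  have h1 : ∀ m ∈ p.support, ∃ a : Fin 2, m (Sum.inl a) ≠ 0 := by
    intro m hm
    by_contra hcon
    push Not at hcon
    let s : Fin 2 →₀ ℕ := m.comapDomain Sum.inr Sum.inr_injective.injOn
    have h2 : s.mapDomain Sum.inr = m := by
      refine Finsupp.mapDomain_comapDomain _ Sum.inr_injective _ ?_
      intro i hi
      rcases i with i | i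
      · exact absurd (hcon i) (Finsupp.mem_support_iff.1 hi)
      · exact ⟨i, rfl⟩
    have h3 : coeff 0 (NO k p (monomial s 1)) = 0 := by
      rw [← evz_apply, h]; rfl
    rw [coeff_NO, h2] at h3
    rcases mul_eq_zero.1 h3 with h4 | h4
    · exact mem_support_iff.1 hm h4
    · rcases mul_eq_zero.1 h4 with h5 | h5
      · exact Nat.factorial_ne_zero _ (Nat.cast_eq_zero.1 h5)
      · exact Nat.factorial_ne_zero _ (Nat.cast_eq_zero.1 h5)
  obtain ⟨q₀, h2, q₁, h3, rfl⟩ := sym_x_split hp h1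
  refine ⟨NO k q₀, ?_, NO k q₁, ?_, ?_⟩
  · rw [Dg_eq_NO]; exact ⟨q₀, h2, rfl⟩
  · rw [Dg_eq_NO]; exact ⟨q₁, h3, rfl⟩
  · rw [map_add, NO_x_mul, NO_x_mul]

/-- left multiplication by `∂_a` is injective -/
theorem po_mul_eq_zero {w d : ℤ} (a : Fin 2) {T : Wo k} (hT : T ∈ Dg k w d)
    (h : po k a * T = 0) : T = 0 := by
  rw [Dg_eq_AO] at hT
  obtain ⟨p, hp, rfl⟩ := hT
  rw [← AO_xi_mul, ← map_zero (AO k)] at h
  have h1 := AO_injective h
  rw [mul_eq_zero, or_iff_right (X_ne_zero _)] at h1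
  rw [h1, map_zero]

/-- left multiplication by `x_a` is injective -/
theorem xo_mul_eq_zero {w d : ℤ} (a : Fin 2) {T : Wo k} (hT : T ∈ Dg k w d)
    (h : xo k a * T = 0) : T = 0 := by
  rw [Dg_eq_NO] at hT
  obtain ⟨p, hp, rfl⟩ := hT
  rw [← NO_x_mul, ← map_zero (NO k)] at h
  have h1 := NO_injective h
  rw [mul_eq_zero, or_iff_right (X_ne_zero _)] at h1
  rw [h1, map_zero]

/-- Koszul exactness for left multiplication by `∂_0, ∂_1` -/
theorem koszul_poL {w d : ℤ} {S T : Wo k} (hS : S ∈ Dg k w d) (hT : T ∈ Dg k w d)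
    (h : po k 0 * S + po k 1 * T = 0) :
    ∃ C ∈ Dg k (w + 1) (d - 1), S = po k 1 * C ∧ T = -(po k 0 * C) := by
  rw [Dg_eq_AO] at hS hT
  obtain ⟨p, hp, rfl⟩ := hS
  obtain ⟨q, hq, rfl⟩ := hT
  rw [← AO_xi_mul, ← AO_xi_mul, ← map_add] at h
  have h1 := AO_injective (h.trans (map_zero (AO k)).symm)
  obtain ⟨r, h2, h3⟩ := X_koszul (by simp) h1
  refine ⟨AO k r, ?_, ?_, ?_⟩
  · rw [Dg_eq_AO]
    refine ⟨r, FS_of_xi_mul 1 ?_, rfl⟩
    rw [← h2]
    exact hp
  · rw [h2, AO_xi_mul]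
  · rw [h3, map_neg, AO_xi_mul]

/-- Koszul exactness for left multiplication by `x_0, x_1` -/
theorem koszul_xoL {w d : ℤ} {S T : Wo k} (hS : S ∈ Dg k w d) (hT : T ∈ Dg k w d)
    (h : xo k 0 * S = xo k 1 * T) :
    ∃ C ∈ Dg k (w - 1) d, S = xo k 1 * C ∧ T = xo k 0 * C := by
  rw [Dg_eq_NO] at hS hT
  obtain ⟨p, hp, rfl⟩ := hS
  obtain ⟨q, hq, rfl⟩ := hT
  rw [← NO_x_mul, ← NO_x_mul] at h
  have h0 := NO_injective h
  have h1 : X (Sum.inl 0) * p + X (Sum.inl 1) * (-q) = 0 := by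
    rw [h0]; ring
  obtain ⟨r, h2, h3⟩ := X_koszul (by simp) h1
  refine ⟨NO k r, ?_, ?_, ?_⟩
  · rw [Dg_eq_NO]
    refine ⟨r, FS_of_x_mul 1 ?_, rfl⟩
    rw [← h2]
    exact hp
  · rw [h2, NO_x_mul]
  · rw [← neg_neg q, h3, neg_neg, NO_x_mul]

end P195A
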