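import Vale.Agent.P195A.FactE

/-!
# P195A: basic facts on the filtered pieces `Dg k w d` of the Weyl algebra, first part
-/

namespace P195A

open MvPolynomial

variable {k : Type} [Field k]

theorem Dg_mono {w d d' : ℤ} (h : d ≤ d') : Dg k w d ≤ Dg k w d' := by
  rw [Dg_eq_NO, Dg_eq_NO]
  exact Submodule.map_mono (FS_mono h)

theorem one_mem_Dg : (1 : Wo k) ∈ Dg k 0 0 := by
  rw [Dg_eq_NO]
  exact ⟨1, one_mem_FS, NO_one⟩

theorem xo_mem_Dg (a : Fin 2) : xo k a ∈ Dg k 1 0 := by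
  have h := xo_mul_mem_Dg (k := k) a one_mem_Dg
  rwa [mul_one, zero_add] at h

theorem po_mem_Dg (a : Fin 2) : po k a ∈ Dg k (-1) 1 := by
  have h := po_mul_mem_Dg (k := k) a one_mem_Dg
  rwa [mul_one, zero_add, zero_sub] at h

private theorem xo_pow_mul_mem (a : Fin 2) (n : ℕ) {w d : ℤ} {T : Wo k} (hT : T ∈ Dg k w d) :
    xo k a ^ n * T ∈ Dg k (w + n) d := by
  induction n with
  | zero => simpa using hT
  | succ n ih =>
    rw [pow_succ', mul_assoc]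
    have h := xo_mul_mem_Dg a ih
    rwa [show w + (n : ℤ) + 1 = w + ((n + 1 : ℕ) : ℤ) by push_cast; ring] at h

private theorem po_pow_mul_mem (a : Fin 2) (n : ℕ) {w d : ℤ} {T : Wo k} (hT : T ∈ Dg k w d) :
    po k a ^ n * T ∈ Dg k (w - n) (d + n) := by
  induction n with
  | zero => simpa using hT
  | succ n ih =>
    rw [pow_succ', mul_assoc]
    have h := po_mul_mem_Dg a ih
    rwa [show w - (n : ℤ) - 1 = w - ((n + 1 : ℕ) : ℤ) by push_cast; ring,
      show d + (n : ℤ) + 1 = d + ((n + 1 : ℕ) : ℤ) by push_cast; ring] at h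

theorem Dg_mul {w d w' d' : ℤ} {S T : Wo k} (hS : S ∈ Dg k w d) (hT : T ∈ Dg k w' d') :
    S * T ∈ Dg k (w + w') (d + d') := by
  induction hS using Submodule.span_induction with
  | mem S hS =>
    obtain ⟨a₀, a₁, b₀, b₁, hw, hd, rfl⟩ := hS
    have h := xo_pow_mul_mem 0 a₀ (xo_pow_mul_mem 1 a₁ (po_pow_mul_mem 0 b₀
      (po_pow_mul_mem 1 b₁ hT)))
    rw [show w' - (b₁ : ℤ) - b₀ + a₁ + a₀ = w + w' by linarith] at h
    rw [mul_assoc, mul_assoc, mul_assoc]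
    exact Dg_mono (by linarith) h
  | zero => rw [zero_mul]; exact Submodule.zero_mem _
  | add S S' _ _ h1 h2 => rw [add_mul]; exact Submodule.add_mem _ h1 h2
  | smul c S _ h1 => rw [smul_mul_assoc]; exact Submodule.smul_mem _ _ h1

theorem Dg_mul_po {w d : ℤ} (a : Fin 2) {T : Wo k} (hT : T ∈ Dg k w d) :
    T * po k a ∈ Dg k (w - 1) (d + 1) := Dg_mul hT (po_mem_Dg a)

theorem Dg_eq_bot {w d : ℤ} (h : d < 0 ∨ w + d < 0) : Dg k w d = ⊥ := by
  rw [Dg, Submodule.span_eq_bot]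
  rintro T ⟨a₀, a₁, b₀, b₁, hw, hd, rfl⟩
  exfalso
  have h0 : (0 : ℤ) ≤ a₀ := by positivity
  have h1 : (0 : ℤ) ≤ a₁ := by positivity
  have h2 : (0 : ℤ) ≤ b₀ := by positivity
  have h3 : (0 : ℤ) ≤ b₁ := by positivity
  omega

theorem Dg_finite (w d : ℤ) : Module.Finite k (Dg k w d) := by
  let S : Finset (ℕ × ℕ × ℕ × ℕ) := Finset.range ((w + d).toNat + 1) ×ˢ
    Finset.range ((w + d).toNat + 1) ×ˢ Finset.range (d.toNat + 1) ×ˢ Finset.range (d.toNat + 1)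
  have h : {T | ∃ a₀ a₁ b₀ b₁ : ℕ, (a₀ : ℤ) + a₁ - b₀ - b₁ = w ∧ (b₀ : ℤ) + b₁ ≤ d ∧
      T = xo k 0 ^ a₀ * xo k 1 ^ a₁ * (po k 0 ^ b₀ * po k 1 ^ b₁)} ⊆
      (fun q : ℕ × ℕ × ℕ × ℕ => xo k 0 ^ q.1 * xo k 1 ^ q.2.1 *
        (po k 0 ^ q.2.2.1 * po k 1 ^ q.2.2.2)) '' (S : Set (ℕ × ℕ × ℕ × ℕ)) := by
    rintro T ⟨a₀, a₁, b₀, b₁, hw, hd, rfl⟩
    refine ⟨(a₀, a₁, b₀, b₁), ?_, rfl⟩
    have h0 : (0 : ℤ) ≤ a₀ := by positivity
    have h1 : (0 : ℤ) ≤ a₁ := by positivity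
    have h2 : (0 : ℤ) ≤ b₀ := by positivity
    have h3 : (0 : ℤ) ≤ b₁ := by positivity
    simp only [S, Finset.coe_product, Set.mem_prod, Finset.mem_coe, Finset.mem_range]
    refine ⟨?_, ?_, ?_, ?_⟩ <;> omega
  exact Module.Finite.span_of_finite k ((S.finite_toSet.image _).subset h)

theorem mem_Dg_zero {T : Wo k} (h : T ∈ Dg k 0 0) : ∃ c : k, T = c • 1 := by
  rw [Dg] at h
  have h1 : {T : Wo k | ∃ a₀ a₁ b₀ b₁ : ℕ, (a₀ : ℤ) + a₁ - b₀ - b₁ = 0 ∧ (b₀ : ℤ) + b₁ ≤ 0 ∧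
      T = xo k 0 ^ a₀ * xo k 1 ^ a₁ * (po k 0 ^ b₀ * po k 1 ^ b₁)} ⊆ {1} := by
    rintro T ⟨a₀, a₁, b₀, b₁, hw, hd, rfl⟩
    have h2 : b₀ = 0 := by omega
    have h3 : b₁ = 0 := by omega
    have h4 : a₀ = 0 := by omega
    have h5 : a₁ = 0 := by omega
    subst h2 h3 h4 h5
    simp
  obtain ⟨c, hc⟩ := Submodule.mem_span_singleton.1 (Submodule.span_mono h1 h)
  exact ⟨c, hc.symm⟩

private theorem X_ne (i : Fin 2 ⊕ Fin 2) : (X i : Sy k) ≠ 0 := X_ne_zero i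

private theorem coeff_X_mul_add (i : Fin 2 ⊕ Fin 2) (p : Sy k) (m : Fin 2 ⊕ Fin 2 →₀ ℕ) :
    coeff (Finsupp.single i 1 + m) (X i * p) = coeff m p := by
  rw [coeff_X_mul]

/-- strictness of the filtration for multiplication by a variable -/
private theorem FS_of_mul {i : Fin 2 ⊕ Fin 2} {p : Sy k} {w d w' d' : ℤ}
    (hw : ∀ m, wtm (Finsupp.single i 1 + m) = w' → wtm m = w)
    (hd : ∀ m, odm (Finsupp.single i 1 + m) ≤ d' → odm m ≤ d)
    (h : X i * p ∈ FS k w' d') : p ∈ FS k w d := by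
  intro m hm
  have h1 : Finsupp.single i 1 + m ∈ (X i * p).support := by
    rw [mem_support_iff, coeff_X_mul_add]
    exact mem_support_iff.1 hm
  exact ⟨hw m (h _ h1).1, hd m (h _ h1).2⟩

private theorem fs_of_x {w d : ℤ} (a : Fin 2) {p : Sy k}
    (h : X (Sum.inl a) * p ∈ FS k (w + 1) d) : p ∈ FS k w d := by
  refine FS_of_mul (i := Sum.inl a) (fun m hm => ?_) (fun m hm => ?_) h
  · unfold wtm at hm ⊢
    simp only [Finsupp.add_apply] at hm
    fin_cases a <;> simp at hm ⊢ <;> linarith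
  · unfold odm at hm ⊢
    simp only [Finsupp.add_apply] at hm
    fin_cases a <;> simp at hm ⊢ <;> linarith

private theorem fs_of_xi {w d : ℤ} (a : Fin 2) {p : Sy k}
    (h : X (Sum.inr a) * p ∈ FS k (w - 1) (d + 1)) : p ∈ FS k w d := by
  refine FS_of_mul (i := Sum.inr a) (fun m hm => ?_) (fun m hm => ?_) h
  · unfold wtm at hm ⊢
    simp only [Finsupp.add_apply] at hm
    fin_cases a <;> simp at hm ⊢ <;> linarith
  · unfold odm at hm ⊢
    simp only [Finsupp.add_apply] at hm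
    fin_cases a <;> simp at hm ⊢ <;> linarith

/-- two different variables: Koszul exactness -/
theorem X_koszul {i j : Fin 2 ⊕ Fin 2} (hij : i ≠ j) {p q : Sy k}
    (h : X i * p + X j * q = 0) : ∃ r, p = X j * r ∧ q = -(X i * r) := by
  have h1 : (X j : Sy k) ∣ X i * p := by
    refine ⟨-q, ?_⟩
    have h2 : X i * p = -(X j * q) := eq_neg_of_add_eq_zero_left h
    rw [h2]
    ring
  have h3 : Prime (X j : Sy k) := X_prime
  rcases h3.dvd_or_dvd h1 with h4 | h4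
  · exfalso
    rw [X_dvd_X] at h4
    exact hij h4.symm
  · obtain ⟨r, rfl⟩ := h4
    refine ⟨r, rfl, ?_⟩
    have h5 : X j * (X i * r + q) = 0 := by
      rw [← h]
      ring
    rcases mul_eq_zero.1 h5 with h6 | h6
    · exact absurd h6 (X_ne j)
    · exact eq_neg_of_add_eq_zero_right h6

variable [CharZero k]

/-- right multiplication by `x_a` is injective and strict for the filtration -/
theorem mul_xo_mem {w d w' d' : ℤ} (a : Fin 2) {T : Wo k} (hT : T ∈ Dg k w' d')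
    (h : T * xo k a ∈ Dg k (w + 1) d) : T ∈ Dg k w d := by
  rw [Dg_eq_AO] at hT h ⊢
  obtain ⟨p, hp, rfl⟩ := hT
  obtain ⟨q, hq, h⟩ := h
  rw [← AO_x_mul] at h
  have h1 := AO_injective h
  subst h1
  exact ⟨p, fs_of_x a hq, rfl⟩

theorem mul_xo_cancel {w d w' d' : ℤ} (a : Fin 2) {S T : Wo k} (hS : S ∈ Dg k w d)
    (hT : T ∈ Dg k w' d') (h : S * xo k a = T * xo k a) : S = T := by
  rw [Dg_eq_AO] at hS hT
  obtain ⟨p, hp, rfl⟩ := hS
  obtain ⟨q, hq, rfl⟩ := hT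
  rw [← AO_x_mul, ← AO_x_mul] at h
  rw [mul_left_cancel₀ (X_ne _) (AO_injective h)]

theorem mul_xo_eq_zero {w d : ℤ} (a : Fin 2) {S : Wo k} (hS : S ∈ Dg k w d)
    (h : S * xo k a = 0) : S = 0 :=
  mul_xo_cancel a hS (Submodule.zero_mem (Dg k w d)) (by rw [h, zero_mul])

/-- right multiplication by `∂_a` is injective and strict -/
theorem mul_po_cancel {w d w' d' : ℤ} (a : Fin 2) {S T : Wo k} (hS : S ∈ Dg k w d)
    (hT : T ∈ Dg k w' d') (h : S * po k a = T * po k a) : S = T := by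
  rw [Dg_eq_NO] at hS hT
  obtain ⟨p, hp, rfl⟩ := hS
  obtain ⟨q, hq, rfl⟩ := hT
  rw [← NO_xi_mul, ← NO_xi_mul] at h
  rw [mul_left_cancel₀ (X_ne _) (NO_injective h)]

theorem mul_po_eq_zero {w d : ℤ} (a : Fin 2) {S : Wo k} (hS : S ∈ Dg k w d)
    (h : S * po k a = 0) : S = 0 :=
  mul_po_cancel a hS (Submodule.zero_mem (Dg k w d)) (by rw [h, zero_mul])

/-- Koszul exactness for right multiplication by `x_0, x_1` -/
theorem koszul_x {w d : ℤ} {S T : Wo k} (hS : S ∈ Dg k w d) (hT : T ∈ Dg k w d)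
    (h : S * xo k 0 + T * xo k 1 = 0) :
    ∃ C ∈ Dg k (w - 1) d, S = C * xo k 1 ∧ T = -(C * xo k 0) := by
  have hS' := hS
  rw [Dg_eq_AO] at hS hT
  obtain ⟨p, hp, rfl⟩ := hS
  obtain ⟨q, hq, rfl⟩ := hT
  rw [← AO_x_mul, ← AO_x_mul, ← map_add] at h
  have h1 := AO_injective (h.trans (map_zero (AO k)).symm)
  obtain ⟨r, h2, h3⟩ := X_koszul (by simp) h1
  refine ⟨AO k r, ?_, ?_, ?_⟩
  · rw [Dg_eq_AO]
    refine ⟨r, fs_of_x 1 ?_, rfl⟩
    rw [← h2, sub_add_cancel]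
    exact hp
  · rw [h2, AO_x_mul]
  · rw [h3, map_neg, AO_x_mul]

/-- in weights `≥ 1` operators are combinations of right multiples of `x_0, x_1` -/
theorem Dg_x_gen {w d : ℤ} (hw : 0 ≤ w) {T : Wo k} (hT : T ∈ Dg k (w + 1) d) :
    ∃ S₀ ∈ Dg k w d, ∃ S₁ ∈ Dg k w d, T = S₀ * xo k 0 + S₁ * xo k 1 := by
  classical
  rw [Dg_eq_AO] at hT
  obtain ⟨p, hp, rfl⟩ := hT
  have key : ∀ m ∈ p.support, ∃ q₀ ∈ FS k w d, ∃ q₁ ∈ FS k w d,
      monomial m (coeff m p) = X (Sum.inl 0) * q₀ + X (Sum.inl 1) * q₁ := by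
    intro m hm
    have h := hp m hm
    have h1 : 0 < m (Sum.inl 0) ∨ 0 < m (Sum.inl 1) := by
      have h2 := h.1
      unfold wtm at h2
      omega
    have gen : ∀ a : Fin 2, 0 < m (Sum.inl a) → ∃ q ∈ FS k w d,
        monomial m (coeff m p) = X (Sum.inl a) * q := by
      intro a ha
      have h2 : Finsupp.single (Sum.inl a) 1 + (m - Finsupp.single (Sum.inl a) 1) = m := by
        ext j
        rw [Finsupp.add_apply, Finsupp.tsub_apply]
        by_cases hj : Sum.inl a = j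
        · subst hj
          rw [Finsupp.single_eq_same]
          omega
        · rw [Finsupp.single_eq_of_ne (fun h => hj h.symm)]
          omega
      have h3 : (monomial m (coeff m p) : Sy k) = X (Sum.inl a) *
          monomial (m - Finsupp.single (Sum.inl a) 1) (coeff m p) := by
        rw [X, monomial_mul, one_mul, h2]
      refine ⟨_, fs_of_x a ?_, h3⟩
      rw [← h3]
      intro t ht
      have h4 : t = m := by
        by_contra hne
        rw [mem_support_iff, coeff_monomial, if_neg (fun h => hne h.symm)] at ht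
        exact ht rfl
      rw [h4]
      exact h
    rcases h1 with h1 | h1
    · obtain ⟨q, hq, e⟩ := gen 0 h1
      exact ⟨q, hq, 0, Submodule.zero_mem _, by rw [e, mul_zero, add_zero]⟩
    · obtain ⟨q, hq, e⟩ := gen 1 h1
      exact ⟨0, Submodule.zero_mem _, q, hq, by rw [e, mul_zero, zero_add]⟩
  choose! q₀ h₀ q₁ h₁ h₂ using key
  refine ⟨AO k (∑ m ∈ p.support, q₀ m), ?_, AO k (∑ m ∈ p.support, q₁ m), ?_, ?_⟩
  · rw [Dg_eq_AO]
    exact ⟨_, Submodule.sum_mem _ h₀, rfl⟩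
  · rw [Dg_eq_AO]
    exact ⟨_, Submodule.sum_mem _ h₁, rfl⟩
  · rw [← AO_x_mul, ← AO_x_mul, ← map_add]
    congr 1
    conv_lhs => rw [p.as_sum]
    rw [Finset.mul_sum, Finset.mul_sum, ← Finset.sum_add_distrib]
    exact Finset.sum_congr rfl h₂

end P195A
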