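import Vale.Agent.P195A.PPd

/-!
# P195A: the families `E w d = W (w - a) (a + b - w - d)` (line bundle targets `O(a, b)`) of an
abstract system: `Fam`, `FamEx`, and the comparison `rho` on `H^3`
-/

namespace P195A

variable {k U T : Type} [Field k] [AddCommGroup U] [Module k U] [AddCommGroup T] [Module k T]

namespace RS

/-- the family of the line bundle `O(a, b)` -/
def EO (S : RS k U T) (a b w d : ℤ) : Submodule k U := S.W (w - a) (a + b - w - d)

variable {S : RS k U T}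

theorem VVf_EO {a b m w d w' d' : ℤ} (h1 : w - a = w') (h2 : a + b - w - d = d') :
    VVf (S.EO a b w d) m = S.VV m w' d' := by
  rw [VV_eq_VVf, EO, h1, h2]

theorem fam_EO (a b : ℤ) : Fam S (S.EO a b) where
  hX w d i u hu := by
    have := S.Xm i hu
    rwa [show w - a + 1 = w + 1 - a by ring, show a + b - w - d = a + b - (w + 1) - (d - 1) by
      ring] at this
  hD w d i u hu := by
    have := S.Dm i hu
    rwa [show w - a - 1 = w - 1 - a by ring, show a + b - w - d + 1 = a + b - (w - 1) - d by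
      ring] at this
  hm w d := S.mono (by omega)

/-- the twist of the family -/
theorem EO_shift (a b w d : ℤ) : S.EO a b (w - 1) (d - 1) = S.EO (a + 1) (b + 1) w d := by
  unfold EO
  congr 1 <;> ring

variable [CharZero k]

theorem famEx_EO (n : ℕ) {a : ℤ} (ha : a ≤ 1) (b : ℤ) : FamEx S (S.EO a b) n where
  t1 z hz h := by
    rw [VVf_EO (w' := -a) (d' := a + b - 2) (by ring) (by ring)] at hz
    exact al_inj hz h
  t2 u hu v hv _ h2 := by
    rw [VVf_EO (w' := -a - 1) (d' := a + b - 1) (by ring) (by ring)] at hu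
    rw [VVf_EO (w' := -a + 1) (d' := a + b - 2) (by ring) (by ring)] at hv
    rw [VVf_EO (w' := -a) (d' := a + b - 2) (by ring) (by ring)]
    exact rr2 n hu hv h2
  t3 u hu v hv h := by
    rw [VVf_EO (w' := -a - 1) (d' := a + b) (by ring) (by ring)] at hu
    rw [VVf_EO (w' := -a + 1) (d' := a + b - 1) (by ring) (by ring)] at hv
    rw [VVf_EO (w' := -a - 1) (d' := a + b - 1) (by ring) (by ring),
      VVf_EO (w' := -a + 1) (d' := a + b - 2) (by ring) (by ring)]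
    exact rr1 n (by omega) hu hv h

/-- exactness of the dual of `RR(n)` at `RR_3^*` -/
theorem h3_EO (n : ℕ) {a : ℤ} (ha : a ≤ 1) (b : ℤ) {z : Vy U} (hz : z ∈ VVf (S.EO a b 0 0) n)
    (h : S.A (S.ev z) = 0) : ∃ u ∈ VVf (S.EO a b (-1) 1) ((n : ℤ) - 1),
      ∃ v ∈ VVf (S.EO a b 1 0) ((n : ℤ) + 1), z = S.al u + S.be v := by
  rw [VVf_EO (w' := -a) (d' := a + b) (by ring) (by ring)] at hz
  rw [VVf_EO (w' := -a - 1) (d' := a + b) (by ring) (by ring),
    VVf_EO (w' := -a + 1) (d' := a + b - 1) (by ring) (by ring)]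
  exact rr0 n (by omega) hz h

omit [CharZero k] in
theorem A_im {u v : Vy U} : S.A (S.ev (S.al u + S.be v)) = 0 := by
  rw [map_add, map_add, ev_al, A_be, map_zero, add_zero]

theorem cast_add_two_ne (n : ℕ) : (((n : ℤ) : k)) + 2 ≠ 0 := by
  have : (((n : ℤ) : k)) + 2 = ((n + 2 : ℕ) : k) := by push_cast; rfl
  rw [this]
  exact Nat.cast_ne_zero.2 (by omega)

/-- `rho` is injective on `H^3` -/
theorem rho_inj_EO (n : ℕ) {a : ℤ} (ha : a ≤ 1) (b : ℤ) {z u v : Vy U}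
    (hz : z ∈ VVf (S.EO a b 0 0) n) (h : S.rho z = S.al u + S.be v) :
    ∃ u' ∈ VVf (S.EO a b (-1) 1) ((n : ℤ) - 1),
      ∃ v' ∈ VVf (S.EO a b 1 0) ((n : ℤ) + 1), z = S.al u' + S.be v' := by
  refine h3_EO n ha b hz ?_
  have hz' := hz
  rw [VVf_EO (w' := -a) (d' := a + b) (by ring) (by ring)] at hz'
  have h1 := A_rho hz'
  rw [h, A_im] at h1
  exact (smul_eq_zero.1 h1.symm).resolve_left (cast_add_two_ne n)

/-- `rho` is surjective on `H^3` -/
theorem rho_surj_EO (n : ℕ) {a b : ℤ} (ha : a ≤ 0) (hb : 0 ≤ b) (hab : 0 ≤ a + b) {z' : Vy U}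
    (hz' : z' ∈ VVf (S.EO (a + 1) (b + 1) 0 0) ((n : ℤ) + 1)) :
    ∃ z ∈ VVf (S.EO a b 0 0) n, ∃ u ∈ VVf (S.EO (a + 1) (b + 1) (-1) 1) (n : ℤ),
      ∃ v ∈ VVf (S.EO (a + 1) (b + 1) 1 0) ((n : ℤ) + 2), z' = S.rho z + (S.al u + S.be v) := by
  have hz'' := hz'
  rw [VVf_EO (w' := -a - 1) (d' := a + b + 2) (by ring) (by ring)] at hz''
  have h1 := ev_mem hz''
  rw [show -a - 1 + ((n : ℤ) + 1) = -a + n by ring] at h1
  obtain ⟨z, hz, h2⟩ := h0_surj (S := S) n (w := -a) (d := a + b) (by omega) hab (by omega) h1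
  set c : k := ((n : ℤ) : k) + 2 with hc
  have hc0 : c ≠ 0 := cast_add_two_ne n
  have hcz := Submodule.smul_mem (S.VV (n : ℤ) (-a) (a + b)) c⁻¹ hz
  have h3 := A_rho hcz
  have h4 : c • S.A (S.ev (c⁻¹ • z)) = S.A (S.ev z) := by
    rw [map_smul, map_smul, smul_inv_smul₀ hc0]
  rw [← hc, h4, h2] at h3
  have hr : S.rho (c⁻¹ • z) ∈ S.VV ((n : ℤ) + 1) (-a - 1) (a + b + 2) :=
    VV_mono (by omega) (rho_mem hcz)
  have hd : z' - S.rho (c⁻¹ • z) ∈ VVf (S.EO (a + 1) (b + 1) 0 0) ((n + 1 : ℕ) : ℤ) := by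
    rw [VVf_EO (w' := -a - 1) (d' := a + b + 2) (by ring) (by ring), Nat.cast_succ]
    exact Submodule.sub_mem _ hz'' hr
  obtain ⟨u, hu, v, hv, h4⟩ := h3_EO (S := S) (n + 1) (a := a + 1) (by omega) (b + 1) hd
    (by rw [map_sub, map_sub, h3, sub_self])
  refine ⟨c⁻¹ • z, ?_, u, ?_, v, ?_, ?_⟩
  · rw [VVf_EO (w' := -a) (d' := a + b) (by ring) (by ring)]
    exact hcz
  · rwa [show ((n + 1 : ℕ) : ℤ) - 1 = n by push_cast; ring] at hu
  · rwa [show ((n + 1 : ℕ) : ℤ) + 1 = (n : ℤ) + 2 by push_cast; ring] at hv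
  · rw [← h4]
    abel

end RS

end P195A
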