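import Vale.Agent.P195A.VY

/-!
# P195A: abstract systems (`X_a`, `D_a` with Koszul exactness) and the operators `al`, `be`, `Z`,
`g0`, `rho`, `ev` on `U[y_0, y_1]`
-/

namespace P195A

/-- abstract systems -/
structure RS (k U T : Type) [Field k] [AddCommGroup U] [Module k U] [AddCommGroup T]
    [Module k T] where
  X : Fin 2 → U →ₗ[k] U
  D : Fin 2 → U →ₗ[k] U
  W : ℤ → ℤ → Submodule k U
  A : U →ₗ[k] T
  mono : ∀ {w d d' : ℤ}, d ≤ d' → W w d ≤ W w d'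
  Xm : ∀ {w d : ℤ} (a : Fin 2) {u : U}, u ∈ W w d → X a u ∈ W (w + 1) d
  Dm : ∀ {w d : ℤ} (a : Fin 2) {u : U}, u ∈ W w d → D a u ∈ W (w - 1) (d + 1)
  XX : ∀ u, X 0 (X 1 u) = X 1 (X 0 u)
  DD : ∀ u, D 0 (D 1 u) = D 1 (D 0 u)
  XD : ∀ a b u, X a (D b u) = D b (X a u) + if a = b then u else 0
  Xinj : ∀ {w d : ℤ} {u : U}, u ∈ W w d → X 1 u = 0 → u = 0
  kx : ∀ {w d : ℤ} {a b : U}, a ∈ W w d → b ∈ W w d → X 0 a + X 1 b = 0 →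
    ∃ r ∈ W (w - 1) d, a = X 1 r ∧ b = -X 0 r
  sx : ∀ {w d : ℤ} {c : U}, 0 ≤ w → c ∈ W (w + 1) d → ∃ a ∈ W w d, ∃ b ∈ W w d,
    c = X 0 a + X 1 b
  Dinj : ∀ {w d : ℤ} {u : U}, u ∈ W w d → D 0 u = 0 → u = 0
  kd : ∀ {w d : ℤ} {a b : U}, a ∈ W w d → b ∈ W w d → D 0 a = D 1 b →
    ∃ r ∈ W (w + 1) (d - 1), a = D 1 r ∧ b = D 0 r
  AD : ∀ a u, A (D a u) = 0
  Aker : ∀ {w d : ℤ} {c : U}, c ∈ W w d → A c = 0 → ∃ a ∈ W (w + 1) (d - 1),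
    ∃ b ∈ W (w + 1) (d - 1), c = D 0 a + D 1 b
  neg : ∀ {w d : ℤ} {c : U}, w < 0 → c ∈ W w d → ∃ a ∈ W (w + 1) (d - 1),
    ∃ b ∈ W (w + 1) (d - 1), c = D 0 a + D 1 b
  Ar : ∀ {w d d' : ℤ} {c : U}, 0 ≤ d → c ∈ W w d' → ∃ c' ∈ W w d, A c' = A c

variable {k U T : Type} [Field k] [AddCommGroup U] [Module k U] [AddCommGroup T] [Module k T]

namespace RS

variable (S : RS k U T)

/-- `al = X_0 y_1 - X_1 y_0` -/
noncomputable def al : Vy U →ₗ[k] Vy U := lf (S.X 0) ∘ₗ y1 k U - lf (S.X 1) ∘ₗ y0 k U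

/-- `be = D_1 ∂_{y_0} - D_0 ∂_{y_1}` -/
noncomputable def be : Vy U →ₗ[k] Vy U := lf (S.D 1) ∘ₗ q0 k U - lf (S.D 0) ∘ₗ q1 k U

/-- `Z = D_0 X_0 + D_1 X_1 - E_y` -/
noncomputable def Z : Vy U →ₗ[k] Vy U :=
  lf (S.D 0) ∘ₗ lf (S.X 0) + lf (S.D 1) ∘ₗ lf (S.X 1) - y0 k U ∘ₗ q0 k U - y1 k U ∘ₗ q1 k U

/-- `g0 = X_0 ∂_{y_0} + X_1 ∂_{y_1}` -/
noncomputable def g0 : Vy U →ₗ[k] Vy U := lf (S.X 0) ∘ₗ q0 k U + lf (S.X 1) ∘ₗ q1 k U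

/-- `rho = D_0 y_0 + D_1 y_1` -/
noncomputable def rho : Vy U →ₗ[k] Vy U := lf (S.D 0) ∘ₗ y0 k U + lf (S.D 1) ∘ₗ y1 k U

/-- `ev : w ⊗ y^a ↦ X^a w` -/
noncomputable def ev : Vy U →ₗ[k] U := Finsupp.lsum k (fun p => (S.X 0) ^ p.1 * (S.X 1) ^ p.2)

theorem al_apply (v : Vy U) : S.al v = lf (S.X 0) (y1 k U v) - lf (S.X 1) (y0 k U v) := rfl

theorem be_apply (v : Vy U) : S.be v = lf (S.D 1) (q0 k U v) - lf (S.D 0) (q1 k U v) := rfl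

theorem Z_apply (v : Vy U) : S.Z v = lf (S.D 0) (lf (S.X 0) v) + lf (S.D 1) (lf (S.X 1) v) -
    y0 k U (q0 k U v) - y1 k U (q1 k U v) := rfl

theorem g0_apply (v : Vy U) : S.g0 v = lf (S.X 0) (q0 k U v) + lf (S.X 1) (q1 k U v) := rfl

theorem rho_apply (v : Vy U) : S.rho v = lf (S.D 0) (y0 k U v) + lf (S.D 1) (y1 k U v) := rfl

theorem ev_single (i j : ℕ) (u : U) :
    S.ev (Finsupp.single (i, j) u) = ((S.X 0) ^ i) (((S.X 1) ^ j) u) := by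
  simp [ev, Module.End.mul_apply]

/-! commutation rules on coefficients -/

theorem lXX (v : Vy U) : lf (S.X 0) (lf (S.X 1) v) = lf (S.X 1) (lf (S.X 0) v) := by
  rw [lf_lf, lf_lf]
  congr 1
  congr 1
  exact LinearMap.ext fun u => S.XX u

theorem lDD (v : Vy U) : lf (S.D 0) (lf (S.D 1) v) = lf (S.D 1) (lf (S.D 0) v) := by
  rw [lf_lf, lf_lf]
  congr 1
  congr 1
  exact LinearMap.ext fun u => S.DD u

theorem lXD (a : Fin 2) (v : Vy U) : lf (S.X a) (lf (S.D a) v) = lf (S.D a) (lf (S.X a) v) + v := by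
  rw [lf_lf, lf_lf]
  have h : S.X a ∘ₗ S.D a = S.D a ∘ₗ S.X a + LinearMap.id := LinearMap.ext fun u => by
    have := S.XD a a u
    rw [if_pos rfl] at this
    exact this
  rw [h, lf_add, lf_id]

theorem lX0D1 (v : Vy U) : lf (S.X 0) (lf (S.D 1) v) = lf (S.D 1) (lf (S.X 0) v) := by
  rw [lf_lf, lf_lf]
  have h : S.X 0 ∘ₗ S.D 1 = S.D 1 ∘ₗ S.X 0 := LinearMap.ext fun u => by
    have := S.XD 0 1 u
    rw [if_neg (by decide), add_zero] at this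
    exact this
  rw [h]

theorem lX1D0 (v : Vy U) : lf (S.X 1) (lf (S.D 0) v) = lf (S.D 0) (lf (S.X 1) v) := by
  rw [lf_lf, lf_lf]
  have h : S.X 1 ∘ₗ S.D 0 = S.D 0 ∘ₗ S.X 1 := LinearMap.ext fun u => by
    have := S.XD 1 0 u
    rw [if_neg (by decide), add_zero] at this
    exact this
  rw [h]

theorem ZA (v : Vy U) : S.al (S.be v) = S.be (S.al v) + S.Z v := by
  simp only [al_apply, be_apply, Z_apply, map_sub, map_add, ← lf_y0, ← lf_y1, ← lf_q0, ← lf_q1,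
    q0_y0, q1_y1, q0_y1, q1_y0, lX0D1, lX1D0, lXD]
  abel

theorem g0_al (v : Vy U) : S.g0 (S.al v) = S.al (S.g0 v) := by
  simp only [al_apply, g0_apply, map_sub, map_add, ← lf_y0, ← lf_y1, ← lf_q0, ← lf_q1,
    q0_y0, q1_y1, q0_y1, q1_y0, lXX]
  abel

theorem g0_be (v : Vy U) : S.g0 (S.be v) = S.be (S.g0 v) := by
  simp only [be_apply, g0_apply, map_sub, map_add, ← lf_y0, ← lf_y1, ← lf_q0, ← lf_q1,
    q0_q1, lX0D1, lX1D0, lXD]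
  abel

theorem rho_al (v : Vy U) : S.rho (S.al v) = S.al (S.rho v) := by
  simp only [al_apply, rho_apply, map_sub, map_add, ← lf_y0, ← lf_y1, ← lf_q0, ← lf_q1,
    y0_y1, lX0D1, lX1D0, lXD]
  abel

theorem rho_be (v : Vy U) : S.rho (S.be v) = S.be (S.rho v) := by
  simp only [be_apply, rho_apply, map_sub, map_add, ← lf_y0, ← lf_y1, ← lf_q0, ← lf_q1,
    q0_y0, q1_y1, q0_y1, q1_y0, lDD]
  abel

theorem Z_al (v : Vy U) : S.Z (S.al v) = S.al (S.Z v) - (S.al v + S.al v) := by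
  simp only [al_apply, Z_apply, map_sub, map_add, ← lf_y0, ← lf_y1, ← lf_q0, ← lf_q1,
    q0_y0, q1_y1, q0_y1, q1_y0, lX0D1, lX1D0, lXD, lXX, y0_y1]
  abel

theorem Z_be (v : Vy U) : S.Z (S.be v) = S.be (S.Z v) + (S.be v + S.be v) := by
  simp only [be_apply, Z_apply, map_sub, map_add, ← lf_y0, ← lf_y1, ← lf_q0, ← lf_q1,
    q0_y0, q1_y1, q0_y1, q1_y0, lX0D1, lX1D0, lXD, lDD, q0_q1]
  abel

end RS

end P195A
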