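import Vale.Agent.P195A.FactL
import Vale.Agent.P195A.RS

/-!
# P195A: the two instances of the abstract system: right and left multiplications on the
filtered Weyl algebra
-/

namespace P195A

open MvPolynomial

variable (k : Type) [Field k] [CharZero k]

/-- the primal system: right multiplications -/
noncomputable def primal : RS k (Wo k) (Rx k) where
  X a := LinearMap.mulRight k (xo k a)
  D a := LinearMap.mulRight k (po k a)
  W w d := Dg k w d
  A := LinearMap.applyₗ (1 : Rx k)
  mono h := Dg_mono h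
  Xm a _ hu := Dg_mul_xo a hu
  Dm a _ hu := Dg_mul_po a hu
  XX u := by
    show u * xo k 1 * xo k 0 = u * xo k 0 * xo k 1
    rw [mul_assoc, mul_assoc, xo_comm 1 0]
  DD u := by
    show u * po k 1 * po k 0 = u * po k 0 * po k 1
    rw [mul_assoc, mul_assoc, po_comm 1 0]
  XD a b u := by
    show u * po k b * xo k a = u * xo k a * po k b + if a = b then u else 0
    rw [mul_assoc, po_mul_xo, mul_add, mul_assoc]
    by_cases h : a = b
    · rw [if_pos h, if_pos h.symm, mul_one]
    · rw [if_neg h, if_neg (fun h' => h h'.symm), mul_zero]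
  Xinj hu h := mul_xo_eq_zero 1 hu h
  kx ha hb h := koszul_x ha hb h
  sx hw hc := Dg_x_gen hw hc
  Dinj hu h := mul_po_eq_zero 0 hu h
  kd ha hb h := koszul_mid ha hb h
  AD a u := by
    show u (po k a 1) = 0
    rw [po_apply, pderiv_one, map_zero]
  Aker hc h := koszul_end hc h
  neg hw hc := Dg_neg hw hc
  Ar hd hc := by
    obtain ⟨c', h1, h2⟩ := one_low hc
    exact ⟨c', Dg_mono hd h1, h2⟩

/-- the dual system: left multiplications, with `x_a` and `∂_a` exchanged -/
noncomputable def dual : RS k (Wo k) (Rx k →ₗ[k] k) where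
  X a := LinearMap.mulLeft k (po k a)
  D a := LinearMap.mulLeft k (xo k a)
  W w d := Dg k (-w) (d + w)
  A := evz
  mono h := Dg_mono (by omega)
  Xm {w d} a u hu := by
    have h := po_mul_mem a hu
    rw [show -w - 1 = -(w + 1) by ring, add_assoc] at h
    exact h
  Dm {w d} a u hu := by
    have h := xo_mul_mem a hu
    rw [show -w + 1 = -(w - 1) by ring, show d + w = d + 1 + (w - 1) by ring] at h
    exact h
  XX u := by
    show po k 0 * (po k 1 * u) = po k 1 * (po k 0 * u)
    rw [← mul_assoc, ← mul_assoc, po_comm 0 1]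
  DD u := by
    show xo k 0 * (xo k 1 * u) = xo k 1 * (xo k 0 * u)
    rw [← mul_assoc, ← mul_assoc, xo_comm 0 1]
  XD a b u := by
    show po k a * (xo k b * u) = xo k b * (po k a * u) + if a = b then u else 0
    rw [← mul_assoc, po_mul_xo, add_mul, mul_assoc]
    by_cases h : a = b
    · rw [if_pos h, if_pos h, one_mul]
    · rw [if_neg h, if_neg h, zero_mul]
  Xinj hu h := po_mul_eq_zero 1 hu h
  kx {w d a b} ha hb h := by
    obtain ⟨C, h1, h2, h3⟩ := koszul_poL ha hb h
    rw [show -w + 1 = -(w - 1) by ring, show d + w - 1 = d + (w - 1) by ring] at h1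
    exact ⟨C, h1, h2, h3⟩
  sx {w d c} hw hc := by
    obtain ⟨S₀, h0, S₁, h1, h2⟩ := Dg_negL (by omega) hc
    rw [show -(w + 1) + 1 = -w by ring, show d + (w + 1) - 1 = d + w by ring] at h0 h1
    exact ⟨S₀, h0, S₁, h1, h2⟩
  Dinj hu h := xo_mul_eq_zero 0 hu h
  kd {w d a b} ha hb h := by
    obtain ⟨C, h1, h2, h3⟩ := koszul_xoL ha hb h
    rw [show -w - 1 = -(w + 1) by ring, show d + w = d - 1 + (w + 1) by ring] at h1
    exact ⟨C, h1, h2, h3⟩
  AD a u := evz_xo a u
  Aker {w d c} hc h := by
    obtain ⟨S₀, h0, S₁, h1, h2⟩ := evz_ker hc h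
    rw [show -w - 1 = -(w + 1) by ring, show d + w = d - 1 + (w + 1) by ring] at h0 h1
    exact ⟨S₀, h0, S₁, h1, h2⟩
  neg {w d c} hw hc := by
    obtain ⟨S₀, h0, S₁, h1, h2⟩ := Dg_posL (by omega) hc
    rw [show -w - 1 = -(w + 1) by ring, show d + w = d - 1 + (w + 1) by ring] at h0 h1
    exact ⟨S₀, h0, S₁, h1, h2⟩
  Ar {w d d' c} hd hc := by
    obtain ⟨c', h1, h2⟩ := evz_low hc
    rw [neg_neg] at h1
    exact ⟨c', Dg_mono (by omega) h1, h2⟩

variable {k}

@[simp] theorem primal_X (a : Fin 2) (u : Wo k) : (primal k).X a u = u * xo k a := rfl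

@[simp] theorem primal_D (a : Fin 2) (u : Wo k) : (primal k).D a u = u * po k a := rfl

theorem primal_W (w d : ℤ) : (primal k).W w d = Dg k w d := rfl

theorem primal_A (u : Wo k) : (primal k).A u = u 1 := rfl

@[simp] theorem dual_X (a : Fin 2) (u : Wo k) : (dual k).X a u = po k a * u := rfl

@[simp] theorem dual_D (a : Fin 2) (u : Wo k) : (dual k).D a u = xo k a * u := rfl

theorem dual_W (w d : ℤ) : (dual k).W w d = Dg k (-w) (d + w) := rfl

theorem dual_A (u : Wo k) : (dual k).A u = evz u := rfl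

end P195A
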