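import Vale.Agent.P195A.DictPP

/-!
# P195A: products of abstract systems; the pairing with values in `I → W`
-/

namespace P195A

variable {k U T : Type} [Field k] [AddCommGroup U] [Module k U] [AddCommGroup T] [Module k T]

namespace RS

/-- a linear map applied componentwise -/
def pim (I : Type) {U' : Type} [AddCommGroup U'] [Module k U'] (f : U →ₗ[k] U') :
    (I → U) →ₗ[k] (I → U') where
  toFun u := fun i => f (u i)
  map_add' _ _ := funext fun _ => f.map_add _ _
  map_smul' _ _ := funext fun _ => f.map_smul _ _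

@[simp] theorem pim_apply (I : Type) {U' : Type} [AddCommGroup U'] [Module k U'] (f : U →ₗ[k] U')
    (u : I → U) (i : I) : pim I f u i = f (u i) := rfl

/-- the product system -/
def pi (S : RS k U T) (I : Type) : RS k (I → U) (I → T) where
  X a := pim I (S.X a)
  D a := pim I (S.D a)
  W w d :=
    { carrier := {u | ∀ i, u i ∈ S.W w d}
      zero_mem' := fun i => Submodule.zero_mem _
      add_mem' := fun hu hv i => Submodule.add_mem _ (hu i) (hv i)
      smul_mem' := fun c u hu i => Submodule.smul_mem _ c (hu i) }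
  A := pim I S.A
  mono h := fun u hu i => S.mono h (hu i)
  Xm a _ hu := fun i => S.Xm a (hu i)
  Dm a _ hu := fun i => S.Dm a (hu i)
  XX u := funext fun i => S.XX _
  DD u := funext fun i => S.DD _
  XD a b u := by
    funext i
    have := S.XD a b (u i)
    by_cases h : a = b
    · rw [if_pos h] at this ⊢
      exact this
    · rw [if_neg h] at this ⊢
      exact this
  Xinj hu h := funext fun i => S.Xinj (hu i) (congrFun h i)
  kx {w d a b} ha hb h := by
    have h1 : ∀ i, ∃ r ∈ S.W (w - 1) d, a i = S.X 1 r ∧ b i = -S.X 0 r := fun i =>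
      S.kx (ha i) (hb i) (congrFun h i)
    choose r hr h2 h3 using h1
    exact ⟨r, hr, funext h2, funext h3⟩
  sx {w d c} hw hc := by
    have h1 : ∀ i, ∃ a ∈ S.W w d, ∃ b ∈ S.W w d, c i = S.X 0 a + S.X 1 b := fun i =>
      S.sx hw (hc i)
    choose a ha b hb h using h1
    exact ⟨a, ha, b, hb, funext h⟩
  Dinj hu h := funext fun i => S.Dinj (hu i) (congrFun h i)
  kd {w d a b} ha hb h := by
    have h1 : ∀ i, ∃ r ∈ S.W (w + 1) (d - 1), a i = S.D 1 r ∧ b i = S.D 0 r := fun i =>
      S.kd (ha i) (hb i) (congrFun h i)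
    choose r hr h2 h3 using h1
    exact ⟨r, hr, funext h2, funext h3⟩
  AD a u := funext fun i => S.AD _ _
  Aker {w d c} hc h := by
    have h1 : ∀ i, ∃ a ∈ S.W (w + 1) (d - 1), ∃ b ∈ S.W (w + 1) (d - 1),
        c i = S.D 0 a + S.D 1 b := fun i => S.Aker (hc i) (congrFun h i)
    choose a ha b hb h using h1
    exact ⟨a, ha, b, hb, funext h⟩
  neg {w d c} hw hc := by
    have h1 : ∀ i, ∃ a ∈ S.W (w + 1) (d - 1), ∃ b ∈ S.W (w + 1) (d - 1),
        c i = S.D 0 a + S.D 1 b := fun i => S.neg hw (hc i)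
    choose a ha b hb h using h1
    exact ⟨a, ha, b, hb, funext h⟩
  Ar {w d d' c} hd hc := by
    have h1 : ∀ i, ∃ c' ∈ S.W w d, S.A c' = S.A (c i) := fun i => S.Ar hd (hc i)
    choose c' hc' h using h1
    exact ⟨c', hc', funext h⟩

variable (S : RS k U T) (I : Type)

theorem pi_X (a : Fin 2) (u : I → U) (i : I) : (S.pi I).X a u i = S.X a (u i) := rfl

theorem pi_D (a : Fin 2) (u : I → U) (i : I) : (S.pi I).D a u i = S.D a (u i) := rfl

theorem pi_A (u : I → U) (i : I) : (S.pi I).A u i = S.A (u i) := rfl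

theorem pi_W {w d : ℤ} {u : I → U} : u ∈ (S.pi I).W w d ↔ ∀ i, u i ∈ S.W w d := Iff.rfl

/-! ### projections of `(I → U)[y]` to the components -/

variable {I}

variable (k U) in
/-- the `i`-th component -/
noncomputable def prc (i : I) : Vy (I → U) →ₗ[k] Vy U :=
  Finsupp.mapRange.linearMap (LinearMap.proj i)

theorem prc_single (i : I) (p : ℕ × ℕ) (u : I → U) :
    prc k U i (Finsupp.single p u) = Finsupp.single p (u i) := by
  simp [prc]

theorem prc_apply (i : I) (m : Vy (I → U)) (p : ℕ × ℕ) : prc k U i m p = m p i := by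
  simp [prc]

theorem prc_ext {m m' : Vy (I → U)} (h : ∀ i, prc k U i m = prc k U i m') : m = m' := by
  refine Finsupp.ext fun p => funext fun i => ?_
  have h1 := DFunLike.congr_fun (h i) p
  rwa [prc_apply, prc_apply] at h1

private theorem prc_ext2 {f g : Vy (I → U) →ₗ[k] Vy U}
    (h : ∀ i j u, f (Finsupp.single (i, j) u) = g (Finsupp.single (i, j) u)) (v : Vy (I → U)) :
    f v = g v := by
  have : f = g := Finsupp.lhom_ext fun p u => h p.1 p.2 u
  rw [this]

theorem prc_lf (i : I) (L : U →ₗ[k] U) (m : Vy (I → U)) :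
    prc k U i (lf (pim I L) m) = lf L (prc k U i m) := by
  refine prc_ext2 (f := prc k U i ∘ₗ lf (pim I L)) (g := lf L ∘ₗ prc k U i) ?_ m
  intro a b u
  rw [LinearMap.comp_apply, LinearMap.comp_apply, lf_single, prc_single, prc_single, lf_single]
  rfl

theorem prc_y0 (i : I) (m : Vy (I → U)) :
    prc k U i (y0 k (I → U) m) = y0 k U (prc k U i m) := by
  refine prc_ext2 (f := prc k U i ∘ₗ y0 k (I → U)) (g := y0 k U ∘ₗ prc k U i) ?_ m
  intro a b u
  rw [LinearMap.comp_apply, LinearMap.comp_apply, y0_single, prc_single, prc_single, y0_single]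

theorem prc_y1 (i : I) (m : Vy (I → U)) :
    prc k U i (y1 k (I → U) m) = y1 k U (prc k U i m) := by
  refine prc_ext2 (f := prc k U i ∘ₗ y1 k (I → U)) (g := y1 k U ∘ₗ prc k U i) ?_ m
  intro a b u
  rw [LinearMap.comp_apply, LinearMap.comp_apply, y1_single, prc_single, prc_single, y1_single]

theorem prc_q0 (i : I) (m : Vy (I → U)) :
    prc k U i (q0 k (I → U) m) = q0 k U (prc k U i m) := by
  refine prc_ext2 (f := prc k U i ∘ₗ q0 k (I → U)) (g := q0 k U ∘ₗ prc k U i) ?_ m
  intro a b u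
  rw [LinearMap.comp_apply, LinearMap.comp_apply, q0_single, map_smul, prc_single, prc_single,
    q0_single]

theorem prc_q1 (i : I) (m : Vy (I → U)) :
    prc k U i (q1 k (I → U) m) = q1 k U (prc k U i m) := by
  refine prc_ext2 (f := prc k U i ∘ₗ q1 k (I → U)) (g := q1 k U ∘ₗ prc k U i) ?_ m
  intro a b u
  rw [LinearMap.comp_apply, LinearMap.comp_apply, q1_single, map_smul, prc_single, prc_single,
    q1_single]

theorem prc_X (i : I) (a : Fin 2) (m : Vy (I → U)) :
    prc k U i (lf ((S.pi I).X a) m) = lf (S.X a) (prc k U i m) := prc_lf i _ m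

theorem prc_D (i : I) (a : Fin 2) (m : Vy (I → U)) :
    prc k U i (lf ((S.pi I).D a) m) = lf (S.D a) (prc k U i m) := prc_lf i _ m

theorem prc_al (i : I) (m : Vy (I → U)) :
    prc k U i ((S.pi I).al m) = S.al (prc k U i m) := by
  rw [al_apply, al_apply, map_sub, prc_X, prc_X, prc_y0, prc_y1]

theorem prc_be (i : I) (m : Vy (I → U)) :
    prc k U i ((S.pi I).be m) = S.be (prc k U i m) := by
  rw [be_apply, be_apply, map_sub, prc_D, prc_D, prc_q0, prc_q1]

theorem prc_g0 (i : I) (m : Vy (I → U)) :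
    prc k U i ((S.pi I).g0 m) = S.g0 (prc k U i m) := by
  rw [g0_apply, g0_apply, map_add, prc_X, prc_X, prc_q0, prc_q1]

theorem prc_rho (i : I) (m : Vy (I → U)) :
    prc k U i ((S.pi I).rho m) = S.rho (prc k U i m) := by
  rw [rho_apply, rho_apply, map_add, prc_D, prc_D, prc_y0, prc_y1]

theorem prc_Z (i : I) (m : Vy (I → U)) :
    prc k U i ((S.pi I).Z m) = S.Z (prc k U i m) := by
  simp only [Z_apply, map_sub, map_add, prc_D, prc_X, prc_y0, prc_y1, prc_q0, prc_q1]

theorem prc_phi1 (i : I) (u v : Vy (I → U)) :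
    prc k U i ((S.pi I).phi1 u v) = S.phi1 (prc k U i u) (prc k U i v) := by
  simp only [phi1, map_sub, map_add, prc_Z, prc_al, prc_be]

theorem prc_phi2 (i : I) (u v : Vy (I → U)) :
    prc k U i ((S.pi I).phi2 u v) = S.phi2 (prc k U i u) (prc k U i v) := by
  simp only [phi2, map_add, prc_Z, prc_al, prc_be]

theorem prc_pT1 (i : I) (G : Fin 2 → Vy (I → U)) :
    prc k U i ((S.pi I).pT1 G) = S.pT1 (fun a => prc k U i (G a)) := by
  simp only [pT1, map_add, prc_D]

theorem prc_pT2 (i : I) (G : Fin 2 → Vy (I → U)) :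
    prc k U i ((S.pi I).pT2 G) = S.pT2 (fun a => prc k U i (G a)) := by
  simp only [pT2, map_add, prc_X]

theorem prc_cTs (i : I) (M N : Vy (I → U)) :
    prc k U i ((S.pi I).cTs M N) = S.cTs (prc k U i M) (prc k U i N) := by
  simp only [cTs, map_sub, prc_al, prc_be]

theorem prc_cTg (i : I) (a : Fin 2) (M N : Vy (I → U)) :
    prc k U i ((S.pi I).cTg M N a) = S.cTg (prc k U i M) (prc k U i N) a := by
  fin_cases a
  · show prc k U i ((S.pi I).cTg M N 0) = S.cTg (prc k U i M) (prc k U i N) 0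
    rw [cTg_zero, cTg_zero, map_add, prc_X, prc_q1, prc_cTs]
  · show prc k U i ((S.pi I).cTg M N 1) = S.cTg (prc k U i M) (prc k U i N) 1
    rw [cTg_one, cTg_one, map_sub, prc_X, prc_q0, prc_cTs]

theorem prc_cTh (i : I) (a : Fin 2) (M N : Vy (I → U)) :
    prc k U i ((S.pi I).cTh M N a) = S.cTh (prc k U i M) (prc k U i N) a := by
  fin_cases a
  · show prc k U i ((S.pi I).cTh M N 0) = S.cTh (prc k U i M) (prc k U i N) 0
    rw [cTh_zero, cTh_zero, map_sub, prc_D, prc_y1, prc_cTs]
  · show prc k U i ((S.pi I).cTh M N 1) = S.cTh (prc k U i M) (prc k U i N) 1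
    rw [cTh_one, cTh_one, map_add, prc_D, prc_y0, prc_cTs]

end RS

/-! ### the pairing with values in `I → W` -/

/-- the pairing `(a y^p, b η^q) ↦ p! a b` if `p = q` (and `0` otherwise), `b : I → W` -/
noncomputable def prI {I : Type} : Vy (Wo k) →ₗ[k] Vy (I → Wo k) →ₗ[k] (I → Wo k) where
  toFun v :=
    { toFun := fun m i => pr v (RS.prc k (Wo k) i m)
      map_add' := fun m m' => funext fun i => by
        simp only [map_add, Pi.add_apply]
      map_smul' := fun c m => funext fun i => by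
        simp only [map_smul, Pi.smul_apply, RingHom.id_apply] }
  map_add' v v' := LinearMap.ext fun m => funext fun i => by
    simp only [map_add, LinearMap.add_apply, LinearMap.coe_mk, AddHom.coe_mk, Pi.add_apply]
  map_smul' c v := LinearMap.ext fun m => funext fun i => by
    simp only [map_smul, LinearMap.smul_apply, LinearMap.coe_mk, AddHom.coe_mk, Pi.smul_apply,
      RingHom.id_apply]

theorem prI_apply {I : Type} (v : Vy (Wo k)) (m : Vy (I → Wo k)) (i : I) :
    prI v m i = pr v (RS.prc k (Wo k) i m) := rfl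

theorem prI_single {I : Type} (p : ℕ × ℕ) (a : Wo k) (m : Vy (I → Wo k)) (i : I) :
    prI (Finsupp.single p a) m i = (pf p : k) • (a * m p i) := by
  rw [prI_apply, pr_single, RS.prc_apply]

theorem prI_left_mul {I : Type} (S : Wo k) (v : Vy (Wo k)) (m : Vy (I → Wo k)) :
    prI (lf (LinearMap.mulLeft k S) v) m = fun i => S * prI v m i :=
  funext fun i => by rw [prI_apply, pr_left_mul, prI_apply]

section

variable [CharZero k] {I : Type}

theorem prI_ext {m m' : Vy (I → Wo k)}
    (h : ∀ p : ℕ × ℕ, prI (Finsupp.single p 1) m = prI (Finsupp.single p 1) m') : m = m' :=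
  RS.prc_ext (k := k) fun i => pr_ext fun p => by
    rw [← prI_apply, ← prI_apply, h]

theorem prI_X (a : Fin 2) (v : Vy (Wo k)) (m : Vy (I → Wo k)) :
    prI (lf ((primal k).X a) v) m = prI v (lf (((dual k).pi I).D a) m) :=
  funext fun i => by rw [prI_apply, prI_apply, RS.prc_D, pr_X]

theorem prI_D (a : Fin 2) (v : Vy (Wo k)) (m : Vy (I → Wo k)) :
    prI (lf ((primal k).D a) v) m = prI v (lf (((dual k).pi I).X a) m) :=
  funext fun i => by rw [prI_apply, prI_apply, RS.prc_X, pr_D]

theorem prI_y0 (v : Vy (Wo k)) (m : Vy (I → Wo k)) :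
    prI (y0 k (Wo k) v) m = prI v (q0 k (I → Wo k) m) :=
  funext fun i => by rw [prI_apply, prI_apply, RS.prc_q0, pr_y0]

theorem prI_y1 (v : Vy (Wo k)) (m : Vy (I → Wo k)) :
    prI (y1 k (Wo k) v) m = prI v (q1 k (I → Wo k) m) :=
  funext fun i => by rw [prI_apply, prI_apply, RS.prc_q1, pr_y1]

theorem prI_q0 (v : Vy (Wo k)) (m : Vy (I → Wo k)) :
    prI (q0 k (Wo k) v) m = prI v (y0 k (I → Wo k) m) :=
  funext fun i => by rw [prI_apply, prI_apply, RS.prc_y0, pr_q0]

theorem prI_q1 (v : Vy (Wo k)) (m : Vy (I → Wo k)) :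
    prI (q1 k (Wo k) v) m = prI v (y1 k (I → Wo k) m) :=
  funext fun i => by rw [prI_apply, prI_apply, RS.prc_y1, pr_q1]

theorem prI_al (v : Vy (Wo k)) (m : Vy (I → Wo k)) :
    prI ((primal k).al v) m = -prI v (((dual k).pi I).be m) :=
  funext fun i => by rw [Pi.neg_apply, prI_apply, prI_apply, RS.prc_be, pr_al]

theorem prI_be (v : Vy (Wo k)) (m : Vy (I → Wo k)) :
    prI ((primal k).be v) m = -prI v (((dual k).pi I).al m) :=
  funext fun i => by rw [Pi.neg_apply, prI_apply, prI_apply, RS.prc_al, pr_be]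

theorem prI_g0 (v : Vy (Wo k)) (m : Vy (I → Wo k)) :
    prI ((primal k).g0 v) m = prI v (((dual k).pi I).rho m) :=
  funext fun i => by rw [prI_apply, prI_apply, RS.prc_rho, pr_g0]

theorem prI_rho (v : Vy (Wo k)) (m : Vy (I → Wo k)) :
    prI ((primal k).rho v) m = prI v (((dual k).pi I).g0 m) :=
  funext fun i => by rw [prI_apply, prI_apply, RS.prc_g0, pr_rho]

/-- the pairing on `O_1 ⊗ Q` -/
noncomputable def prIQ (g h : Fin 2 → Vy (Wo k)) (G H : Fin 2 → Vy (I → Wo k)) : I → Wo k :=
  prI (g 0) (G 0) + prI (g 1) (G 1) + (prI (h 0) (H 0) + prI (h 1) (H 1))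

/-- the transpose of `psi` -/
theorem prIQ_psi (u v : Vy (Wo k)) (G H : Fin 2 → Vy (I → Wo k)) :
    prIQ (fun a => lf ((primal k).X a) u) (fun a => lf ((primal k).D a) v) G H =
      prI u (((dual k).pi I).pT1 G) + prI v (((dual k).pi I).pT2 H) := by
  simp only [prIQ, prI_X, prI_D, RS.pT1, RS.pT2, map_add]

/-- the transpose of `chi` -/
theorem prI_chi (g h : Fin 2 → Vy (Wo k)) (M N : Vy (I → Wo k)) :
    prI ((primal k).chi1 g h) M + prI ((primal k).chi2 g h) N =
      prIQ g h (((dual k).pi I).cTg M N) (((dual k).pi I).cTh M N) := by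
  funext i
  have h1 := pr_chi g h (RS.prc k (Wo k) i M) (RS.prc k (Wo k) i N)
  simp only [prIQ, Pi.add_apply, prI_apply, RS.prc_cTg, RS.prc_cTh]
  exact h1

end

end P195A
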