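import Vale.Agent.P195A.Fact

/-!
# P195A: the complex `QQ : L → F → K → L` and surjectivity facts, in terms of operators

At degree `(w,d)`: `L = Dg (w-1) (d+2)`, `F` = pairs `a_i + c x_i` with `a_i ∈ Dg w (d+1)`,
`c ∈ Dg (w-1) (d+2)`, `K` = pairs `a_i + c ∂_i` with `a_i ∈ Dg w (d+1)`, `c ∈ Dg (w+1) (d+1)`.
-/

namespace P195A

open MvPolynomial

variable {k : Type} [Field k]

/-- pairs in `F` at degree `(w,d)` -/
def InF (k : Type) [Field k] (w d : ℤ) (P : Fin 2 → Wo k) : Prop :=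
  ∃ a : Fin 2 → Wo k, ∃ c : Wo k, (∀ i, a i ∈ Dg k w (d + 1)) ∧ c ∈ Dg k (w - 1) (d + 2) ∧
    ∀ i, P i = a i + c * xo k i

/-- pairs in `K` at degree `(w,d)` -/
def InK (k : Type) [Field k] (w d : ℤ) (P : Fin 2 → Wo k) : Prop :=
  ∃ a : Fin 2 → Wo k, ∃ c : Wo k, (∀ i, a i ∈ Dg k w (d + 1)) ∧ c ∈ Dg k (w + 1) (d + 1) ∧
    ∀ i, P i = a i + c * po k i

theorem Dg_cast {w w' d d' : ℤ} {T : Wo k} (h : T ∈ Dg k w d) (hw : w = w') (hd : d = d') :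
    T ∈ Dg k w' d' := by
  subst hw
  subst hd
  exact h

theorem InF.mem {w d : ℤ} {P : Fin 2 → Wo k} (h : InF k w d P) (i : Fin 2) :
    P i ∈ Dg k w (d + 2) := by
  obtain ⟨a, c, ha, hc, hP⟩ := h
  rw [hP i]
  refine Submodule.add_mem _ (Dg_mono (by omega) (ha i)) ?_
  exact Dg_cast (Dg_mul hc (xo_mem_Dg i)) (by ring) (by ring)

theorem InK.mem {w d : ℤ} {P : Fin 2 → Wo k} (h : InK k w d P) (i : Fin 2) :
    P i ∈ Dg k w (d + 2) := by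
  obtain ⟨a, c, ha, hc, hP⟩ := h
  rw [hP i]
  refine Submodule.add_mem _ (Dg_mono (by omega) (ha i)) ?_
  exact Dg_cast (Dg_mul hc (po_mem_Dg i)) (by ring) (by ring)

/-- the map `F → K` lands in `K` -/
theorem InF.curl {w d : ℤ} {P : Fin 2 → Wo k} (h : InF k w d P) :
    P 0 * xo k 1 - P 1 * xo k 0 ∈ Dg k (w + 1) (d + 1) := by
  obtain ⟨a, c, ha, hc, hP⟩ := h
  have h1 : P 0 * xo k 1 - P 1 * xo k 0 = a 0 * xo k 1 - a 1 * xo k 0 := by
    rw [hP 0, hP 1, add_mul, add_mul, mul_assoc c, mul_assoc c, xo_comm 0 1]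
    abel
  rw [h1]
  refine Submodule.sub_mem _ ?_ ?_
  · exact Dg_cast (Dg_mul (ha 0) (xo_mem_Dg 1)) rfl (by ring)
  · exact Dg_cast (Dg_mul (ha 1) (xo_mem_Dg 0)) rfl (by ring)

/-- the map `K → L` lands in `L` -/
theorem InK.curl {w d : ℤ} {P : Fin 2 → Wo k} (h : InK k w d P) :
    P 0 * po k 1 - P 1 * po k 0 ∈ Dg k (w - 1) (d + 2) := by
  obtain ⟨a, c, ha, hc, hP⟩ := h
  have h1 : P 0 * po k 1 - P 1 * po k 0 = a 0 * po k 1 - a 1 * po k 0 := by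
    rw [hP 0, hP 1, add_mul, add_mul, mul_assoc c, mul_assoc c, po_comm 0 1]
    abel
  rw [h1]
  refine Submodule.sub_mem _ ?_ ?_
  · exact Dg_cast (Dg_mul (ha 0) (po_mem_Dg 1)) (by ring) (by ring)
  · exact Dg_cast (Dg_mul (ha 1) (po_mem_Dg 0)) (by ring) (by ring)

variable [CharZero k]

/-- Koszul exactness in the middle for right multiplication by `x_0, x_1` -/
theorem koszul_x_mid {w d : ℤ} {S T : Wo k} (hS : S ∈ Dg k w d) (hT : T ∈ Dg k w d)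
    (h : S * xo k 0 = T * xo k 1) :
    ∃ C ∈ Dg k (w - 1) d, S = C * xo k 1 ∧ T = C * xo k 0 := by
  obtain ⟨C, hC, hSC⟩ := mul_xo_dvd 1 hS hT (by rw [pow_one]; exact h)
  refine ⟨C, hC, hSC, ?_⟩
  refine (mul_xo_cancel 1 (w := w) (d := d) (w' := w) (d' := d) ?_ hT ?_).symm
  · exact Dg_cast (Dg_mul hC (xo_mem_Dg 0)) (by ring) (by ring)
  · rw [← h, hSC, mul_assoc, mul_assoc, xo_comm 0 1]

private theorem qq_aux {R : Type} [Ring R] (a b x y : R) : b * y - (-a) * x = a * x + b * y := by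
  rw [neg_mul, sub_neg_eq_add, add_comm]

/-- QQ at `L` (left end): injectivity -/
theorem QQ_three {w d : ℤ} {r : Wo k} (hr : r ∈ Dg k w d) (h : r * xo k 0 = 0) : r = 0 :=
  mul_xo_cancel 0 hr (Submodule.zero_mem (Dg k w d)) (by rw [h, zero_mul])

/-- QQ at `F` -/
theorem QQ_two {w d : ℤ} {P : Fin 2 → Wo k} (hP : InF k w d P)
    (h : ∀ i, (P 0 * xo k 1 - P 1 * xo k 0) * po k i = 0) :
    ∃ r ∈ Dg k (w - 1) (d + 2), ∀ i, P i = r * xo k i := by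
  have h0 : P 0 * xo k 1 - P 1 * xo k 0 = 0 :=
    mul_po_cancel 0 hP.curl (Submodule.zero_mem (Dg k w d)) (by rw [h 0, zero_mul])
  obtain ⟨C, hC, h1, h2⟩ := koszul_x_mid (hP.mem 1) (hP.mem 0) (sub_eq_zero.1 h0).symm
  refine ⟨C, hC, fun i => ?_⟩
  fin_cases i
  · exact h2
  · exact h1

/-- QQ at `K`, first half: the kernel of `K → L` -/
theorem QQ_one {w d : ℤ} {P : Fin 2 → Wo k} (hP : InK k w d P)
    (h : P 0 * po k 1 - P 1 * po k 0 = 0) :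
    ∃ g ∈ Dg k (w + 1) (d + 1), ∀ i, P i = g * po k i := by
  obtain ⟨C, hC, h1, h2⟩ := koszul_mid (hP.mem 1) (hP.mem 0) (sub_eq_zero.1 h).symm
  refine ⟨C, Dg_cast hC rfl (by ring), fun i => ?_⟩
  fin_cases i
  · exact h2
  · exact h1

/-- positive weight: right multiples of `x_0, x_1` -/
theorem Dg_pos_right {w d : ℤ} (hw : 0 ≤ w) {T : Wo k} (hT : T ∈ Dg k (w + 1) d) :
    ∃ a : Fin 2 → Wo k, (∀ i, a i ∈ Dg k w d) ∧ T = a 0 * xo k 0 + a 1 * xo k 1 := by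
  obtain ⟨u, hu, hu0, h⟩ := ev_surj (m := 1) hw (T := T) (by simpa using hT)
  refine ⟨fun i => u i, fun i => hu _, ?_⟩
  rw [← h, ev]
  simp [Finset.sum_range_succ]

/-- QQ at `K`, second half (nonnegative weight) -/
theorem QQ_one' {w d : ℤ} (hw : 0 ≤ w) {g : Wo k} (hg : g ∈ Dg k (w + 1) (d + 1)) :
    ∃ P : Fin 2 → Wo k, InF k w d P ∧ P 0 * xo k 1 - P 1 * xo k 0 = g := by
  obtain ⟨a, ha, hT⟩ := Dg_pos_right hw hg
  refine ⟨![a 1, - a 0], ⟨![a 1, - a 0], 0, ?_, Submodule.zero_mem _, ?_⟩, ?_⟩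
  · intro i
    fin_cases i
    · exact ha 1
    · exact Submodule.neg_mem _ (ha 0)
  · intro i
    rw [zero_mul, add_zero]
  · rw [hT]
    exact qq_aux _ _ _ _

/-- QQ at `L` (right end) -/
theorem QQ_zero {w d : ℤ} {r : Wo k} (hr : r ∈ Dg k (w - 1) (d + 2)) (h : r 1 = 0) :
    ∃ P : Fin 2 → Wo k, InK k w d P ∧ P 0 * po k 1 - P 1 * po k 0 = r := by
  obtain ⟨S₀, h0, S₁, h1, hS⟩ := koszul_end hr h
  refine ⟨![S₁, - S₀], ⟨![S₁, - S₀], 0, ?_, Submodule.zero_mem _, ?_⟩, ?_⟩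
  · intro i
    fin_cases i
    · exact Dg_cast h1 (by ring) (by ring)
    · exact Submodule.neg_mem _ (Dg_cast h0 (by ring) (by ring))
  · intro i
    rw [zero_mul, add_zero]
  · rw [hS]
    exact qq_aux _ _ _ _

end P195A
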