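import Mathlib

/-!
# P195A: reductions (R1)

For a `k`-module `E` with two endomorphisms `o 0, o 1` and three subspaces `A`, `B ≤ C` put
`HG o A B = {z : Fin 2 → E | z i ∈ A, o 0 z_0 + o 1 z_1 ∈ B}`.  (For `A = E(0,1)`, `B = E(-1,2)`,
`C = E(-1,1)`, `o = x_0, x_1` this is `Hom(F,E)`, for `A = E(0,1)`, `B = E(1,1)`, `C = E(1,0)`,
`o = ∂_0, ∂_1` it is `Hom(K,E)`.)
-/

namespace P195A

variable {k : Type} [Field k]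

/-- `{z : Fin 2 → E | z i ∈ A, o 0 z_0 + o 1 z_1 ∈ B}` -/
def HG {E : Type} [AddCommGroup E] [Module k E] (o : Fin 2 → E →ₗ[k] E) (A B : Submodule k E) :
    Submodule k (Fin 2 → E) where
  carrier := {z | (∀ i, z i ∈ A) ∧ o 0 (z 0) + o 1 (z 1) ∈ B}
  zero_mem' := ⟨fun i => A.zero_mem, by simp⟩
  add_mem' := by
    rintro a b ⟨ha, ha'⟩ ⟨hb, hb'⟩
    refine ⟨fun i => A.add_mem (ha i) (hb i), ?_⟩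
    simp only [Pi.add_apply, map_add]
    have := B.add_mem ha' hb'
    rwa [add_add_add_comm] at this
  smul_mem' := by
    rintro c a ⟨ha, ha'⟩
    refine ⟨fun i => A.smul_mem c (ha i), ?_⟩
    simp only [Pi.smul_apply, map_smul, ← smul_add]
    exact B.smul_mem c ha'

theorem mem_HG {E : Type} [AddCommGroup E] [Module k E] {o : Fin 2 → E →ₗ[k] E}
    {A B : Submodule k E} {z : Fin 2 → E} :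
    z ∈ HG o A B ↔ (∀ i, z i ∈ A) ∧ o 0 (z 0) + o 1 (z 1) ∈ B := Iff.rfl

section exact

variable {E₃ E₂ E₁ E₀ : Type} [AddCommGroup E₃] [Module k E₃] [AddCommGroup E₂] [Module k E₂]
  [AddCommGroup E₁] [Module k E₁] [AddCommGroup E₀] [Module k E₀]

/-- (R1) exactness of `HG` in the middle: `E₃ → E₂ → E₁ → E₀`, spot `E₁`. -/
theorem HG_exact (f : E₃ →ₗ[k] E₂) (g : E₂ →ₗ[k] E₁) (h : E₁ →ₗ[k] E₀)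
    (o₃ : Fin 2 → E₃ →ₗ[k] E₃) (o₂ : Fin 2 → E₂ →ₗ[k] E₂) (o₁ : Fin 2 → E₁ →ₗ[k] E₁)
    (o₀ : Fin 2 → E₀ →ₗ[k] E₀)
    (hf : ∀ i x, f (o₃ i x) = o₂ i (f x)) (hg : ∀ i x, g (o₂ i x) = o₁ i (g x))
    (hh : ∀ i x, h (o₁ i x) = o₀ i (h x)) (hfg : ∀ x, g (f x) = 0)
    {A₃ B₃ C₃ : Submodule k E₃} {A₂ B₂ C₂ : Submodule k E₂} {A₁ B₁ : Submodule k E₁}
    (hfA : ∀ x ∈ A₃, f x ∈ A₂) (hfB : ∀ x ∈ B₃, f x ∈ B₂)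
    (hBC : B₂ ≤ C₂) (hAC : ∀ i, ∀ x ∈ A₂, o₂ i x ∈ C₂)
    (eA : ∀ x ∈ A₁, h x = 0 → ∃ y ∈ A₂, g y = x)
    (eB : ∀ x ∈ B₁, h x = 0 → ∃ y ∈ B₂, g y = x)
    (eC : ∀ x ∈ C₂, g x = 0 → ∃ y ∈ C₃, f y = x)
    (hs : ∀ x ∈ C₃, ∃ a : Fin 2 → E₃, ∃ b ∈ B₃, (∀ i, a i ∈ A₃) ∧
      x = o₃ 0 (a 0) + o₃ 1 (a 1) + b)
    {z : Fin 2 → E₁} (hz : z ∈ HG o₁ A₁ B₁) (hz0 : ∀ i, h (z i) = 0) :
    ∃ y ∈ HG o₂ A₂ B₂, ∀ i, g (y i) = z i := by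
  obtain ⟨hzA, hzB⟩ := hz
  choose y hy hy' using fun i => eA (z i) (hzA i) (hz0 i)
  obtain ⟨b, hb, hb'⟩ := eB _ hzB (by rw [map_add, hh, hh, hz0, hz0, map_zero, map_zero, add_zero])
  obtain ⟨c, hc, hc'⟩ := eC (o₂ 0 (y 0) + o₂ 1 (y 1) - b)
    (C₂.sub_mem (C₂.add_mem (hAC 0 _ (hy 0)) (hAC 1 _ (hy 1))) (hBC hb))
    (by rw [map_sub, map_add, hg, hg, hy', hy', hb', sub_self])
  obtain ⟨a, b', hb3, ha, hcab⟩ := hs c hc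
  refine ⟨fun i => y i - f (a i), ⟨fun i => A₂.sub_mem (hy i) (hfA _ (ha i)), ?_⟩, fun i => ?_⟩
  · have h1 : o₂ 0 (y 0 - f (a 0)) + o₂ 1 (y 1 - f (a 1)) = b + f b' := by
      have h2 : o₂ 0 (y 0) + o₂ 1 (y 1) = b + f c := by rw [hc']; abel
      rw [map_sub, map_sub, ← hf, ← hf, sub_add_sub_comm, h2, hcab, map_add, map_add]
      abel
    rw [h1]
    exact B₂.add_mem hb (hfB _ hb3)
  · rw [map_sub, hfg, sub_zero, hy']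

/-- (R1) surjectivity of `HG` at the end: `E₂ → E₁ → E₀ → 0`, spot `E₀`. -/
theorem HG_surj (g : E₂ →ₗ[k] E₁) (h : E₁ →ₗ[k] E₀)
    (o₂ : Fin 2 → E₂ →ₗ[k] E₂) (o₁ : Fin 2 → E₁ →ₗ[k] E₁) (o₀ : Fin 2 → E₀ →ₗ[k] E₀)
    (hg : ∀ i x, g (o₂ i x) = o₁ i (g x))
    (hh : ∀ i x, h (o₁ i x) = o₀ i (h x)) (hgh : ∀ x, h (g x) = 0)
    {A₂ B₂ C₂ : Submodule k E₂} {A₁ B₁ C₁ : Submodule k E₁} {A₀ B₀ : Submodule k E₀}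
    (hgA : ∀ x ∈ A₂, g x ∈ A₁) (hgB : ∀ x ∈ B₂, g x ∈ B₁)
    (hBC : B₁ ≤ C₁) (hAC : ∀ i, ∀ x ∈ A₁, o₁ i x ∈ C₁)
    (eA : ∀ x ∈ A₀, ∃ y ∈ A₁, h y = x)
    (eB : ∀ x ∈ B₀, ∃ y ∈ B₁, h y = x)
    (eC : ∀ x ∈ C₁, h x = 0 → ∃ y ∈ C₂, g y = x)
    (hs : ∀ x ∈ C₂, ∃ a : Fin 2 → E₂, ∃ b ∈ B₂, (∀ i, a i ∈ A₂) ∧
      x = o₂ 0 (a 0) + o₂ 1 (a 1) + b)
    {z : Fin 2 → E₀} (hz : z ∈ HG o₀ A₀ B₀) :
    ∃ y ∈ HG o₁ A₁ B₁, ∀ i, h (y i) = z i := by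
  obtain ⟨hzA, hzB⟩ := hz
  choose y hy hy' using fun i => eA (z i) (hzA i)
  obtain ⟨b, hb, hb'⟩ := eB _ hzB
  obtain ⟨c, hc, hc'⟩ := eC (o₁ 0 (y 0) + o₁ 1 (y 1) - b)
    (C₁.sub_mem (C₁.add_mem (hAC 0 _ (hy 0)) (hAC 1 _ (hy 1))) (hBC hb))
    (by rw [map_sub, map_add, hh, hh, hy', hy', hb', sub_self])
  obtain ⟨a, b', hb3, ha, hcab⟩ := hs c hc
  refine ⟨fun i => y i - g (a i), ⟨fun i => A₁.sub_mem (hy i) (hgA _ (ha i)), ?_⟩, fun i => ?_⟩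
  · have h1 : o₁ 0 (y 0 - g (a 0)) + o₁ 1 (y 1 - g (a 1)) = b + g b' := by
      have h2 : o₁ 0 (y 0) + o₁ 1 (y 1) = b + g c := by rw [hc']; abel
      rw [map_sub, map_sub, ← hg, ← hg, sub_add_sub_comm, h2, hcab, map_add, map_add]
      abel
    rw [h1]
    exact B₁.add_mem hb (hgB _ hb3)
  · rw [map_sub, hgh, sub_zero, hy']

end exact

end P195A
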