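import Vale.Agent.P195A.Surj
import Vale.Agent.P195A.Red

/-!
# P195A: the complex `QQ : L → F → K → L` evaluated at `O`, `F` and `K`

At degree `(w,d)` (that is, `Hom(O(-w,-d), -)`) the objects are
`LF w d = Dg (w-1) (d+2)`, `FF w d`, `KF w d`.
`Hom(F, E) = HG x (E(0,-1)) (E(1,-2))`, `Hom(K, E) = HG ∂ (E(0,-1)) (E(-1,-1))`, and the same with
all degrees shifted by `(1,1)` for `Φ E`.
-/

namespace P195A

open MvPolynomial

variable (k : Type) [Field k]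

/-- `L` at degree `(w,d)` -/
noncomputable def LF (w d : ℤ) : Submodule k (Wo k) := Dg k (w - 1) (d + 2)

/-- `F` at degree `(w,d)` -/
noncomputable def FW (w d : ℤ) : Submodule k (Fin 2 → Wo k) where
  carrier := {P | InF k w d P}
  zero_mem' := ⟨0, 0, fun _ => Submodule.zero_mem _, Submodule.zero_mem _, fun i => by simp⟩
  add_mem' := by
    rintro P Q ⟨a, c, ha, hc, hP⟩ ⟨b, e, hb, he, hQ⟩
    refine ⟨a + b, c + e, fun i => Submodule.add_mem _ (ha i) (hb i),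
      Submodule.add_mem _ hc he, fun i => ?_⟩
    rw [Pi.add_apply, Pi.add_apply, hP, hQ, add_mul]
    abel
  smul_mem' := by
    rintro s P ⟨a, c, ha, hc, hP⟩
    refine ⟨s • a, s • c, fun i => Submodule.smul_mem _ _ (ha i),
      Submodule.smul_mem _ _ hc, fun i => ?_⟩
    rw [Pi.smul_apply, Pi.smul_apply, hP, smul_add, smul_mul_assoc]

/-- `K` at degree `(w,d)` -/
noncomputable def KF (w d : ℤ) : Submodule k (Fin 2 → Wo k) where
  carrier := {P | InK k w d P}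
  zero_mem' := ⟨0, 0, fun _ => Submodule.zero_mem _, Submodule.zero_mem _, fun i => by simp⟩
  add_mem' := by
    rintro P Q ⟨a, c, ha, hc, hP⟩ ⟨b, e, hb, he, hQ⟩
    refine ⟨a + b, c + e, fun i => Submodule.add_mem _ (ha i) (hb i),
      Submodule.add_mem _ hc he, fun i => ?_⟩
    rw [Pi.add_apply, Pi.add_apply, hP, hQ, add_mul]
    abel
  smul_mem' := by
    rintro s P ⟨a, c, ha, hc, hP⟩
    refine ⟨s • a, s • c, fun i => Submodule.smul_mem _ _ (ha i),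
      Submodule.smul_mem _ _ hc, fun i => ?_⟩
    rw [Pi.smul_apply, Pi.smul_apply, hP, smul_add, smul_mul_assoc]

theorem mem_FF {w d : ℤ} {P : Fin 2 → Wo k} : P ∈ FW k w d ↔ InF k w d P := Iff.rfl

theorem mem_KF {w d : ℤ} {P : Fin 2 → Wo k} : P ∈ KF k w d ↔ InK k w d P := Iff.rfl

/-- left multiplication by `x_i` -/
noncomputable def lx (i : Fin 2) : Wo k →ₗ[k] Wo k := LinearMap.mulLeft k (xo k i)

/-- left multiplication by `∂_i` -/
noncomputable def lp (i : Fin 2) : Wo k →ₗ[k] Wo k := LinearMap.mulLeft k (po k i)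

/-- left multiplication by `x_i` on pairs -/
noncomputable def lx2 (i : Fin 2) : (Fin 2 → Wo k) →ₗ[k] (Fin 2 → Wo k) :=
  (lx k i).compLeft (Fin 2)

/-- left multiplication by `∂_i` on pairs -/
noncomputable def lp2 (i : Fin 2) : (Fin 2 → Wo k) →ₗ[k] (Fin 2 → Wo k) :=
  (lp k i).compLeft (Fin 2)

/-- `L → F` -/
noncomputable def qa : Wo k →ₗ[k] (Fin 2 → Wo k) :=
  LinearMap.pi fun i => LinearMap.mulRight k (xo k i)

/-- `P ↦ P_0 x_1 - P_1 x_0` -/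
noncomputable def curlx : (Fin 2 → Wo k) →ₗ[k] Wo k :=
  LinearMap.mulRight k (xo k 1) ∘ₗ LinearMap.proj 0 -
    LinearMap.mulRight k (xo k 0) ∘ₗ LinearMap.proj 1

/-- `F → K` -/
noncomputable def qb : (Fin 2 → Wo k) →ₗ[k] (Fin 2 → Wo k) :=
  LinearMap.pi fun i => LinearMap.mulRight k (po k i) ∘ₗ curlx k

/-- `K → L` -/
noncomputable def qc : (Fin 2 → Wo k) →ₗ[k] Wo k :=
  LinearMap.mulRight k (po k 1) ∘ₗ LinearMap.proj 0 -
    LinearMap.mulRight k (po k 0) ∘ₗ LinearMap.proj 1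

/-- the augmentation `r ↦ r 1` -/
noncomputable def augW : Wo k →ₗ[k] Rx k := LinearMap.applyₗ 1

variable {k}

theorem lx_apply (i : Fin 2) (T : Wo k) : lx k i T = xo k i * T := rfl
theorem lp_apply (i : Fin 2) (T : Wo k) : lp k i T = po k i * T := rfl
theorem lx2_apply (i : Fin 2) (P : Fin 2 → Wo k) (j : Fin 2) :
    lx2 k i P j = xo k i * P j := rfl
theorem lp2_apply (i : Fin 2) (P : Fin 2 → Wo k) (j : Fin 2) :
    lp2 k i P j = po k i * P j := rfl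
theorem qa_apply (r : Wo k) (i : Fin 2) : qa k r i = r * xo k i := rfl
theorem curlx_apply (P : Fin 2 → Wo k) : curlx k P = P 0 * xo k 1 - P 1 * xo k 0 := rfl
theorem qb_apply (P : Fin 2 → Wo k) (i : Fin 2) : qb k P i = curlx k P * po k i := rfl
theorem qc_apply (P : Fin 2 → Wo k) : qc k P = P 0 * po k 1 - P 1 * po k 0 := rfl
theorem augW_apply (r : Wo k) : augW k r = r 1 := rfl

theorem curlx_qa (r : Wo k) : curlx k (qa k r) = 0 := by
  rw [curlx_apply, qa_apply, qa_apply, mul_assoc, mul_assoc, xo_comm 0 1, sub_self]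

theorem qb_qa (r : Wo k) : qb k (qa k r) = 0 := by
  funext i
  rw [qb_apply, curlx_qa, zero_mul]
  rfl

theorem qc_qb (P : Fin 2 → Wo k) : qc k (qb k P) = 0 := by
  rw [qc_apply, qb_apply, qb_apply, mul_assoc, mul_assoc, po_comm 0 1, sub_self]

theorem augW_qc (P : Fin 2 → Wo k) : augW k (qc k P) = 0 := by
  rw [augW_apply, qc_apply]
  show (P 0) (pderiv 1 1) - (P 1) (pderiv 0 1) = 0
  simp

theorem qa_mem {w d : ℤ} {r : Wo k} (h : r ∈ LF k w d) : qa k r ∈ FW k w d :=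
  ⟨0, r, fun _ => Submodule.zero_mem _, h, fun i => by
    rw [Pi.zero_apply, zero_add]
    rfl⟩

theorem qb_mem {w d : ℤ} {P : Fin 2 → Wo k} (h : P ∈ FW k w d) : qb k P ∈ KF k w d :=
  ⟨0, curlx k P, fun _ => Submodule.zero_mem _, InF.curl h, fun i => by
    rw [Pi.zero_apply, zero_add]
    rfl⟩

theorem qc_mem {w d : ℤ} {P : Fin 2 → Wo k} (h : P ∈ KF k w d) : qc k P ∈ LF k w d :=
  InK.curl h

theorem qa_lx (i : Fin 2) (r : Wo k) : qa k (lx k i r) = lx2 k i (qa k r) := by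
  funext j
  simp only [qa_apply, lx_apply, lx2_apply, mul_assoc]

theorem qa_lp (i : Fin 2) (r : Wo k) : qa k (lp k i r) = lp2 k i (qa k r) := by
  funext j
  simp only [qa_apply, lp_apply, lp2_apply, mul_assoc]

theorem qb_lx (i : Fin 2) (P : Fin 2 → Wo k) : qb k (lx2 k i P) = lx2 k i (qb k P) := by
  funext j
  simp only [qb_apply, curlx_apply, lx2_apply, mul_assoc, mul_sub, sub_mul]

theorem qb_lp (i : Fin 2) (P : Fin 2 → Wo k) : qb k (lp2 k i P) = lp2 k i (qb k P) := by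
  funext j
  simp only [qb_apply, curlx_apply, lp2_apply, mul_assoc, mul_sub, sub_mul]

theorem qc_lx (i : Fin 2) (P : Fin 2 → Wo k) : qc k (lx2 k i P) = lx k i (qc k P) := by
  simp only [qc_apply, lx2_apply, lx_apply, mul_assoc, mul_sub]

theorem qc_lp (i : Fin 2) (P : Fin 2 → Wo k) : qc k (lp2 k i P) = lp k i (qc k P) := by
  simp only [qc_apply, lp2_apply, lp_apply, mul_assoc, mul_sub]

theorem augW_lx (i : Fin 2) (r : Wo k) :
    augW k (lx k i r) = (xo k i) (augW k r) := rfl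

theorem augW_lp (i : Fin 2) (r : Wo k) :
    augW k (lp k i r) = (po k i) (augW k r) := rfl

theorem LF_mono {w d d' : ℤ} (h : d ≤ d') : LF k w d ≤ LF k w d' := Dg_mono (by omega)

theorem FF_mono {w d d' : ℤ} (h : d ≤ d') : FW k w d ≤ FW k w d' := by
  rintro P ⟨a, c, ha, hc, hP⟩
  exact ⟨a, c, fun i => Dg_mono (by omega) (ha i), Dg_mono (by omega) hc, hP⟩

theorem KF_mono {w d d' : ℤ} (h : d ≤ d') : KF k w d ≤ KF k w d' := by
  rintro P ⟨a, c, ha, hc, hP⟩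
  exact ⟨a, c, fun i => Dg_mono (by omega) (ha i), Dg_mono (by omega) hc, hP⟩

theorem lx_mem {w d : ℤ} (i : Fin 2) {r : Wo k} (h : r ∈ Dg k w d) :
    xo k i * r ∈ Dg k (w + 1) d :=
  Dg_cast (Dg_mul (xo_mem_Dg i) h) (by ring) (by ring)

theorem lp_mem {w d : ℤ} (i : Fin 2) {r : Wo k} (h : r ∈ Dg k w d) :
    po k i * r ∈ Dg k (w - 1) (d + 1) :=
  Dg_cast (Dg_mul (po_mem_Dg i) h) (by ring) (by ring)

theorem LF_lx {w d : ℤ} (i : Fin 2) {r : Wo k} (h : r ∈ LF k w d) : lx k i r ∈ LF k (w + 1) d :=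
  Dg_cast (lx_mem i h) (by ring) rfl

theorem LF_lp {w d : ℤ} (i : Fin 2) {r : Wo k} (h : r ∈ LF k w d) :
    lp k i r ∈ LF k (w - 1) (d + 1) :=
  Dg_cast (lp_mem i h) rfl (by ring)

theorem FF_lx {w d : ℤ} (i : Fin 2) {P : Fin 2 → Wo k} (h : P ∈ FW k w d) :
    lx2 k i P ∈ FW k (w + 1) d := by
  obtain ⟨a, c, ha, hc, hP⟩ := h
  refine ⟨fun j => xo k i * a j, xo k i * c, fun j => lx_mem i (ha j),
    Dg_cast (lx_mem i hc) (by ring) rfl, fun j => ?_⟩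
  rw [lx2_apply, hP, mul_add, mul_assoc]

theorem FF_lp {w d : ℤ} (i : Fin 2) {P : Fin 2 → Wo k} (h : P ∈ FW k w d) :
    lp2 k i P ∈ FW k (w - 1) (d + 1) := by
  obtain ⟨a, c, ha, hc, hP⟩ := h
  refine ⟨fun j => po k i * a j, po k i * c, fun j => lp_mem i (ha j),
    Dg_cast (lp_mem i hc) rfl (by ring), fun j => ?_⟩
  rw [lp2_apply, hP, mul_add, mul_assoc]

theorem KF_lx {w d : ℤ} (i : Fin 2) {P : Fin 2 → Wo k} (h : P ∈ KF k w d) :
    lx2 k i P ∈ KF k (w + 1) d := by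
  obtain ⟨a, c, ha, hc, hP⟩ := h
  refine ⟨fun j => xo k i * a j, xo k i * c, fun j => lx_mem i (ha j),
    Dg_cast (lx_mem i hc) rfl rfl, fun j => ?_⟩
  rw [lx2_apply, hP, mul_add, mul_assoc]

theorem KF_lp {w d : ℤ} (i : Fin 2) {P : Fin 2 → Wo k} (h : P ∈ KF k w d) :
    lp2 k i P ∈ KF k (w - 1) (d + 1) := by
  obtain ⟨a, c, ha, hc, hP⟩ := h
  refine ⟨fun j => po k i * a j, po k i * c, fun j => lp_mem i (ha j),
    Dg_cast (lp_mem i hc) (by ring) rfl, fun j => ?_⟩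
  rw [lp2_apply, hP, mul_add, mul_assoc]

/-! ### surjectivity (source `F`: `C = x A + B`; source `K`: `C = ∂ A + B`) -/

theorem LF_surj_x {w d : ℤ} (h : w + d + 2 ≠ 0) {T : Wo k} (hT : T ∈ LF k (w + 1) d) :
    ∃ a : Fin 2 → Wo k, ∃ b ∈ LF k (w + 1) (d - 1), (∀ i, a i ∈ LF k w d) ∧
      T = lx k 0 (a 0) + lx k 1 (a 1) + b := by
  obtain ⟨a, b, hb, ha, h1⟩ := surj_x (k := k) (w := w - 1) (d := d + 2) (by omega)
    (T := T) (Dg_cast hT (by ring) rfl)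
  exact ⟨a, b, Dg_cast hb (by ring) (by ring), ha, h1⟩

theorem LF_surj_p {w d : ℤ} (h : d + 3 ≠ 0) {T : Wo k} (hT : T ∈ LF k (w - 1) (d + 1)) :
    ∃ a : Fin 2 → Wo k, ∃ b ∈ LF k (w - 1) d, (∀ i, a i ∈ LF k w d) ∧
      T = lp k 0 (a 0) + lp k 1 (a 1) + b := by
  obtain ⟨a, b, hb, ha, h1⟩ := surj_p (k := k) (w := w - 1) (d := d + 2) (by omega)
    (T := T) (Dg_cast hT (by ring) (by ring))
  exact ⟨a, b, Dg_cast hb (by ring) (by ring), ha, h1⟩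

theorem FF_surj_x {w d : ℤ} (h : w + d + 2 ≠ 0) {P : Fin 2 → Wo k} (hP : P ∈ FW k (w + 1) d) :
    ∃ a : Fin 2 → Fin 2 → Wo k, ∃ b ∈ FW k (w + 1) (d - 1), (∀ i, a i ∈ FW k w d) ∧
      P = lx2 k 0 (a 0) + lx2 k 1 (a 1) + b := by
  obtain ⟨p, c, hp, hc, hP⟩ := hP
  choose u v hv hu huv using fun j => surj_x (k := k) (w := w) (d := d + 1) (by omega) (hp j)
  obtain ⟨s, t, ht, hs, hst⟩ := surj_x (k := k) (w := w - 1) (d := d + 2) (by omega)
    (T := c) (Dg_cast hc (by ring) rfl)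
  refine ⟨fun i j => u j i + s i * xo k j, fun j => v j + t * xo k j,
    ⟨v, t, fun j => Dg_cast (hv j) rfl (by ring), Dg_cast ht (by ring) (by ring), fun _ => rfl⟩,
    fun i => ⟨fun j => u j i, s i, fun j => hu j i, hs i, fun _ => rfl⟩, ?_⟩
  funext j
  rw [Pi.add_apply, Pi.add_apply, lx2_apply, lx2_apply, hP, huv, hst]
  simp only [mul_add, add_mul, mul_assoc]
  abel

theorem FF_surj_p {w d : ℤ} (h : d + 2 ≠ 0) (h' : d + 3 ≠ 0) {P : Fin 2 → Wo k}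
    (hP : P ∈ FW k (w - 1) (d + 1)) :
    ∃ a : Fin 2 → Fin 2 → Wo k, ∃ b ∈ FW k (w - 1) d, (∀ i, a i ∈ FW k w d) ∧
      P = lp2 k 0 (a 0) + lp2 k 1 (a 1) + b := by
  obtain ⟨p, c, hp, hc, hP⟩ := hP
  choose u v hv hu huv using fun j => surj_p (k := k) (w := w) (d := d + 1) (by omega) (hp j)
  obtain ⟨s, t, ht, hs, hst⟩ := surj_p (k := k) (w := w - 1) (d := d + 2) (by omega)
    (T := c) (Dg_cast hc (by ring) (by ring))
  refine ⟨fun i j => u j i + s i * xo k j, fun j => v j + t * xo k j,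
    ⟨v, t, fun j => hv j, Dg_cast ht (by ring) (by ring), fun _ => rfl⟩,
    fun i => ⟨fun j => u j i, s i, fun j => hu j i, hs i, fun _ => rfl⟩, ?_⟩
  funext j
  rw [Pi.add_apply, Pi.add_apply, lp2_apply, lp2_apply, hP, huv, hst]
  simp only [mul_add, add_mul, mul_assoc]
  abel

theorem KF_surj_x {w d : ℤ} (h : w + d + 2 ≠ 0) (h' : w + d + 3 ≠ 0) {P : Fin 2 → Wo k}
    (hP : P ∈ KF k (w + 1) d) :
    ∃ a : Fin 2 → Fin 2 → Wo k, ∃ b ∈ KF k (w + 1) (d - 1), (∀ i, a i ∈ KF k w d) ∧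
      P = lx2 k 0 (a 0) + lx2 k 1 (a 1) + b := by
  obtain ⟨p, c, hp, hc, hP⟩ := hP
  choose u v hv hu huv using fun j => surj_x (k := k) (w := w) (d := d + 1) (by omega) (hp j)
  obtain ⟨s, t, ht, hs, hst⟩ := surj_x (k := k) (w := w + 1) (d := d + 1) (by omega) hc
  refine ⟨fun i j => u j i + s i * po k j, fun j => v j + t * po k j,
    ⟨v, t, fun j => Dg_cast (hv j) rfl (by ring), Dg_cast ht rfl (by ring), fun _ => rfl⟩,
    fun i => ⟨fun j => u j i, s i, fun j => hu j i, hs i, fun _ => rfl⟩, ?_⟩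
  funext j
  rw [Pi.add_apply, Pi.add_apply, lx2_apply, lx2_apply, hP, huv, hst]
  simp only [mul_add, add_mul, mul_assoc]
  abel

theorem KF_surj_p {w d : ℤ} (h : d + 2 ≠ 0) {P : Fin 2 → Wo k}
    (hP : P ∈ KF k (w - 1) (d + 1)) :
    ∃ a : Fin 2 → Fin 2 → Wo k, ∃ b ∈ KF k (w - 1) d, (∀ i, a i ∈ KF k w d) ∧
      P = lp2 k 0 (a 0) + lp2 k 1 (a 1) + b := by
  obtain ⟨p, c, hp, hc, hP⟩ := hP
  choose u v hv hu huv using fun j => surj_p (k := k) (w := w) (d := d + 1) (by omega) (hp j)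
  obtain ⟨s, t, ht, hs, hst⟩ := surj_p (k := k) (w := w + 1) (d := d + 1) (by omega)
    (T := c) (Dg_cast hc (by ring) (by ring))
  refine ⟨fun i j => u j i + s i * po k j, fun j => v j + t * po k j,
    ⟨v, t, fun j => hv j, Dg_cast ht (by ring) (by ring), fun _ => rfl⟩,
    fun i => ⟨fun j => u j i, s i, fun j => hu j i, hs i, fun _ => rfl⟩, ?_⟩
  funext j
  rw [Pi.add_apply, Pi.add_apply, lp2_apply, lp2_apply, hP, huv, hst]
  simp only [mul_add, add_mul, mul_assoc]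
  abel

variable [CharZero k]

/-! ### exactness of QQ at line bundles -/

theorem QQ_ex_three {w d : ℤ} {r : Wo k} (hr : r ∈ LF k w d) (h : qa k r = 0) : r = 0 :=
  QQ_three hr (by
    have := congrFun h 0
    rwa [qa_apply] at this)

theorem QQ_ex_F {w d : ℤ} {P : Fin 2 → Wo k} (hP : P ∈ FW k w d) (h : qb k P = 0) :
    ∃ r ∈ LF k w d, qa k r = P := by
  obtain ⟨r, hr, h1⟩ := QQ_two hP (fun i => by
    have := congrFun h i
    rwa [qb_apply, curlx_apply] at this)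
  exact ⟨r, hr, funext fun i => (h1 i).symm⟩

theorem QQ_ex_K {w d : ℤ} (hw : 0 ≤ w) {P : Fin 2 → Wo k} (hP : P ∈ KF k w d)
    (h : qc k P = 0) : ∃ Q ∈ FW k w d, qb k Q = P := by
  obtain ⟨g, hg, h1⟩ := QQ_one hP h
  obtain ⟨Q, hQ, h2⟩ := QQ_one' hw hg
  refine ⟨Q, hQ, funext fun i => ?_⟩
  rw [qb_apply, curlx_apply, h2, h1]

theorem QQ_ex_L {w d : ℤ} {r : Wo k} (hr : r ∈ LF k w d) (h : augW k r = 0) :
    ∃ P ∈ KF k w d, qc k P = r := by
  obtain ⟨P, hP, h1⟩ := QQ_zero hr h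
  exact ⟨P, hP, h1⟩

/-! ### exactness of QQ at `F` (degree `(w,d)`, `(w,d) = (0,-1)` untwisted, `(1,0)` twisted) -/

theorem QQ_F_three {w d : ℤ} {z : Fin 2 → Wo k}
    (hz : z ∈ HG (lx k) (LF k w d) (LF k (w + 1) (d - 1))) (h : ∀ i, qa k (z i) = 0) :
    z = 0 :=
  funext fun i => QQ_ex_three (hz.1 i) (h i)

theorem QQ_F_two {w d : ℤ} {z : Fin 2 → Fin 2 → Wo k}
    (hz : z ∈ HG (lx2 k) (FW k w d) (FW k (w + 1) (d - 1))) (h : ∀ i, qb k (z i) = 0) :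
    ∃ y ∈ HG (lx k) (LF k w d) (LF k (w + 1) (d - 1)), ∀ i, qa k (y i) = z i :=
  HG_exact (E₃ := Wo k) (0 : Wo k →ₗ[k] Wo k) (qa k) (qb k) (lx k) (lx k) (lx2 k) (lx2 k)
    (fun i x => by simp) qa_lx qb_lx (fun x => by simp)
    (A₃ := ⊥) (B₃ := ⊥) (C₃ := ⊥) (C₂ := LF k (w + 1) d)
    (fun x _ => Submodule.zero_mem _) (fun x _ => Submodule.zero_mem _)
    (LF_mono (by omega)) (fun i x hx => LF_lx i hx)
    (fun x hx h => QQ_ex_F hx h) (fun x hx h => QQ_ex_F hx h)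
    (fun x hx h => ⟨0, Submodule.zero_mem _, by rw [map_zero, QQ_ex_three hx h]⟩)
    (fun x hx => ⟨0, 0, Submodule.zero_mem _, fun i => Submodule.zero_mem _, by
      rw [(Submodule.mem_bot k).1 hx]; simp⟩)
    hz h

theorem QQ_F_one {w d : ℤ} (hw : 0 ≤ w) (hd : w + d + 2 ≠ 0) {z : Fin 2 → Fin 2 → Wo k}
    (hz : z ∈ HG (lx2 k) (KF k w d) (KF k (w + 1) (d - 1))) (h : ∀ i, qc k (z i) = 0) :
    ∃ y ∈ HG (lx2 k) (FW k w d) (FW k (w + 1) (d - 1)), ∀ i, qb k (y i) = z i :=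
  HG_exact (qa k) (qb k) (qc k) (lx k) (lx2 k) (lx2 k) (lx k)
    qa_lx qb_lx qc_lx qb_qa
    (A₃ := LF k w d) (B₃ := LF k (w + 1) (d - 1)) (C₃ := LF k (w + 1) d) (C₂ := FW k (w + 1) d)
    (fun x hx => qa_mem hx) (fun x hx => qa_mem hx)
    (FF_mono (by omega)) (fun i x hx => FF_lx i hx)
    (fun x hx h => QQ_ex_K hw hx h) (fun x hx h => QQ_ex_K (by omega) hx h)
    (fun x hx h => QQ_ex_F hx h)
    (fun x hx => LF_surj_x hd hx)
    hz h

theorem QQ_F_zero {w d : ℤ} (hw : 0 ≤ w) (hd : w + d + 2 ≠ 0) {z : Fin 2 → Wo k}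
    (hz : z ∈ HG (lx k) (LF k w d) (LF k (w + 1) (d - 1))) (h : ∀ i, augW k (z i) = 0) :
    ∃ y ∈ HG (lx2 k) (KF k w d) (KF k (w + 1) (d - 1)), ∀ i, qc k (y i) = z i :=
  HG_exact (qb k) (qc k) (augW k) (lx2 k) (lx2 k) (lx k) (fun i => xo k i)
    qb_lx qc_lx augW_lx qc_qb
    (A₃ := FW k w d) (B₃ := FW k (w + 1) (d - 1)) (C₃ := FW k (w + 1) d) (C₂ := KF k (w + 1) d)
    (fun x hx => qb_mem hx) (fun x hx => qb_mem hx)
    (KF_mono (by omega)) (fun i x hx => KF_lx i hx)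
    (fun x hx h => QQ_ex_L hx h) (fun x hx h => QQ_ex_L hx h)
    (fun x hx h => QQ_ex_K (by omega) hx h)
    (fun x hx => FF_surj_x hd hx)
    hz h

/-! ### exactness of QQ at `K` (degree `(w,d)`, `(w,d) = (0,-1)` untwisted, `(1,0)` twisted) -/

theorem QQ_K_three {w d : ℤ} {z : Fin 2 → Wo k}
    (hz : z ∈ HG (lp k) (LF k w d) (LF k (w - 1) d)) (h : ∀ i, qa k (z i) = 0) :
    z = 0 :=
  funext fun i => QQ_ex_three (hz.1 i) (h i)

theorem QQ_K_two {w d : ℤ} {z : Fin 2 → Fin 2 → Wo k}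
    (hz : z ∈ HG (lp2 k) (FW k w d) (FW k (w - 1) d)) (h : ∀ i, qb k (z i) = 0) :
    ∃ y ∈ HG (lp k) (LF k w d) (LF k (w - 1) d), ∀ i, qa k (y i) = z i :=
  HG_exact (E₃ := Wo k) (0 : Wo k →ₗ[k] Wo k) (qa k) (qb k) (lp k) (lp k) (lp2 k) (lp2 k)
    (fun i x => by simp) qa_lp qb_lp (fun x => by simp)
    (A₃ := ⊥) (B₃ := ⊥) (C₃ := ⊥) (C₂ := LF k (w - 1) (d + 1))
    (fun x _ => Submodule.zero_mem _) (fun x _ => Submodule.zero_mem _)
    (LF_mono (by omega)) (fun i x hx => LF_lp i hx)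
    (fun x hx h => QQ_ex_F hx h) (fun x hx h => QQ_ex_F hx h)
    (fun x hx h => ⟨0, Submodule.zero_mem _, by rw [map_zero, QQ_ex_three hx h]⟩)
    (fun x hx => ⟨0, 0, Submodule.zero_mem _, fun i => Submodule.zero_mem _, by
      rw [(Submodule.mem_bot k).1 hx]; simp⟩)
    hz h

theorem QQ_K_one {w d : ℤ} (hw : 1 ≤ w) (hd : d + 3 ≠ 0) {z : Fin 2 → Fin 2 → Wo k}
    (hz : z ∈ HG (lp2 k) (KF k w d) (KF k (w - 1) d)) (h : ∀ i, qc k (z i) = 0) :
    ∃ y ∈ HG (lp2 k) (FW k w d) (FW k (w - 1) d), ∀ i, qb k (y i) = z i :=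
  HG_exact (qa k) (qb k) (qc k) (lp k) (lp2 k) (lp2 k) (lp k)
    qa_lp qb_lp qc_lp qb_qa
    (A₃ := LF k w d) (B₃ := LF k (w - 1) d) (C₃ := LF k (w - 1) (d + 1))
    (C₂ := FW k (w - 1) (d + 1))
    (fun x hx => qa_mem hx) (fun x hx => qa_mem hx)
    (FF_mono (by omega)) (fun i x hx => FF_lp i hx)
    (fun x hx h => QQ_ex_K (by omega) hx h) (fun x hx h => QQ_ex_K (by omega) hx h)
    (fun x hx h => QQ_ex_F hx h)
    (fun x hx => LF_surj_p hd hx)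
    hz h

theorem QQ_K_zero {w d : ℤ} (hw : 1 ≤ w) (hd : d + 2 ≠ 0) (hd' : d + 3 ≠ 0) {z : Fin 2 → Wo k}
    (hz : z ∈ HG (lp k) (LF k w d) (LF k (w - 1) d)) (h : ∀ i, augW k (z i) = 0) :
    ∃ y ∈ HG (lp2 k) (KF k w d) (KF k (w - 1) d), ∀ i, qc k (y i) = z i :=
  HG_exact (qb k) (qc k) (augW k) (lp2 k) (lp2 k) (lp k) (fun i => po k i)
    qb_lp qc_lp augW_lp qc_qb
    (A₃ := FW k w d) (B₃ := FW k (w - 1) d) (C₃ := FW k (w - 1) (d + 1))
    (C₂ := KF k (w - 1) (d + 1))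
    (fun x hx => qb_mem hx) (fun x hx => qb_mem hx)
    (KF_mono (by omega)) (fun i x hx => KF_lp i hx)
    (fun x hx h => QQ_ex_L hx h) (fun x hx h => QQ_ex_L hx h)
    (fun x hx h => QQ_ex_K (by omega) hx h)
    (fun x hx => FF_surj_p hd hd' hx)
    hz h

end P195A
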