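import Vale.Agent.P195A.RR

/-!
# P195A: exactness of `RR(n)` in an abstract system, all spots, weights `≥ -1`
-/

namespace P195A

variable {k U T : Type} [Field k] [AddCommGroup U] [Module k U] [AddCommGroup T] [Module k T]

namespace RS

variable {S : RS k U T}

theorem VV_zero {w d : ℤ} {v : Vy U} (hv : v ∈ S.VV 0 w d) :
    ∃ a ∈ S.W w d, v = Finsupp.single (0, 0) a := by
  refine Submodule.span_induction (p := fun v _ => ∃ a ∈ S.W w d, v = Finsupp.single (0, 0) a)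
    ?_ ?_ ?_ ?_ hv
  · rintro _ ⟨i, j, u, hu, h, rfl⟩
    have hi : i = 0 := by omega
    have hj : j = 0 := by omega
    subst hi hj
    exact ⟨u, hu, rfl⟩
  · exact ⟨0, Submodule.zero_mem _, by simp⟩
  · rintro _ _ _ _ ⟨a, ha, rfl⟩ ⟨b, hb, rfl⟩
    exact ⟨a + b, Submodule.add_mem _ ha hb, by rw [Finsupp.single_add]⟩
  · rintro c _ _ ⟨a, ha, rfl⟩
    exact ⟨c • a, Submodule.smul_mem _ _ ha, by rw [Finsupp.smul_single]⟩

theorem VV_succ {m : ℕ} {w d : ℤ} {v : Vy U} (hv : v ∈ S.VV ((m : ℤ) + 1) w d) :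
    ∃ a ∈ S.W w d, ∃ v' ∈ S.VV m w d, v = Finsupp.single (m + 1, 0) a + y1 k U v' := by
  refine Submodule.span_induction (p := fun v _ => ∃ a ∈ S.W w d, ∃ v' ∈ S.VV m w d,
    v = Finsupp.single (m + 1, 0) a + y1 k U v') ?_ ?_ ?_ ?_ hv
  · rintro _ ⟨i, j, u, hu, h, rfl⟩
    cases j with
    | zero =>
      have hi : i = m + 1 := by omega
      subst hi
      exact ⟨u, hu, 0, Submodule.zero_mem _, by rw [map_zero, add_zero]⟩
    | succ j =>
      refine ⟨0, Submodule.zero_mem _, Finsupp.single (i, j) u, single_mem hu (by omega), ?_⟩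
      rw [y1_single, Finsupp.single_zero, zero_add]
  · exact ⟨0, Submodule.zero_mem _, 0, Submodule.zero_mem _, by simp⟩
  · rintro _ _ _ _ ⟨a, ha, v, hv, rfl⟩ ⟨b, hb, v', hv', rfl⟩
    refine ⟨a + b, Submodule.add_mem _ ha hb, v + v', Submodule.add_mem _ hv hv', ?_⟩
    rw [Finsupp.single_add, map_add]
    abel
  · rintro c _ _ ⟨a, ha, v, hv, rfl⟩
    refine ⟨c • a, Submodule.smul_mem _ _ ha, c • v, Submodule.smul_mem _ _ hv, ?_⟩
    rw [smul_add, Finsupp.smul_single, map_smul]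

theorem y1_injective : Function.Injective (y1 k U) := by
  refine Finsupp.mapDomain_injective ?_
  intro p q h
  simp only [Prod.mk.injEq, Nat.add_right_cancel_iff] at h
  exact Prod.ext h.1 h.2

theorem y1_al (v : Vy U) : S.al (y1 k U v) = y1 k U (S.al v) := by
  simp only [al_apply, map_sub, lf_y0, lf_y1, y0_y1]

theorem y1_apply_zero (v : Vy U) (i : ℕ) : (y1 k U v) (i, 0) = 0 := by
  refine Finsupp.mapDomain_of_notMem_range _ _ ?_
  rintro ⟨p, hp⟩
  simp only [Prod.mk.injEq] at hp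
  omega

theorem al_single (i j : ℕ) (u : U) : S.al (Finsupp.single (i, j) u) =
    Finsupp.single (i, j + 1) (S.X 0 u) - Finsupp.single (i + 1, j) (S.X 1 u) := by
  rw [al_apply, y1_single, y0_single, lf_single, lf_single]

theorem al_inj_nat (m : ℕ) {w d : ℤ} {v : Vy U} (hv : v ∈ S.VV (m : ℤ) w d)
    (h : S.al v = 0) : v = 0 := by
  induction m generalizing v with
  | zero =>
    obtain ⟨a, ha, rfl⟩ := VV_zero hv
    rw [al_single] at h
    have h1 := DFunLike.congr_fun h (1, 0)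
    simp at h1
    rw [S.Xinj ha h1, Finsupp.single_zero]
  | succ m ih =>
    rw [Nat.cast_succ] at hv
    obtain ⟨a, ha, v', hv', rfl⟩ := VV_succ hv
    rw [map_add, al_single, y1_al] at h
    have h1 := DFunLike.congr_fun h (m + 1 + 1, 0)
    simp [y1_apply_zero] at h1
    have ha0 := S.Xinj ha h1
    rw [ha0] at h
    simp only [map_zero, Finsupp.single_zero, sub_zero, zero_add] at h
    have h2 : S.al v' = 0 := y1_injective (k := k) (by rw [h, map_zero])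
    rw [ha0, ih hv' h2, map_zero, Finsupp.single_zero, add_zero]

theorem al_inj {m w d : ℤ} {v : Vy U} (hv : v ∈ S.VV m w d) (h : S.al v = 0) : v = 0 := by
  rcases lt_or_ge m 0 with hm | hm
  · exact VV_neg hm hv
  · obtain ⟨n, rfl⟩ := Int.eq_ofNat_of_zero_le hm
    exact al_inj_nat n hv h

theorem dvd {w d : ℤ} (n : ℕ) {a b : U} (ha : a ∈ S.W w d) (hb : b ∈ S.W (w + n - 1) d)
    (h : ((S.X 0) ^ n) a + S.X 1 b = 0) : ∃ s ∈ S.W (w - 1) d, a = S.X 1 s ∧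
      b = -((S.X 0) ^ n) s := by
  induction n generalizing b with
  | zero =>
    refine ⟨-b, ?_, ?_, ?_⟩
    · have := Submodule.neg_mem _ hb
      simpa using this
    · rw [map_neg]
      exact eq_neg_of_add_eq_zero_left h
    · rw [pow_zero, Module.End.one_apply, neg_neg]
  | succ n ih =>
    rw [pow_succ', Module.End.mul_apply] at h
    have hb' : b ∈ S.W (w + n) d := by
      rwa [show w + ((n + 1 : ℕ) : ℤ) - 1 = w + n by push_cast; ring] at hb
    obtain ⟨r, hr, h1, h2⟩ := S.kx (Xpow_mem 0 ha n) hb' h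
    obtain ⟨s, hs, h3, h4⟩ := ih (b := -r) (Submodule.neg_mem _ hr) (by
      rw [h1, map_neg, add_neg_cancel])
    refine ⟨s, hs, h3, ?_⟩
    rw [pow_succ', Module.End.mul_apply, h2, neg_inj.1 h4]

/-- the kernel of `ev` is the image of `al` -/
theorem ev_ker_nat (m : ℕ) {w d : ℤ} {v : Vy U} (hv : v ∈ S.VV (m : ℤ) w d)
    (h : S.ev v = 0) : ∃ r ∈ S.VV ((m : ℤ) - 1) (w - 1) d, v = S.al r := by
  induction m generalizing v with
  | zero =>
    obtain ⟨a, ha, rfl⟩ := VV_zero hv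
    rw [ev_single] at h
    have h1 : a = 0 := h
    exact ⟨0, Submodule.zero_mem _, by rw [h1, Finsupp.single_zero, map_zero]⟩
  | succ m ih =>
    rw [Nat.cast_succ] at hv
    obtain ⟨a, ha, v', hv', rfl⟩ := VV_succ hv
    rw [map_add, ev_single, ev_y1] at h
    obtain ⟨s, hs, h1, h2⟩ := dvd (m + 1) ha (b := S.ev v') (by
      have := ev_mem hv'
      rwa [show w + ((m + 1 : ℕ) : ℤ) - 1 = w + m by push_cast; ring]) h
    have hs1 : (Finsupp.single (m, 0) s : Vy U) ∈ S.VV (m : ℤ) (w - 1) d :=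
      single_mem hs (by simp)
    have hs2 : (Finsupp.single (m, 0) (S.X 0 s) : Vy U) ∈ S.VV (m : ℤ) w d := by
      have := X_mem 0 hs1
      rwa [lf_single, show w - 1 + 1 = w by ring] at this
    obtain ⟨r, hr, h3⟩ := ih (Submodule.add_mem _ hv' hs2) (by
      rw [map_add, h2, ev_single, pow_zero, Module.End.one_apply, ← Module.End.mul_apply,
        ← pow_succ, neg_add_cancel])
    refine ⟨y1 k U r - Finsupp.single (m, 0) s, ?_, ?_⟩
    · refine Submodule.sub_mem _ ?_ ?_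
      · have := y1_mem hr
        rwa [show (m : ℤ) - 1 + 1 = ((m + 1 : ℕ) : ℤ) - 1 by push_cast; ring] at this
      · rwa [show ((m + 1 : ℕ) : ℤ) - 1 = m by push_cast; ring]
    · rw [map_sub, y1_al, ← h3, al_single, map_add, y1_single, h1]
      abel

theorem ev_ker {m w d : ℤ} {v : Vy U} (hv : v ∈ S.VV m w d) (h : S.ev v = 0) :
    ∃ r ∈ S.VV (m - 1) (w - 1) d, v = S.al r := by
  rcases lt_or_ge m 0 with hm | hm
  · exact ⟨0, Submodule.zero_mem _, by rw [VV_neg hm hv, map_zero]⟩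
  · obtain ⟨n, rfl⟩ := Int.eq_ofNat_of_zero_le hm
    exact ev_ker_nat n hv h

theorem ev_surj (m : ℕ) {w d : ℤ} (hw : 0 ≤ w) {c : U} (hc : c ∈ S.W (w + m) d) :
    ∃ v ∈ S.VV (m : ℤ) w d, S.ev v = c := by
  induction m generalizing c with
  | zero =>
    refine ⟨Finsupp.single (0, 0) c, single_mem (by simpa using hc) (by simp), ?_⟩
    rw [ev_single]
    rfl
  | succ m ih =>
    obtain ⟨a, ha, b, hb, rfl⟩ := S.sx (w := w + m) (by omega) (c := c) (by
      rwa [show w + (m : ℤ) + 1 = w + ((m + 1 : ℕ) : ℤ) by push_cast; ring])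
    obtain ⟨v, hv, rfl⟩ := ih ha
    obtain ⟨v', hv', rfl⟩ := ih hb
    refine ⟨y0 k U v + y1 k U v', ?_, ?_⟩
    · rw [Nat.cast_succ]
      exact Submodule.add_mem _ (y0_mem hv) (y1_mem hv')
    · rw [map_add, ev_y0, ev_y1]

variable [CharZero k]

theorem cast_succ_ne (n : ℕ) : (((n : ℤ) + 1 : ℤ) : k) ≠ 0 := by
  have h : (((n : ℤ) + 1 : ℤ) : k) = ((n + 1 : ℕ) : k) := by push_cast; rfl
  rw [h]
  exact Nat.cast_ne_zero.2 (Nat.succ_ne_zero n)

/-- the common kernel of `ev ∂_{y_0}`, `ev ∂_{y_1}` is the image of `al^2` -/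
theorem nu_ker (n : ℕ) {w d : ℤ} {v : Vy U} (hv : v ∈ S.VV ((n : ℤ) + 1) w d)
    (h0 : S.ev (q0 k U v) = 0) (h1 : S.ev (q1 k U v) = 0) :
    ∃ r ∈ S.VV ((n : ℤ) - 1) (w - 2) d, v = S.al (S.al r) := by
  have h2 := ev_euler hv
  rw [h0, h1, map_zero, map_zero, add_zero] at h2
  have h3 : S.ev v = 0 := (smul_eq_zero.1 h2.symm).resolve_left (cast_succ_ne n)
  obtain ⟨s, hs, rfl⟩ := ev_ker hv h3
  rw [ev_q0_al] at h0
  have h4 : S.ev s = 0 := S.Xinj (ev_mem hs) (neg_eq_zero.1 h0)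
  obtain ⟨r, hr, rfl⟩ := ev_ker hs h4
  refine ⟨r, ?_, rfl⟩
  rwa [show (n : ℤ) + 1 - 1 - 1 = n - 1 by ring, show w - 1 - 1 = w - 2 by ring] at hr

omit [CharZero k] in
/-- exactness at `RR(n)_3` -/
theorem rr3 {n w d : ℤ} {z : Vy U} (hz : z ∈ S.VV n w d) (h : S.al z = 0) : z = 0 :=
  al_inj hz h

/-- exactness at `RR(n)_2` -/
theorem rr2 (n : ℕ) {w d : ℤ} {u v : Vy U} (hu : u ∈ S.VV ((n : ℤ) - 1) (w - 1) (d - 1))
    (hv : v ∈ S.VV ((n : ℤ) + 1) (w + 1) (d - 2)) (h : S.phi2 u v = 0) :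
    ∃ z ∈ S.VV (n : ℤ) w (d - 2), u = S.be z ∧ v = -S.al z := by
  have h1 := ev_q0_phi2 u hv
  rw [h, map_zero, map_zero] at h1
  have h2 : S.D 0 (S.ev v) = 0 := (smul_eq_zero.1 h1.symm).resolve_left (cast_succ_ne n)
  have h3 : S.ev v = 0 := S.Dinj (ev_mem hv) h2
  obtain ⟨r, hr, rfl⟩ := ev_ker hv h3
  have hr' : r ∈ S.VV (n : ℤ) w (d - 2) := by
    rwa [show (n : ℤ) + 1 - 1 = n by ring, show w + 1 - 1 = w by ring] at hr
  refine ⟨-r, Submodule.neg_mem _ hr', ?_, by rw [map_neg, neg_neg]⟩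
  have h4 := phi2_sub (S := S) u (S.al r) (S.be (-r)) (-S.al (-r))
  have h40 : S.al r - -S.al (-r) = 0 := by rw [map_neg, neg_neg, sub_self]
  rw [phi2_d3, h, h40, sub_zero] at h4
  have h5 : S.al (S.al (u - S.be (-r))) = 0 := by
    have : S.phi2 (u - S.be (-r)) 0 = S.al (S.al (u - S.be (-r))) := by
      simp [phi2]
    rw [← this, h4]
  have hb : S.be (-r) ∈ S.VV ((n : ℤ) - 1) (w - 1) (d - 1) := by
    have := be_mem (Submodule.neg_mem _ hr')
    rwa [show d - 2 + 1 = d - 1 by ring] at this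
  have h6 : u - S.be (-r) ∈ S.VV ((n : ℤ) - 1) (w - 1) (d - 1) := Submodule.sub_mem _ hu hb
  have h7 := al_inj h6 (al_inj (al_mem h6) h5)
  exact sub_eq_zero.1 h7

/-- exactness at `RR(n)_1` -/
theorem rr1 (n : ℕ) {w d : ℤ} (hw : -1 ≤ w) {u v : Vy U}
    (hu : u ∈ S.VV ((n : ℤ) - 1) (w - 1) d) (hv : v ∈ S.VV ((n : ℤ) + 1) (w + 1) (d - 1))
    (h : S.al u + S.be v = 0) :
    ∃ u' ∈ S.VV ((n : ℤ) - 1) (w - 1) (d - 1), ∃ v' ∈ S.VV ((n : ℤ) + 1) (w + 1) (d - 2),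
      u = S.phi1 u' v' ∧ v = S.phi2 u' v' := by
  have h1 : S.D 1 (S.ev (q0 k U v)) = S.D 0 (S.ev (q1 k U v)) := by
    have := congrArg S.ev h
    rw [map_add, ev_al, zero_add, ev_be, map_zero] at this
    exact sub_eq_zero.1 this
  have hq0 : S.ev (q0 k U v) ∈ S.W (w + 1 + n) (d - 1) := by
    have := ev_mem (q0_mem hv)
    rwa [show w + 1 + ((n : ℤ) + 1 - 1) = w + 1 + n by ring] at this
  have hq1 : S.ev (q1 k U v) ∈ S.W (w + 1 + n) (d - 1) := by
    have := ev_mem (q1_mem hv)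
    rwa [show w + 1 + ((n : ℤ) + 1 - 1) = w + 1 + n by ring] at this
  obtain ⟨r, hr, h2, h3⟩ := S.kd hq1 hq0 h1.symm
  obtain ⟨v', hv', h4⟩ := ev_surj (n + 1) (w := w + 1) (by omega)
    (c := ((((n : ℤ) + 1 : ℤ) : k))⁻¹ • r) (S := S) (d := d - 2) (by
      refine Submodule.smul_mem _ _ ?_
      rwa [show w + 1 + (n : ℤ) + 1 = w + 1 + ((n + 1 : ℕ) : ℤ) by push_cast; ring,
        show d - 1 - 1 = d - 2 by ring] at hr)
  rw [Nat.cast_succ] at hv'
  have h5 : (((n : ℤ) + 1 : ℤ) : k) • S.ev v' = r := by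
    rw [h4, smul_inv_smul₀ (cast_succ_ne n)]
  have hp : S.phi2 0 v' ∈ S.VV ((n : ℤ) + 1) (w + 1) (d - 1) := by
    have := phi2_mem (S := S) (u := 0) (v := v') (Submodule.zero_mem _) hv'
    rwa [show d - 2 + 1 = d - 1 by ring] at this
  obtain ⟨t, ht, h6⟩ := nu_ker n (Submodule.sub_mem _ hv hp) (by
    rw [map_sub, map_sub, ev_q0_phi2 0 hv', ← map_smul, h5, h3, sub_self]) (by
    rw [map_sub, map_sub, ev_q1_phi2 0 hv', ← map_smul, h5, h2, sub_self])
  have ht' : t ∈ S.VV ((n : ℤ) - 1) (w - 1) (d - 1) := by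
    rwa [show w + 1 - 2 = w - 1 by ring] at ht
  have h7 : v = S.phi2 t v' := by
    have h8 : v = S.al (S.al t) + S.phi2 0 v' := by
      rw [← h6]
      abel
    rw [h8]
    simp only [phi2, map_zero]
    abel
  refine ⟨t, ht', v', hv', ?_, h7⟩
  have h8 := d1_phi (S := S) t v'
  rw [← h7] at h8
  have h9 : S.al (u - S.phi1 t v') = 0 := by
    rw [map_sub, sub_eq_zero]
    exact (eq_neg_of_add_eq_zero_left h).trans (eq_neg_of_add_eq_zero_left h8).symm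
  have h10 : S.phi1 t v' ∈ S.VV ((n : ℤ) - 1) (w - 1) d := by
    have := phi1_mem (S := S) ht' (v := v') (by
      rwa [show (n : ℤ) - 1 + 2 = n + 1 by ring, show w - 1 + 2 = w + 1 by ring,
        show d - 1 - 1 = d - 2 by ring])
    rwa [show d - 1 + 1 = d by ring] at this
  exact sub_eq_zero.1 (al_inj (Submodule.sub_mem _ hu h10) h9)

/-- exactness at `RR(n)_0`, nonnegative weights -/
theorem rr0_nonneg (n : ℕ) {w d : ℤ} (hw : 0 ≤ w) {z : Vy U} (hz : z ∈ S.VV (n : ℤ) w d)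
    (h : S.A (S.ev z) = 0) :
    ∃ u ∈ S.VV ((n : ℤ) - 1) (w - 1) d, ∃ v ∈ S.VV ((n : ℤ) + 1) (w + 1) (d - 1),
      z = S.al u + S.be v := by
  obtain ⟨p, hp, q, hq, h1⟩ := S.Aker (ev_mem hz) h
  have hc : S.X 0 q - S.X 1 p ∈ S.W (w + 1 + ((n + 1 : ℕ) : ℤ)) (d - 1) := by
    rw [show w + 1 + ((n + 1 : ℕ) : ℤ) = w + n + 1 + 1 by push_cast; ring]
    exact Submodule.sub_mem _ (S.Xm 0 hq) (S.Xm 1 hp)
  obtain ⟨v0, hv0, h2⟩ := ev_surj (S := S) (n + 1) (w := w + 1) (by omega)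
    (Submodule.smul_mem _ ((((n : ℤ) + 1 : ℤ) : k))⁻¹ hc)
  rw [Nat.cast_succ] at hv0
  have h3 : (((n : ℤ) + 1 : ℤ) : k) • S.ev v0 = S.X 0 q - S.X 1 p := by
    rw [h2, smul_inv_smul₀ (cast_succ_ne n)]
  have h4 := ev_euler hv0
  rw [h3] at h4
  have hq0 : S.ev (q0 k U v0) ∈ S.W (w + n + 1) (d - 1) := by
    have := ev_mem (q0_mem hv0)
    rwa [show w + 1 + ((n : ℤ) + 1 - 1) = w + n + 1 by ring] at this
  have hq1 : S.ev (q1 k U v0) ∈ S.W (w + n + 1) (d - 1) := by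
    have := ev_mem (q1_mem hv0)
    rwa [show w + 1 + ((n : ℤ) + 1 - 1) = w + n + 1 by ring] at this
  obtain ⟨e, he, h5, h6⟩ := S.kx (Submodule.sub_mem _ hq hq0)
    (Submodule.sub_mem _ (Submodule.neg_mem _ hp) hq1) (by
      rw [map_sub, map_sub, map_neg]
      have : S.X 0 q - S.X 0 (S.ev (q0 k U v0)) + (-S.X 1 p - S.X 1 (S.ev (q1 k U v0))) =
        (S.X 0 q - S.X 1 p) - (S.X 0 (S.ev (q0 k U v0)) + S.X 1 (S.ev (q1 k U v0))) := by
        abel
      rw [this, h4, sub_self])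
  obtain ⟨t, ht, h7⟩ := ev_surj (S := S) n hw (c := -e) (d := d - 1) (by
    refine Submodule.neg_mem _ ?_
    rwa [show w + (n : ℤ) + 1 - 1 = w + n by ring] at he)
  have hv : v0 + S.al t ∈ S.VV ((n : ℤ) + 1) (w + 1) (d - 1) :=
    Submodule.add_mem _ hv0 (al_mem ht)
  have h8 : S.ev (q0 k U (v0 + S.al t)) = q := by
    rw [map_add, map_add, ev_q0_al, h7, map_neg, neg_neg, ← h5]
    abel
  have h9 : S.ev (q1 k U (v0 + S.al t)) = -p := by
    rw [map_add, map_add, ev_q1_al, h7, map_neg, ← h6]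
    abel
  have hb : S.be (v0 + S.al t) ∈ S.VV (n : ℤ) w d := by
    have := be_mem hv
    rwa [show (n : ℤ) + 1 - 1 = n by ring, show w + 1 - 1 = w by ring,
      show d - 1 + 1 = d by ring] at this
  obtain ⟨u, hu, h10⟩ := ev_ker (Submodule.sub_mem _ hz hb) (by
    rw [map_sub, ev_be, h8, h9, h1, map_neg]
    abel)
  exact ⟨u, hu, _, hv, by rw [← h10]; abel⟩

omit [CharZero k] in
/-- splitting of elements of negative weight -/
theorem VV_split {m w d : ℤ} (hw : w < 0) {z : Vy U} (hz : z ∈ S.VV m w d) :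
    ∃ z0 ∈ S.VV m (w + 1) (d - 1), ∃ z1 ∈ S.VV m (w + 1) (d - 1),
      z = lf (S.D 0) z0 + lf (S.D 1) z1 := by
  refine Submodule.span_induction (p := fun z _ => ∃ z0 ∈ S.VV m (w + 1) (d - 1),
    ∃ z1 ∈ S.VV m (w + 1) (d - 1), z = lf (S.D 0) z0 + lf (S.D 1) z1) ?_ ?_ ?_ ?_ hz
  · rintro _ ⟨i, j, u, hu, h, rfl⟩
    obtain ⟨a, ha, b, hb, rfl⟩ := S.neg hw hu
    refine ⟨_, single_mem ha h, _, single_mem hb h, ?_⟩
    rw [lf_single, lf_single, Finsupp.single_add]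
  · exact ⟨0, Submodule.zero_mem _, 0, Submodule.zero_mem _, by simp⟩
  · rintro _ _ _ _ ⟨a, ha, b, hb, rfl⟩ ⟨a', ha', b', hb', rfl⟩
    refine ⟨a + a', Submodule.add_mem _ ha ha', b + b', Submodule.add_mem _ hb hb', ?_⟩
    rw [map_add, map_add]
    abel
  · rintro c _ _ ⟨a, ha, b, hb, rfl⟩
    refine ⟨c • a, Submodule.smul_mem _ _ ha, c • b, Submodule.smul_mem _ _ hb, ?_⟩
    rw [smul_add, map_smul, map_smul]

/-- exactness at `RR(n)_0`, weight `-1` -/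
theorem rr0_neg (n : ℕ) {d : ℤ} {z : Vy U} (hz : z ∈ S.VV (n : ℤ) (-1) d)
    (h : S.A (S.ev z) = 0) :
    ∃ u ∈ S.VV ((n : ℤ) - 1) (-2) d, ∃ v ∈ S.VV ((n : ℤ) + 1) 0 (d - 1),
      z = S.al u + S.be v := by
  obtain ⟨z0, hz0, z1, hz1, h1⟩ := VV_split (by omega) hz
  rw [show (-1 : ℤ) + 1 = 0 by ring] at hz0 hz1
  set c : k := (((n : ℤ) + 1 : ℤ) : k) with hc
  have hc0 : c ≠ 0 := cast_succ_ne n
  set s : Vy U := c⁻¹ • (q0 k U z0 + q1 k U z1) with hs
  set v : Vy U := c⁻¹ • (y0 k U z1 - y1 k U z0) with hv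
  have hsm : s ∈ S.VV ((n : ℤ) - 1) 0 (d - 1) :=
    Submodule.smul_mem _ _ (Submodule.add_mem _ (q0_mem hz0) (q1_mem hz1))
  have hvm : v ∈ S.VV ((n : ℤ) + 1) 0 (d - 1) :=
    Submodule.smul_mem _ _ (Submodule.sub_mem _ (y0_mem hz1) (y1_mem hz0))
  have hcn : c = (n : k) + 1 := by rw [hc]; push_cast; rfl
  have e0 := euler hz0
  have e1 := euler hz1
  have hz' : z = S.rho s + S.be v := by
    have h2 : c • z = c • (S.rho s + S.be v) := by
      have h3 : c • S.rho s = S.rho (q0 k U z0 + q1 k U z1) := by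
        rw [← map_smul, hs, smul_inv_smul₀ hc0]
      have h4 : c • S.be v = S.be (y0 k U z1 - y1 k U z0) := by
        rw [← map_smul, hv, smul_inv_smul₀ hc0]
      have h5 : c • z = lf (S.D 0) ((n : ℤ) • z0) + lf (S.D 1) ((n : ℤ) • z1) + z := by
        rw [map_zsmul, map_zsmul, ← smul_add, ← h1, hcn, add_smul, one_smul, natCast_zsmul,
          Nat.cast_smul_eq_nsmul]
      have e0' : (n : ℤ) • z0 = y0 k U (q0 k U z0) + y1 k U (q1 k U z0) := by
        rw [e0, Int.cast_smul_eq_zsmul]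
      have e1' : (n : ℤ) • z1 = y0 k U (q0 k U z1) + y1 k U (q1 k U z1) := by
        rw [e1, Int.cast_smul_eq_zsmul]
      rw [smul_add, h3, h4, h5, e0', e1', h1]
      simp only [rho_apply, be_apply, map_add, map_sub, q0_y0, q1_y1, q0_y1, q1_y0]
      abel
    have h6 := congrArg (fun t => c⁻¹ • t) h2
    simpa only [inv_smul_smul₀ hc0] using h6
  have h2 : S.A (S.ev s) = 0 := by
    have h3 : S.A (S.ev (S.rho s)) = 0 := by
      rw [hz', map_add, map_add, A_be, add_zero] at h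
      exact h
    rw [A_rho hsm] at h3
    refine (smul_eq_zero.1 h3).resolve_left ?_
    have : ((((n : ℤ) - 1 : ℤ) : k)) + 2 = c := by
      rw [hcn]
      push_cast
      ring
    rw [this]
    exact hc0
  cases n with
  | zero =>
    have hs0 : s = 0 := VV_neg (by simp) hsm
    refine ⟨0, Submodule.zero_mem _, v, hvm, ?_⟩
    rw [hz', hs0, map_zero, map_zero]
  | succ n =>
    rw [show ((n + 1 : ℕ) : ℤ) - 1 = n by push_cast; ring] at hsm
    obtain ⟨a, ha, b, hb, h4⟩ := rr0_nonneg n le_rfl hsm h2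
    refine ⟨S.rho a, ?_, v + S.rho b, Submodule.add_mem _ hvm ?_, ?_⟩
    · have := rho_mem ha
      rwa [show (n : ℤ) - 1 + 1 = ((n + 1 : ℕ) : ℤ) - 1 by push_cast; ring,
        show (0 : ℤ) - 1 - 1 = -2 by ring, show d - 1 + 1 = d by ring] at this
    · have := rho_mem hb
      rwa [show (n : ℤ) + 1 + 1 = ((n + 1 : ℕ) : ℤ) + 1 by push_cast; ring,
        show (0 : ℤ) + 1 - 1 = 0 by ring, show d - 1 - 1 + 1 = d - 1 by ring] at this
    · rw [hz', h4, map_add, rho_al, rho_be, map_add]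
      abel

/-- exactness at `RR(n)_0` -/
theorem rr0 (n : ℕ) {w d : ℤ} (hw : -1 ≤ w) {z : Vy U} (hz : z ∈ S.VV (n : ℤ) w d)
    (h : S.A (S.ev z) = 0) :
    ∃ u ∈ S.VV ((n : ℤ) - 1) (w - 1) d, ∃ v ∈ S.VV ((n : ℤ) + 1) (w + 1) (d - 1),
      z = S.al u + S.be v := by
  rcases lt_or_ge w 0 with h0 | h0
  · have hw1 : w = -1 := by omega
    subst hw1
    obtain ⟨u, hu, v, hv, h1⟩ := rr0_neg n hz h
    exact ⟨u, hu, v, hv, h1⟩
  · exact rr0_nonneg n h0 hz h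

omit [CharZero k] in
/-- the image of `A ∘ ev`, nonnegative weights -/
theorem h0_nonneg (n : ℕ) {w d d' : ℤ} (hw : 0 ≤ w) (hd : 0 ≤ d) {c : U}
    (hc : c ∈ S.W (w + n) d') : ∃ z ∈ S.VV (n : ℤ) w d, S.A (S.ev z) = S.A c := by
  obtain ⟨c', hc', h1⟩ := S.Ar hd hc
  obtain ⟨z, hz, h2⟩ := ev_surj n hw hc'
  exact ⟨z, hz, by rw [h2, h1]⟩

/-- the image of `A ∘ ev`, weight `-1` -/
theorem h0_neg (n : ℕ) {d d' : ℤ} (hd : 1 ≤ d) {c : U}
    (hc : c ∈ S.W (-1 + n) d') : ∃ z ∈ S.VV (n : ℤ) (-1) d, S.A (S.ev z) = S.A c := by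
  cases n with
  | zero =>
    obtain ⟨a, _, b, _, rfl⟩ := S.neg (by simp) hc
    refine ⟨0, Submodule.zero_mem _, ?_⟩
    rw [map_zero, map_zero, map_add, S.AD, S.AD, add_zero]
  | succ n =>
    obtain ⟨s, hs, h2⟩ := h0_nonneg (S := S) n (w := 0) (d := d - 1) le_rfl (by omega)
      (c := c) (d' := d') (by
        rwa [show (-1 : ℤ) + ((n + 1 : ℕ) : ℤ) = 0 + n by push_cast; ring] at hc)
    have h3 := A_rho hs
    have hc0 : ((((n : ℤ) : ℤ) : k)) + 2 ≠ 0 := by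
      have : ((((n : ℤ) : ℤ) : k)) + 2 = ((n + 2 : ℕ) : k) := by push_cast; rfl
      rw [this]
      exact Nat.cast_ne_zero.2 (by omega)
    refine ⟨((((n : ℤ) : ℤ) : k) + 2)⁻¹ • S.rho s, Submodule.smul_mem _ _ ?_, ?_⟩
    · have := rho_mem hs
      rwa [show (0 : ℤ) - 1 = -1 by ring, show d - 1 + 1 = d by ring] at this
    · rw [map_smul, map_smul, h3, inv_smul_smul₀ hc0, h2]

/-- the image of `A ∘ ev` -/
theorem h0_surj (n : ℕ) {w d d' : ℤ} (hw : -1 ≤ w) (hd : 0 ≤ d) (hwd : 0 ≤ w + d) {c : U}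
    (hc : c ∈ S.W (w + n) d') : ∃ z ∈ S.VV (n : ℤ) w d, S.A (S.ev z) = S.A c := by
  rcases lt_or_ge w 0 with h0 | h0
  · have hw1 : w = -1 := by omega
    subst hw1
    exact h0_neg n (by omega) hc
  · exact h0_nonneg n h0 hd hc

end RS

end P195A
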