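import Vale.Agent.P195A.QQF

/-!
# P195A: surjectivity facts for left multiplication by `x_0, x_1` and by `∂_0, ∂_1`
-/

namespace P195A

open MvPolynomial

variable {k : Type} [Field k]

/-- extraction from a sum of three submodules -/
theorem mem_sup3 {A B : Wo k} {P Q : Submodule k (Wo k)} {T : Wo k}
    (h : T ∈ P.map (LinearMap.mulLeft k A) ⊔ P.map (LinearMap.mulLeft k B) ⊔ Q) :
    ∃ a : Fin 2 → Wo k, ∃ c ∈ Q, (∀ i, a i ∈ P) ∧ T = A * a 0 + B * a 1 + c := by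
  obtain ⟨u, hu, c, hc, rfl⟩ := Submodule.mem_sup.1 h
  obtain ⟨u0, hu0, u1, hu1, rfl⟩ := Submodule.mem_sup.1 hu
  obtain ⟨a, ha, rfl⟩ := Submodule.mem_map.1 hu0
  obtain ⟨b, hb, rfl⟩ := Submodule.mem_map.1 hu1
  refine ⟨![a, b], c, hc, fun i => ?_, rfl⟩
  fin_cases i
  · exact ha
  · exact hb

theorem mono_mem_Dg {w d : ℤ} (a₀ a₁ b₀ b₁ : ℕ) (h1 : (a₀ : ℤ) + a₁ - b₀ - b₁ = w)
    (h2 : (b₀ : ℤ) + b₁ ≤ d) :
    xo k 0 ^ a₀ * xo k 1 ^ a₁ * (po k 0 ^ b₀ * po k 1 ^ b₁) ∈ Dg k w d :=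
  Submodule.subset_span ⟨a₀, a₁, b₀, b₁, h1, h2, rfl⟩

/-- left multiples of `x_0, x_1` and smaller order fill `Dg (w+1) d` when `w + 1 + d ≠ 0` -/
theorem surj_x {w d : ℤ} (h : w + 1 + d ≠ 0) {T : Wo k} (hT : T ∈ Dg k (w + 1) d) :
    ∃ a : Fin 2 → Wo k, ∃ c ∈ Dg k (w + 1) (d - 1), (∀ i, a i ∈ Dg k w d) ∧
      T = xo k 0 * a 0 + xo k 1 * a 1 + c := by
  apply mem_sup3
  revert hT T
  change Dg k (w + 1) d ≤ _
  refine Submodule.span_le.2 ?_
  rintro T ⟨a₀, a₁, b₀, b₁, h1, h2, rfl⟩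
  by_cases hb : (b₀ : ℤ) + b₁ ≤ d - 1
  · exact Submodule.mem_sup_right (mono_mem_Dg a₀ a₁ b₀ b₁ h1 hb)
  · have hb' : (b₀ : ℤ) + b₁ = d := by omega
    rcases a₀ with _ | a₀
    · rcases a₁ with _ | a₁
      · exfalso
        push_cast at h1
        omega
      · refine Submodule.mem_sup_left (Submodule.mem_sup_right ⟨_,
          mono_mem_Dg (w := w) 0 a₁ b₀ b₁ (by push_cast at h1 ⊢; omega) h2, ?_⟩)
        show xo k 1 * (xo k 0 ^ 0 * xo k 1 ^ a₁ * (po k 0 ^ b₀ * po k 1 ^ b₁)) = _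
        rw [pow_zero, one_mul, one_mul, ← mul_assoc, ← pow_succ']
    · refine Submodule.mem_sup_left (Submodule.mem_sup_left ⟨_,
        mono_mem_Dg (w := w) a₀ a₁ b₀ b₁ (by push_cast at h1 ⊢; omega) h2, ?_⟩)
      show xo k 0 * (xo k 0 ^ a₀ * xo k 1 ^ a₁ * (po k 0 ^ b₀ * po k 1 ^ b₁)) = _
      simp only [pow_succ', mul_assoc]

/-- left multiples of `∂_0, ∂_1` and smaller order fill `Dg (w-1) (d+1)` when `d + 1 ≠ 0` -/
theorem surj_p {w d : ℤ} (h : d + 1 ≠ 0) {T : Wo k} (hT : T ∈ Dg k (w - 1) (d + 1)) :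
    ∃ a : Fin 2 → Wo k, ∃ c ∈ Dg k (w - 1) d, (∀ i, a i ∈ Dg k w d) ∧
      T = po k 0 * a 0 + po k 1 * a 1 + c := by
  apply mem_sup3
  rw [Dg_eq_AO] at hT
  obtain ⟨p, hp, rfl⟩ := hT
  have hsum : AO k p = ∑ m ∈ p.support, p.coeff m • AO k (monomial m 1) := by
    conv_lhs => rw [← MvPolynomial.support_sum_monomial_coeff p]
    rw [map_sum]
    refine Finset.sum_congr rfl fun m _ => ?_
    rw [← map_smul, MvPolynomial.smul_monomial, smul_eq_mul, mul_one]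
  rw [hsum]
  refine Submodule.sum_mem _ fun m hm => Submodule.smul_mem _ _ ?_
  obtain ⟨h1, h2⟩ := hp m hm
  unfold wtm at h1
  unfold odm at h2
  by_cases hb : (m (Sum.inr 0) : ℤ) + m (Sum.inr 1) ≤ d
  · refine Submodule.mem_sup_right ?_
    rw [Dg_eq_AO]
    refine ⟨monomial m 1, ?_, rfl⟩
    intro m' hm'
    have := MvPolynomial.support_monomial_subset hm'
    rw [Finset.mem_singleton] at this
    subst this
    exact ⟨h1, hb⟩
  · -- top order
    have key : ∀ i : Fin 2, m (Sum.inr i) ≠ 0 →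
        ∃ S ∈ Dg k w d, po k i * S = AO k (monomial m 1) := by
      intro i hi
      refine ⟨AO k (monomial (m - Finsupp.single (Sum.inr i) 1) 1), ?_, ?_⟩
      · rw [Dg_eq_AO]
        refine ⟨monomial (m - Finsupp.single (Sum.inr i) 1) 1, ?_, rfl⟩
        intro m' hm'
        have := MvPolynomial.support_monomial_subset hm'
        rw [Finset.mem_singleton] at this
        subst this
        unfold wtm odm
        fin_cases i <;>
          simp only [Finsupp.coe_tsub, Pi.sub_apply, Fin.zero_eta, Fin.mk_one, Finsupp.single_apply,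
            reduceCtorEq, if_false, Nat.sub_zero, Sum.inr.injEq, if_true, Fin.isValue,
            one_ne_zero, zero_ne_one] at hi ⊢ <;> omega
      · rw [← AO_xi_mul]
        congr 1
        rw [MvPolynomial.X, MvPolynomial.monomial_mul, one_mul]
        rw [add_tsub_cancel_of_le (Finsupp.single_le_iff.2 (Nat.one_le_iff_ne_zero.2 hi))]
    by_cases h0 : m (Sum.inr 0) = 0
    · have h1' : m (Sum.inr 1) ≠ 0 := by omega
      obtain ⟨S, hS, hS'⟩ := key 1 h1'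
      exact Submodule.mem_sup_left (Submodule.mem_sup_right ⟨S, hS, hS'⟩)
    · obtain ⟨S, hS, hS'⟩ := key 0 h0
      exact Submodule.mem_sup_left (Submodule.mem_sup_left ⟨S, hS, hS'⟩)

end P195A
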