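import Vale.Agent.P195A.SymDefs

/-!
# P195A: symbol calculus in normal and antinormal ordering
-/

namespace P195A

open MvPolynomial

variable {k : Type} [Field k]

theorem xo_apply (a : Fin 2) (f : Rx k) : xo k a f = X a * f := rfl

theorem po_apply (a : Fin 2) (f : Rx k) : po k a f = pderiv a f := rfl

theorem xo_comm (a b : Fin 2) : xo k a * xo k b = xo k b * xo k a := by
  refine LinearMap.ext fun f => ?_
  show X a * (X b * f) = X b * (X a * f)
  ring

theorem po_comm (a b : Fin 2) : po k a * po k b = po k b * po k a := by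
  refine LinearMap.ext (fun f => ?_)
  rw [Module.End.mul_apply, Module.End.mul_apply, po_apply, po_apply, po_apply, po_apply]
  induction f using MvPolynomial.induction_on with
  | C a => simp
  | add p q hp hq => simp only [map_add, hp, hq]
  | mul_X p i hp =>
    simp only [Derivation.leibniz, smul_eq_mul, map_add, MvPolynomial.pderiv_X, hp]
    have h1 : ∀ (c d : Fin 2), MvPolynomial.pderiv c
        ((Pi.single d 1 : Fin 2 → MvPolynomial (Fin 2) k) i) = 0 := by
      intro c d
      by_cases h : i = d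
      · subst h; rw [Pi.single_eq_same]; exact Derivation.map_one_eq_zero _
      · rw [Pi.single_eq_of_ne h, map_zero]
    rw [h1, h1]
    ring

theorem po_mul_xo (a b : Fin 2) :
    po k a * xo k b = xo k b * po k a + if a = b then 1 else 0 := by
  refine LinearMap.ext (fun f => ?_)
  rw [Module.End.mul_apply, LinearMap.add_apply, Module.End.mul_apply, po_apply,
    xo_apply, xo_apply, po_apply, Derivation.leibniz, smul_eq_mul, smul_eq_mul,
    MvPolynomial.pderiv_X]
  congr 1
  by_cases h : a = b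
  · subst h
    rw [if_pos rfl, Pi.single_eq_same, mul_one, Module.End.one_apply]
  · rw [if_neg h, LinearMap.zero_apply, Pi.single_eq_of_ne (fun h2 => h h2.symm), mul_zero]

theorem NO_monomial (m : Fin 2 ⊕ Fin 2 →₀ ℕ) : NO k (monomial m 1) = xm m * pm m := by
  have h := (basisMonomials (Fin 2 ⊕ Fin 2) k).constr_basis k (fun m => xm (k := k) m * pm m) m
  rw [coe_basisMonomials] at h
  exact h

theorem AO_monomial (m : Fin 2 ⊕ Fin 2 →₀ ℕ) : AO k (monomial m 1) = pm m * xm m := by
  have h := (basisMonomials (Fin 2 ⊕ Fin 2) k).constr_basis k (fun m => pm (k := k) m * xm m) m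
  rw [coe_basisMonomials] at h
  exact h

private theorem lin_ext {M : Type} [AddCommGroup M] [Module k M] {f g : Sy k →ₗ[k] M}
    (h : ∀ m, f (monomial m 1) = g (monomial m 1)) (p : Sy k) : f p = g p := by
  have h1 : f = g := (basisMonomials (Fin 2 ⊕ Fin 2) k).ext (fun m => by
    rw [coe_basisMonomials]; exact h m)
  rw [h1]

private theorem X_mul_monomial (i : Fin 2 ⊕ Fin 2) (m : Fin 2 ⊕ Fin 2 →₀ ℕ) :
    (X i : Sy k) * monomial m 1 = monomial (Finsupp.single i 1 + m) 1 := by
  rw [X, monomial_mul, one_mul]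

private theorem xo_pow_comm (a b : Fin 2) (n : ℕ) :
    xo k a * xo k b ^ n = xo k b ^ n * xo k a :=
  (Commute.pow_right (show Commute (xo k a) (xo k b) from xo_comm a b) n).eq

private theorem po_pow_comm (a b : Fin 2) (n : ℕ) :
    po k a * po k b ^ n = po k b ^ n * po k a :=
  (Commute.pow_right (show Commute (po k a) (po k b) from po_comm a b) n).eq

private theorem xm_inl (a : Fin 2) (m : Fin 2 ⊕ Fin 2 →₀ ℕ) :
    xm (k := k) (Finsupp.single (Sum.inl a) 1 + m) = xo k a * xm m := by
  unfold xm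
  fin_cases a
  · simp only [Finsupp.add_apply, Fin.zero_eta]
    rw [Finsupp.single_eq_same, Finsupp.single_eq_of_ne (by simp), zero_add, pow_add, pow_one,
      mul_assoc]
  · simp only [Finsupp.add_apply, Fin.mk_one]
    rw [Finsupp.single_eq_same, Finsupp.single_eq_of_ne (by simp), zero_add, pow_add, pow_one,
      ← mul_assoc, ← mul_assoc, xo_pow_comm]

private theorem xm_inr (a : Fin 2) (m : Fin 2 ⊕ Fin 2 →₀ ℕ) :
    xm (k := k) (Finsupp.single (Sum.inr a) 1 + m) = xm m := by
  unfold xm
  simp only [Finsupp.add_apply]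
  rw [Finsupp.single_eq_of_ne (by simp), Finsupp.single_eq_of_ne (by simp), zero_add, zero_add]

private theorem pm_inl (a : Fin 2) (m : Fin 2 ⊕ Fin 2 →₀ ℕ) :
    pm (k := k) (Finsupp.single (Sum.inl a) 1 + m) = pm m := by
  unfold pm
  simp only [Finsupp.add_apply]
  rw [Finsupp.single_eq_of_ne (by simp), Finsupp.single_eq_of_ne (by simp), zero_add, zero_add]

private theorem pm_inr (a : Fin 2) (m : Fin 2 ⊕ Fin 2 →₀ ℕ) :
    pm (k := k) (Finsupp.single (Sum.inr a) 1 + m) = po k a * pm m := by
  unfold pm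
  fin_cases a
  · simp only [Finsupp.add_apply, Fin.zero_eta]
    rw [Finsupp.single_eq_same, Finsupp.single_eq_of_ne (by simp), zero_add, pow_add, pow_one,
      mul_assoc]
  · simp only [Finsupp.add_apply, Fin.mk_one]
    rw [Finsupp.single_eq_same, Finsupp.single_eq_of_ne (by simp), zero_add, pow_add, pow_one,
      ← mul_assoc, ← mul_assoc, po_pow_comm]

private theorem po_pm (a : Fin 2) (m : Fin 2 ⊕ Fin 2 →₀ ℕ) :
    po k a * pm m = pm m * po k a := by
  unfold pm
  rw [← mul_assoc, po_pow_comm, mul_assoc, po_pow_comm, mul_assoc]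

private theorem xo_xm (a : Fin 2) (m : Fin 2 ⊕ Fin 2 →₀ ℕ) :
    xo k a * xm m = xm m * xo k a := by
  unfold xm
  rw [← mul_assoc, xo_pow_comm, mul_assoc, xo_pow_comm, mul_assoc]

theorem NO_x_mul (a : Fin 2) (p : Sy k) : NO k (X (Sum.inl a) * p) = xo k a * NO k p := by
  have h := lin_ext (f := NO k ∘ₗ LinearMap.mulLeft k (X (Sum.inl a)))
    (g := LinearMap.mulLeft k (xo k a) ∘ₗ NO k) (fun m => by
      rw [LinearMap.comp_apply, LinearMap.comp_apply, LinearMap.mulLeft_apply,
        LinearMap.mulLeft_apply, X_mul_monomial, NO_monomial, NO_monomial, xm_inl, pm_inl,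
        mul_assoc]) p
  rw [LinearMap.comp_apply, LinearMap.comp_apply, LinearMap.mulLeft_apply,
    LinearMap.mulLeft_apply] at h
  exact h

theorem NO_xi_mul (a : Fin 2) (p : Sy k) : NO k (X (Sum.inr a) * p) = NO k p * po k a := by
  have h := lin_ext (f := NO k ∘ₗ LinearMap.mulLeft k (X (Sum.inr a)))
    (g := LinearMap.mulRight k (po k a) ∘ₗ NO k) (fun m => by
      rw [LinearMap.comp_apply, LinearMap.comp_apply, LinearMap.mulLeft_apply,
        LinearMap.mulRight_apply, X_mul_monomial, NO_monomial, NO_monomial, xm_inr, pm_inr,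
        mul_assoc, po_pm]) p
  rw [LinearMap.comp_apply, LinearMap.comp_apply, LinearMap.mulLeft_apply,
    LinearMap.mulRight_apply] at h
  exact h

theorem AO_xi_mul (a : Fin 2) (p : Sy k) : AO k (X (Sum.inr a) * p) = po k a * AO k p := by
  have h := lin_ext (f := AO k ∘ₗ LinearMap.mulLeft k (X (Sum.inr a)))
    (g := LinearMap.mulLeft k (po k a) ∘ₗ AO k) (fun m => by
      rw [LinearMap.comp_apply, LinearMap.comp_apply, LinearMap.mulLeft_apply,
        LinearMap.mulLeft_apply, X_mul_monomial, AO_monomial, AO_monomial, xm_inr, pm_inr,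
        mul_assoc]) p
  rw [LinearMap.comp_apply, LinearMap.comp_apply, LinearMap.mulLeft_apply,
    LinearMap.mulLeft_apply] at h
  exact h

theorem AO_x_mul (a : Fin 2) (p : Sy k) : AO k (X (Sum.inl a) * p) = AO k p * xo k a := by
  have h := lin_ext (f := AO k ∘ₗ LinearMap.mulLeft k (X (Sum.inl a)))
    (g := LinearMap.mulRight k (xo k a) ∘ₗ AO k) (fun m => by
      rw [LinearMap.comp_apply, LinearMap.comp_apply, LinearMap.mulLeft_apply,
        LinearMap.mulRight_apply, X_mul_monomial, AO_monomial, AO_monomial, xm_inl, pm_inl,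
        mul_assoc, xo_xm]) p
  rw [LinearMap.comp_apply, LinearMap.comp_apply, LinearMap.mulLeft_apply,
    LinearMap.mulRight_apply] at h
  exact h

theorem NO_one : NO k 1 = 1 := by
  have h := NO_monomial (k := k) 0
  rw [← C_apply, C_1] at h
  rw [h]
  unfold xm pm
  simp

theorem AO_one : AO k 1 = 1 := by
  have h := AO_monomial (k := k) 0
  rw [← C_apply, C_1] at h
  rw [h]
  unfold xm pm
  simp

theorem NO_C (c : k) : NO k (C c) = c • 1 := by
  rw [← mul_one (C c), ← smul_eq_C_mul, map_smul, NO_one]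

theorem AO_C (c : k) : AO k (C c) = c • 1 := by
  rw [← mul_one (C c), ← smul_eq_C_mul, map_smul, AO_one]

theorem xo_mul_po (a b : Fin 2) :
    xo k b * po k a = po k a * xo k b - if a = b then 1 else 0 := by
  rw [po_mul_xo, add_sub_cancel_right]

private theorem pd_ll (a b : Fin 2) : pderiv (Sum.inl a) (X (Sum.inl b) : Sy k) =
    if a = b then 1 else 0 := by
  rw [pderiv_X]
  by_cases h : a = b
  · subst h; simp
  · rw [if_neg h, Pi.single_eq_of_ne (fun h2 => h (Sum.inl.inj h2).symm)]

private theorem pd_rr (a b : Fin 2) : pderiv (Sum.inr a) (X (Sum.inr b) : Sy k) =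
    if a = b then 1 else 0 := by
  rw [pderiv_X]
  by_cases h : a = b
  · subst h; simp
  · rw [if_neg h, Pi.single_eq_of_ne (fun h2 => h (Sum.inr.inj h2).symm)]

private theorem pd_lr (a b : Fin 2) : pderiv (Sum.inl a) (X (Sum.inr b) : Sy k) = 0 := by
  rw [pderiv_X, Pi.single_eq_of_ne (by simp)]

private theorem pd_rl (a b : Fin 2) : pderiv (Sum.inr a) (X (Sum.inl b) : Sy k) = 0 := by
  rw [pderiv_X, Pi.single_eq_of_ne (by simp)]

private theorem ite_op (P : Prop) [Decidable P] (T : Wo k) :
    (if P then (1 : Wo k) else 0) * T = if P then T else 0 := by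
  split_ifs
  · rw [one_mul]
  · rw [zero_mul]

private theorem op_ite (P : Prop) [Decidable P] (T : Wo k) :
    T * (if P then (1 : Wo k) else 0) = if P then T else 0 := by
  split_ifs
  · rw [mul_one]
  · rw [mul_zero]

private theorem F_ite (F : Sy k →ₗ[k] Wo k) (P : Prop) [Decidable P] (p : Sy k) :
    F (p * if P then 1 else 0) = if P then F p else 0 := by
  split_ifs
  · rw [mul_one]
  · rw [mul_zero, map_zero]

theorem NO_mul_xo (a : Fin 2) (p : Sy k) :
    NO k p * xo k a = NO k (X (Sum.inl a) * p + pderiv (Sum.inr a) p) := by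
  induction p using MvPolynomial.induction_on with
  | C c =>
    rw [pderiv_C, add_zero, NO_x_mul, NO_C, mul_smul_comm, smul_mul_assoc, one_mul, mul_one]
  | add p q hp hq =>
    rw [map_add (NO k) p q, add_mul, hp, hq, ← map_add (NO k), map_add (pderiv _) p q]
    congr 1
    ring
  | mul_X p i hp =>
    rw [mul_comm p (X i), pderiv_mul]
    rcases i with b | b
    · rw [NO_x_mul, mul_assoc, hp, ← NO_x_mul, pd_rl, zero_mul, zero_add]
      congr 1
      ring
    · rw [NO_xi_mul, mul_assoc, po_mul_xo, mul_add, ← mul_assoc, hp, ← NO_xi_mul, pd_rr, op_ite,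
        mul_comm (ite _ _ _) p]
      have h1 : (X (Sum.inl a) * (X (Sum.inr b) * p) + (p * (if a = b then 1 else 0) +
          X (Sum.inr b) * (pderiv (Sum.inr a)) p) : Sy k) =
          X (Sum.inr b) * (X (Sum.inl a) * p + (pderiv (Sum.inr a)) p) +
            p * (if a = b then 1 else 0) := by ring
      rw [h1, map_add (NO k) (X (Sum.inr b) * _), F_ite]
      congr 1
      by_cases hab : a = b
      · rw [if_pos hab, if_pos hab.symm]
      · rw [if_neg hab, if_neg (fun h => hab h.symm)]

theorem po_mul_NO (a : Fin 2) (p : Sy k) :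
    po k a * NO k p = NO k (X (Sum.inr a) * p + pderiv (Sum.inl a) p) := by
  induction p using MvPolynomial.induction_on with
  | C c =>
    rw [pderiv_C, add_zero, NO_xi_mul, NO_C, mul_smul_comm, smul_mul_assoc, one_mul, mul_one]
  | add p q hp hq =>
    rw [map_add (NO k) p q, mul_add, hp, hq, ← map_add (NO k), map_add (pderiv _) p q]
    congr 1
    ring
  | mul_X p i hp =>
    rw [mul_comm p (X i), pderiv_mul]
    rcases i with b | b
    · rw [NO_x_mul, ← mul_assoc, po_mul_xo, add_mul, mul_assoc, hp, ← NO_x_mul, pd_ll, ite_op,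
        mul_comm (ite _ _ _) p]
      have h1 : (X (Sum.inr a) * (X (Sum.inl b) * p) + (p * (if a = b then 1 else 0) +
          X (Sum.inl b) * (pderiv (Sum.inl a)) p) : Sy k) =
          X (Sum.inl b) * (X (Sum.inr a) * p + (pderiv (Sum.inl a)) p) +
            p * (if a = b then 1 else 0) := by ring
      rw [h1, map_add (NO k) (X (Sum.inl b) * _), F_ite]
    · rw [NO_xi_mul, ← mul_assoc, hp, ← NO_xi_mul, pd_lr, zero_mul, zero_add]
      congr 1
      ring

theorem AO_mul_po (a : Fin 2) (p : Sy k) :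
    AO k p * po k a = AO k (X (Sum.inr a) * p - pderiv (Sum.inl a) p) := by
  induction p using MvPolynomial.induction_on with
  | C c =>
    rw [pderiv_C, sub_zero, AO_xi_mul, AO_C, mul_smul_comm, smul_mul_assoc, one_mul, mul_one]
  | add p q hp hq =>
    rw [map_add (AO k) p q, add_mul, hp, hq, ← map_add (AO k), map_add (pderiv _) p q]
    congr 1
    ring
  | mul_X p i hp =>
    rw [mul_comm p (X i), pderiv_mul]
    rcases i with b | b
    · rw [AO_x_mul, mul_assoc, xo_mul_po, mul_sub, ← mul_assoc, hp, ← AO_x_mul, pd_ll, op_ite,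
        mul_comm (ite _ _ _) p]
      have h1 : (X (Sum.inr a) * (X (Sum.inl b) * p) - (p * (if a = b then 1 else 0) +
          X (Sum.inl b) * (pderiv (Sum.inl a)) p) : Sy k) =
          X (Sum.inl b) * (X (Sum.inr a) * p - (pderiv (Sum.inl a)) p) -
            p * (if a = b then 1 else 0) := by ring
      rw [h1, map_sub (AO k) (X (Sum.inl b) * _), F_ite]
    · rw [AO_xi_mul, mul_assoc, hp, ← AO_xi_mul, pd_lr, zero_mul, zero_add]
      congr 1
      ring

theorem xo_mul_AO (a : Fin 2) (p : Sy k) :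
    xo k a * AO k p = AO k (X (Sum.inl a) * p - pderiv (Sum.inr a) p) := by
  induction p using MvPolynomial.induction_on with
  | C c =>
    rw [pderiv_C, sub_zero, AO_x_mul, AO_C, mul_smul_comm, smul_mul_assoc, one_mul, mul_one]
  | add p q hp hq =>
    rw [map_add (AO k) p q, mul_add, hp, hq, ← map_add (AO k), map_add (pderiv _) p q]
    congr 1
    ring
  | mul_X p i hp =>
    rw [mul_comm p (X i), pderiv_mul]
    rcases i with b | b
    · rw [AO_x_mul, ← mul_assoc, hp, ← AO_x_mul, pd_rl, zero_mul, zero_add]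
      congr 1
      ring
    · rw [AO_xi_mul, ← mul_assoc, xo_mul_po, sub_mul, mul_assoc, hp, ← AO_xi_mul, pd_rr, ite_op,
        mul_comm (ite _ _ _) p]
      have h1 : (X (Sum.inl a) * (X (Sum.inr b) * p) - (p * (if a = b then 1 else 0) +
          X (Sum.inr b) * (pderiv (Sum.inr a)) p) : Sy k) =
          X (Sum.inr b) * (X (Sum.inl a) * p - (pderiv (Sum.inr a)) p) -
            p * (if a = b then 1 else 0) := by ring
      rw [h1, map_sub (AO k) (X (Sum.inr b) * _), F_ite]
      congr 1
      by_cases hab : a = b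
      · rw [if_pos hab, if_pos hab.symm]
      · rw [if_neg hab, if_neg (fun h => hab h.symm)]

/-- coefficients of a partial derivative -/
theorem coeff_pd (i : Fin 2 ⊕ Fin 2) (p : Sy k) (t : Fin 2 ⊕ Fin 2 →₀ ℕ) :
    coeff t (pderiv i p) = (t i + 1) * coeff (t + Finsupp.single i 1) p := by
  classical
  induction p using MvPolynomial.induction_on' with
  | monomial s a =>
    rw [pderiv_monomial, coeff_monomial, coeff_monomial]
    by_cases h : s = t + Finsupp.single i 1
    · subst h
      rw [if_pos (by simp), if_pos rfl, Finsupp.add_apply, Finsupp.single_eq_same]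
      push_cast
      ring
    · rw [if_neg h, mul_zero]
      by_cases h2 : s - Finsupp.single i 1 = t
      · rw [if_pos h2]
        have h3 : s i = 0 := by
          by_contra h4
          apply h
          rw [← h2]
          ext j
          rw [Finsupp.add_apply, Finsupp.tsub_apply]
          by_cases hj : i = j
          · subst hj
            rw [Finsupp.single_eq_same]
            omega
          · rw [Finsupp.single_eq_of_ne (fun h => hj h.symm)]
            omega
        rw [h3, Nat.cast_zero, mul_zero]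
      · rw [if_neg h2]
  | add p q hp hq =>
    rw [map_add, coeff_add, hp, hq, coeff_add]
    ring

private theorem inj_aux [CharZero k] (F : Sy k →ₗ[k] Wo k) (h1 : ∀ c : k, F (C c) = c • 1)
    (h2 : ∀ i p, F p = 0 → F (pderiv i p) = 0) : Function.Injective F := by
  have key : ∀ n : ℕ, ∀ p : Sy k, (∀ m ∈ p.support, m.degree ≤ n) → F p = 0 → p = 0 := by
    intro n
    induction n with
    | zero =>
      intro p hp hF
      have h3 : p = C (coeff 0 p) := by
        ext m
        rw [coeff_C]
        split_ifs with hm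
        · rw [hm]
        · by_contra h4
          have h5 := hp m (mem_support_iff.2 h4)
          have h6 : m = 0 := by
            have h7 : m.degree = 0 := by omega
            rwa [Finsupp.degree_eq_zero_iff] at h7
          exact hm h6.symm
      rw [h3] at hF ⊢
      rw [h1] at hF
      have h8 : coeff 0 p = 0 := by
        by_contra h9
        have h10 := congrArg (fun T : Wo k => T 1) hF
        simp only [LinearMap.smul_apply, Module.End.one_apply, LinearMap.zero_apply] at h10
        rcases smul_eq_zero.1 h10 with h11 | h11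
        · exact h9 h11
        · exact one_ne_zero h11
      rw [h8, C_0]
    | succ n ih =>
      intro p hp hF
      have hd : ∀ i, pderiv i p = 0 := by
        intro i
        refine ih _ (fun t ht => ?_) (h2 i p hF)
        rw [mem_support_iff, coeff_pd] at ht
        have h3 : t + Finsupp.single i 1 ∈ p.support := by
          rw [mem_support_iff]
          intro h4
          rw [h4, mul_zero] at ht
          exact ht rfl
        have h4 := hp _ h3
        rw [map_add, Finsupp.degree_single] at h4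
        omega
      have hz : ∀ m ∈ p.support, m.degree ≤ 0 := by
        intro m hm
        by_contra hne
        have h3 : m ≠ 0 := by
          rintro rfl
          simp at hne
        obtain ⟨i, hi⟩ : ∃ i, m i ≠ 0 := by
          by_contra hcon
          push Not at hcon
          exact h3 (Finsupp.ext hcon)
        have h4 := coeff_pd i p (m - Finsupp.single i 1)
        rw [hd i, coeff_zero] at h4
        have h5 : m - Finsupp.single i 1 + Finsupp.single i 1 = m := by
          ext j
          rw [Finsupp.add_apply, Finsupp.tsub_apply]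
          by_cases hj : i = j
          · subst hj
            rw [Finsupp.single_eq_same]
            omega
          · rw [Finsupp.single_eq_of_ne (fun h => hj h.symm)]
            omega
        rw [h5] at h4
        rcases mul_eq_zero.1 h4.symm with h6 | h6
        · have h7 : ((((m - Finsupp.single i 1 : Fin 2 ⊕ Fin 2 →₀ ℕ) i + 1 : ℕ)) : k) = 0 := by
            exact_mod_cast h6
          exact absurd (Nat.cast_eq_zero.1 h7) (by omega)
        · exact (mem_support_iff.1 hm) h6
      exact ih p (fun m hm => (hz m hm).trans (Nat.zero_le _)) hF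
  intro p q hpq
  have h3 : F (p - q) = 0 := by rw [map_sub, hpq, sub_self]
  have h4 := key ((p - q).support.sup Finsupp.degree) (p - q)
    (fun m hm => Finset.le_sup (f := Finsupp.degree) hm) h3
  exact sub_eq_zero.1 h4

theorem NO_injective [CharZero k] : Function.Injective (NO k) := by
  refine inj_aux (NO k) NO_C (fun i p hp => ?_)
  rcases i with a | a
  · have h := po_mul_NO a p
    rw [hp, mul_zero, map_add, NO_xi_mul, hp, zero_mul, zero_add] at h
    exact h.symm
  · have h := NO_mul_xo a p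
    rw [hp, zero_mul, map_add, NO_x_mul, hp, mul_zero, zero_add] at h
    exact h.symm

theorem AO_injective [CharZero k] : Function.Injective (AO k) := by
  refine inj_aux (AO k) AO_C (fun i p hp => ?_)
  rcases i with a | a
  · have h := AO_mul_po a p
    rw [hp, zero_mul, map_sub, AO_xi_mul, hp, mul_zero, zero_sub] at h
    exact neg_eq_zero.1 h.symm
  · have h := xo_mul_AO a p
    rw [hp, mul_zero, map_sub, AO_x_mul, hp, zero_mul, zero_sub] at h
    exact neg_eq_zero.1 h.symm

theorem mem_FS {w d : ℤ} {p : Sy k} :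
    p ∈ FS k w d ↔ ∀ m ∈ p.support, wtm m = w ∧ odm m ≤ d := Iff.rfl

theorem FS_mono {w d d' : ℤ} (h : d ≤ d') : FS k w d ≤ FS k w d' :=
  fun _ hp m hm => ⟨(hp m hm).1, (hp m hm).2.trans h⟩

private theorem wt_inl (a : Fin 2) (m : Fin 2 ⊕ Fin 2 →₀ ℕ) :
    wtm (Finsupp.single (Sum.inl a) 1 + m) = wtm m + 1 := by
  unfold wtm
  simp only [Finsupp.add_apply]
  fin_cases a <;> simp <;> ring

private theorem wt_inr (a : Fin 2) (m : Fin 2 ⊕ Fin 2 →₀ ℕ) :
    wtm (Finsupp.single (Sum.inr a) 1 + m) = wtm m - 1 := by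
  unfold wtm
  simp only [Finsupp.add_apply]
  fin_cases a <;> simp <;> ring

private theorem od_inl (a : Fin 2) (m : Fin 2 ⊕ Fin 2 →₀ ℕ) :
    odm (Finsupp.single (Sum.inl a) 1 + m) = odm m := by
  unfold odm
  simp only [Finsupp.add_apply]
  fin_cases a <;> simp

private theorem od_inr (a : Fin 2) (m : Fin 2 ⊕ Fin 2 →₀ ℕ) :
    odm (Finsupp.single (Sum.inr a) 1 + m) = odm m + 1 := by
  unfold odm
  simp only [Finsupp.add_apply]
  fin_cases a <;> simp <;> ring

theorem FS_x_mul {w d : ℤ} (a : Fin 2) {p : Sy k} (hp : p ∈ FS k w d) :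
    X (Sum.inl a) * p ∈ FS k (w + 1) d := by
  intro m hm
  rw [support_X_mul, Finset.mem_map] at hm
  obtain ⟨t, ht, rfl⟩ := hm
  rw [addLeftEmbedding_apply, wt_inl, od_inl, (hp t ht).1]
  exact ⟨rfl, (hp t ht).2⟩

theorem FS_xi_mul {w d : ℤ} (a : Fin 2) {p : Sy k} (hp : p ∈ FS k w d) :
    X (Sum.inr a) * p ∈ FS k (w - 1) (d + 1) := by
  intro m hm
  rw [support_X_mul, Finset.mem_map] at hm
  obtain ⟨t, ht, rfl⟩ := hm
  rw [addLeftEmbedding_apply, wt_inr, od_inr, (hp t ht).1]
  exact ⟨rfl, by linarith [(hp t ht).2]⟩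

private theorem mem_support_pd {i : Fin 2 ⊕ Fin 2} {p : Sy k} {t : Fin 2 ⊕ Fin 2 →₀ ℕ}
    (ht : t ∈ (pderiv i p).support) : Finsupp.single i 1 + t ∈ p.support := by
  rw [mem_support_iff, coeff_pd, add_comm t] at ht
  rw [mem_support_iff]
  intro h
  rw [h, mul_zero] at ht
  exact ht rfl

theorem FS_pderiv_x {w d : ℤ} (a : Fin 2) {p : Sy k} (hp : p ∈ FS k w d) :
    pderiv (Sum.inl a) p ∈ FS k (w - 1) d := by
  intro t ht
  have h := hp _ (mem_support_pd ht)
  rw [wt_inl, od_inl] at h
  exact ⟨by linarith [h.1], h.2⟩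

theorem FS_pderiv_xi {w d : ℤ} (a : Fin 2) {p : Sy k} (hp : p ∈ FS k w d) :
    pderiv (Sum.inr a) p ∈ FS k (w + 1) (d - 1) := by
  intro t ht
  have h := hp _ (mem_support_pd ht)
  rw [wt_inr, od_inr] at h
  exact ⟨by linarith [h.1], by linarith [h.2]⟩

theorem one_mem_FS : (1 : Sy k) ∈ FS k 0 0 := by
  intro m hm
  have h : m = 0 := by
    by_contra hne
    rw [mem_support_iff, coeff_one, if_neg (fun h => hne h.symm)] at hm
    exact hm rfl
  subst h
  exact ⟨by simp [wtm], by simp [odm]⟩

/-- expansion in monomials -/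
theorem NO_eq_sum (p : Sy k) : NO k p = ∑ m ∈ p.support, coeff m p • (xm m * pm m) := by
  conv_lhs => rw [p.as_sum]
  rw [map_sum]
  refine Finset.sum_congr rfl fun m _ => ?_
  rw [← NO_monomial, ← map_smul, smul_monomial, smul_eq_mul, mul_one]

theorem AO_eq_sum (p : Sy k) : AO k p = ∑ m ∈ p.support, coeff m p • (pm m * xm m) := by
  conv_lhs => rw [p.as_sum]
  rw [map_sum]
  refine Finset.sum_congr rfl fun m _ => ?_
  rw [← AO_monomial, ← map_smul, smul_monomial, smul_eq_mul, mul_one]

private theorem mon_mem_Dg (m : Fin 2 ⊕ Fin 2 →₀ ℕ) {d : ℤ} (h : odm m ≤ d) :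
    xm m * pm m ∈ Dg k (wtm m) d :=
  Submodule.subset_span ⟨_, _, _, _, rfl, h, rfl⟩

theorem Dg_eq_NO (w d : ℤ) : Dg k w d = (FS k w d).map (NO k) := by
  classical
  apply le_antisymm
  · refine Submodule.span_le.2 ?_
    rintro T ⟨a₀, a₁, b₀, b₁, hw, hd, rfl⟩
    let m : Fin 2 ⊕ Fin 2 →₀ ℕ := Finsupp.equivFunOnFinite.symm
      (Sum.elim ![a₀, a₁] ![b₀, b₁])
    refine ⟨monomial m 1, ?_, ?_⟩
    · intro t ht
      have h1 : t = m := by
        by_contra hne
        rw [mem_support_iff, coeff_monomial, if_neg (fun h => hne h.symm)] at ht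
        exact ht rfl
      subst h1
      exact ⟨hw, hd⟩
    · rw [NO_monomial]
      rfl
  · rintro T ⟨p, hp, rfl⟩
    rw [NO_eq_sum]
    refine Submodule.sum_mem _ fun m hm => Submodule.smul_mem _ _ ?_
    have h := hp m hm
    have h2 := mon_mem_Dg (k := k) m h.2
    rwa [h.1] at h2

private theorem one_mem_Dg' : (1 : Wo k) ∈ Dg k 0 0 := by
  rw [Dg_eq_NO]
  exact ⟨1, one_mem_FS, NO_one⟩

theorem xo_mul_mem_Dg {w d : ℤ} (a : Fin 2) {T : Wo k} (hT : T ∈ Dg k w d) :
    xo k a * T ∈ Dg k (w + 1) d := by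
  rw [Dg_eq_NO] at hT ⊢
  obtain ⟨p, hp, rfl⟩ := hT
  exact ⟨_, FS_x_mul a hp, NO_x_mul a p⟩

theorem po_mul_mem_Dg {w d : ℤ} (a : Fin 2) {T : Wo k} (hT : T ∈ Dg k w d) :
    po k a * T ∈ Dg k (w - 1) (d + 1) := by
  rw [Dg_eq_NO] at hT ⊢
  obtain ⟨p, hp, rfl⟩ := hT
  exact ⟨_, Submodule.add_mem _ (FS_xi_mul a hp) (FS_mono (by linarith) (FS_pderiv_x a hp)),
    (po_mul_NO a p).symm⟩

private theorem xo_pow_mem (a : Fin 2) (n : ℕ) {w d : ℤ} {T : Wo k} (hT : T ∈ Dg k w d) :
    xo k a ^ n * T ∈ Dg k (w + n) d := by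
  induction n with
  | zero => simpa using hT
  | succ n ih =>
    rw [pow_succ', mul_assoc]
    have h := xo_mul_mem_Dg a ih
    rwa [show w + (n : ℤ) + 1 = w + ((n + 1 : ℕ) : ℤ) by push_cast; ring] at h

private theorem po_pow_mem (a : Fin 2) (n : ℕ) {w d : ℤ} {T : Wo k} (hT : T ∈ Dg k w d) :
    po k a ^ n * T ∈ Dg k (w - n) (d + n) := by
  induction n with
  | zero => simpa using hT
  | succ n ih =>
    rw [pow_succ', mul_assoc]
    have h := po_mul_mem_Dg a ih
    rwa [show w - (n : ℤ) - 1 = w - ((n + 1 : ℕ) : ℤ) by push_cast; ring,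
      show d + (n : ℤ) + 1 = d + ((n + 1 : ℕ) : ℤ) by push_cast; ring] at h

theorem Dg_eq_AO (w d : ℤ) : Dg k w d = (FS k w d).map (AO k) := by
  classical
  have hx : ∀ {w d : ℤ} (a : Fin 2) {T : Wo k}, T ∈ (FS k w d).map (AO k) →
      xo k a * T ∈ (FS k (w + 1) d).map (AO k) := by
    rintro w d a T ⟨p, hp, rfl⟩
    exact ⟨_, Submodule.sub_mem _ (FS_x_mul a hp)
      (FS_mono (by linarith) (FS_pderiv_xi a hp)), (xo_mul_AO a p).symm⟩
  have hp : ∀ {w d : ℤ} (a : Fin 2) {T : Wo k}, T ∈ (FS k w d).map (AO k) →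
      po k a * T ∈ (FS k (w - 1) (d + 1)).map (AO k) := by
    rintro w d a T ⟨p, hp, rfl⟩
    exact ⟨_, FS_xi_mul a hp, AO_xi_mul a p⟩
  have hxn : ∀ (a : Fin 2) (n : ℕ) {w d : ℤ} {T : Wo k}, T ∈ (FS k w d).map (AO k) →
      xo k a ^ n * T ∈ (FS k (w + n) d).map (AO k) := by
    intro a n w d T hT
    induction n with
    | zero => simpa using hT
    | succ n ih =>
      rw [pow_succ', mul_assoc]
      have h := hx a ih
      rwa [show w + (n : ℤ) + 1 = w + ((n + 1 : ℕ) : ℤ) by push_cast; ring] at h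
  have hpn : ∀ (a : Fin 2) (n : ℕ) {w d : ℤ} {T : Wo k}, T ∈ (FS k w d).map (AO k) →
      po k a ^ n * T ∈ (FS k (w - n) (d + n)).map (AO k) := by
    intro a n w d T hT
    induction n with
    | zero => simpa using hT
    | succ n ih =>
      rw [pow_succ', mul_assoc]
      have h := hp a ih
      rwa [show w - (n : ℤ) - 1 = w - ((n + 1 : ℕ) : ℤ) by push_cast; ring,
        show d + (n : ℤ) + 1 = d + ((n + 1 : ℕ) : ℤ) by push_cast; ring] at h
  apply le_antisymm
  · refine Submodule.span_le.2 ?_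
    rintro T ⟨a₀, a₁, b₀, b₁, hw, hd, rfl⟩
    have h0 : (1 : Wo k) ∈ (FS k 0 0).map (AO k) := ⟨1, one_mem_FS, AO_one⟩
    have h1 := hxn 0 a₀ (hxn 1 a₁ (hpn 0 b₀ (hpn 1 b₁ h0)))
    rw [mul_one, ← mul_assoc] at h1
    refine Submodule.map_mono (FS_mono (d := 0 + (b₁ : ℤ) + b₀) (by linarith)) ?_
    rwa [show (0 : ℤ) - b₁ - b₀ + a₁ + a₀ = w by linarith] at h1
  · rintro T ⟨p, hp, rfl⟩
    rw [AO_eq_sum]
    refine Submodule.sum_mem _ fun m hm => Submodule.smul_mem _ _ ?_
    have h := hp m hm
    have h1 := po_pow_mem 0 (m (Sum.inr 0)) (po_pow_mem 1 (m (Sum.inr 1))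
      (xo_pow_mem 0 (m (Sum.inl 0)) (xo_pow_mem 1 (m (Sum.inl 1)) (one_mem_Dg' (k := k)))))
    have h2 : Dg k w (0 + (m (Sum.inr 1) : ℤ) + (m (Sum.inr 0) : ℤ)) ≤ Dg k w d := by
      rw [Dg_eq_NO, Dg_eq_NO]
      refine Submodule.map_mono (FS_mono ?_)
      have h3 := h.2
      unfold odm at h3
      linarith
    refine h2 ?_
    have h4 : (0 : ℤ) + (m (Sum.inl 1) : ℤ) + (m (Sum.inl 0) : ℤ) - (m (Sum.inr 1) : ℤ) -
        (m (Sum.inr 0) : ℤ) = w := by
      have h5 := h.1
      unfold wtm at h5
      linarith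
    rw [h4, mul_one] at h1
    unfold pm xm
    rwa [mul_assoc]

end P195A
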