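import Mathlib

/-!
# P195A: operators on `k[x_0, x_1]`, symbols, filtered pieces of the Weyl algebra
-/

namespace P195A

open MvPolynomial

variable (k : Type) [Field k]

/-- polynomials in `x_0, x_1` -/
abbrev Rx := MvPolynomial (Fin 2) k

/-- operators on polynomials -/
abbrev Wo := Module.End k (Rx k)

/-- symbols: `inl a` is `x_a`, `inr a` is `ξ_a` -/
abbrev Sy := MvPolynomial (Fin 2 ⊕ Fin 2) k

/-- multiplication by `x_a` -/
noncomputable def xo (a : Fin 2) : Wo k := LinearMap.mulLeft k (X a)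

/-- the derivative `∂_a` -/
noncomputable def po (a : Fin 2) : Wo k := (pderiv (R := k) a).toLinearMap

variable {k}

/-- `x^m` -/
noncomputable def xm (m : Fin 2 ⊕ Fin 2 →₀ ℕ) : Wo k :=
  xo k 0 ^ m (Sum.inl 0) * xo k 1 ^ m (Sum.inl 1)

/-- `∂^m` -/
noncomputable def pm (m : Fin 2 ⊕ Fin 2 →₀ ℕ) : Wo k :=
  po k 0 ^ m (Sum.inr 0) * po k 1 ^ m (Sum.inr 1)

/-- weight of a monomial -/
def wtm (m : Fin 2 ⊕ Fin 2 →₀ ℕ) : ℤ :=
  (m (Sum.inl 0) : ℤ) + m (Sum.inl 1) - m (Sum.inr 0) - m (Sum.inr 1)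

/-- order of a monomial -/
def odm (m : Fin 2 ⊕ Fin 2 →₀ ℕ) : ℤ := (m (Sum.inr 0) : ℤ) + m (Sum.inr 1)

variable (k)

/-- normal ordering: `x^a ξ^b ↦ x^a ∂^b` -/
noncomputable def NO : Sy k →ₗ[k] Wo k := (basisMonomials (Fin 2 ⊕ Fin 2) k).constr k
  (fun m => xm m * pm m)

/-- antinormal ordering: `x^a ξ^b ↦ ∂^b x^a` -/
noncomputable def AO : Sy k →ₗ[k] Wo k := (basisMonomials (Fin 2 ⊕ Fin 2) k).constr k
  (fun m => pm m * xm m)

/-- symbols of weight `w` and order `≤ d` -/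
noncomputable def FS (w d : ℤ) : Submodule k (Sy k) where
  carrier := {p | ∀ m ∈ p.support, wtm m = w ∧ odm m ≤ d}
  zero_mem' := by simp
  add_mem' := by
    classical
    intro p q hp hq m hm
    rcases Finset.mem_union.1 (MvPolynomial.support_add hm) with h | h
    · exact hp m h
    · exact hq m h
  smul_mem' := by
    intro c p hp m hm
    exact hp m (MvPolynomial.support_smul hm)

/-- operators of Euler weight `w` and order `≤ d`: the span of the `x^a ∂^b` with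
`|a| - |b| = w`, `|b| ≤ d` -/
noncomputable def Dg (w d : ℤ) : Submodule k (Wo k) :=
  Submodule.span k {T | ∃ a₀ a₁ b₀ b₁ : ℕ, (a₀ : ℤ) + a₁ - b₀ - b₁ = w ∧ (b₀ : ℤ) + b₁ ≤ d ∧
    T = xo k 0 ^ a₀ * xo k 1 ^ a₁ * (po k 0 ^ b₀ * po k 1 ^ b₁)}

end P195A
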