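import Vale.Agent.P195A.PPx

/-!
# P195A: homogeneous polynomials with coefficients in an arbitrary subspace
-/

namespace P195A

variable {k U T : Type} [Field k] [AddCommGroup U] [Module k U] [AddCommGroup T] [Module k T]

/-- homogeneous polynomials of degree `m` in `y_0, y_1` with coefficients in `Q` -/
noncomputable def VVf (Q : Submodule k U) (m : ℤ) : Submodule k (Vy U) :=
  Submodule.span k {v | ∃ i j : ℕ, ∃ u ∈ Q, (i : ℤ) + j = m ∧ v = Finsupp.single (i, j) u}

theorem VV_eq_VVf (S : RS k U T) (m w d : ℤ) : S.VV m w d = VVf (S.W w d) m := rfl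

theorem VVf_single {Q : Submodule k U} {m : ℤ} {i j : ℕ} {u : U} (hu : u ∈ Q)
    (h : (i : ℤ) + j = m) : Finsupp.single (i, j) u ∈ VVf Q m :=
  Submodule.subset_span ⟨i, j, u, hu, h, rfl⟩

theorem VVf_map {Q : Submodule k U} {m : ℤ} {N : Type} [AddCommGroup N] [Module k N]
    {P : Submodule k N} (f : Vy U →ₗ[k] N)
    (hf : ∀ (i j : ℕ) (u : U), u ∈ Q → (i : ℤ) + j = m → f (Finsupp.single (i, j) u) ∈ P)
    {v : Vy U} (hv : v ∈ VVf Q m) : f v ∈ P := by
  have h : VVf Q m ≤ P.comap f := by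
    refine Submodule.span_le.2 ?_
    rintro _ ⟨i, j, u, hu, h, rfl⟩
    exact hf i j u hu h
  exact h hv

theorem mem_VVf_iff {Q : Submodule k U} {m : ℤ} {v : Vy U} : v ∈ VVf Q m ↔
    ∀ i j : ℕ, v (i, j) ∈ Q ∧ ((i : ℤ) + j ≠ m → v (i, j) = 0) := by
  constructor
  · intro hv i j
    constructor
    · exact VVf_map (P := Q) (Finsupp.lapply (i, j)) (fun i' j' u hu h => by
        rw [Finsupp.lapply_apply, Finsupp.single_apply]
        split_ifs
        · exact hu
        · exact Submodule.zero_mem _) hv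
    · intro hne
      exact VVf_map (P := (⊥ : Submodule k U)) (Finsupp.lapply (i, j)) (fun i' j' u hu h => by
        rw [Finsupp.lapply_apply, Finsupp.single_apply, if_neg]
        · exact Submodule.zero_mem _
        · intro he
          rw [Prod.mk.injEq] at he
          rw [he.1, he.2] at h
          exact hne h) hv
  · intro h
    rw [← Finsupp.sum_single v]
    refine Submodule.sum_mem _ fun p hp => ?_
    obtain ⟨i, j⟩ := p
    refine VVf_single (h i j).1 ?_
    by_contra hne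
    exact (Finsupp.mem_support_iff.1 hp) ((h i j).2 hne)

theorem VVf_mono {Q Q' : Submodule k U} (h : Q ≤ Q') {m : ℤ} {v : Vy U} (hv : v ∈ VVf Q m) :
    v ∈ VVf Q' m :=
  VVf_map (LinearMap.id) (fun _ _ _ hu hij => VVf_single (h hu) hij) hv

theorem VVf_neg {Q : Submodule k U} {m : ℤ} (hm : m < 0) {v : Vy U} (hv : v ∈ VVf Q m) :
    v = 0 := by
  have h : LinearMap.id (R := k) v ∈ (⊥ : Submodule k (Vy U)) :=
    VVf_map (LinearMap.id) (fun i j u _ hij => by exfalso; omega) hv
  exact h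

theorem VVf_y0 {Q : Submodule k U} {m : ℤ} {v : Vy U} (hv : v ∈ VVf Q m) :
    y0 k U v ∈ VVf Q (m + 1) :=
  VVf_map _ (fun i j u hu hij => by
    rw [y0_single]
    exact VVf_single hu (by push_cast; omega)) hv

theorem VVf_y1 {Q : Submodule k U} {m : ℤ} {v : Vy U} (hv : v ∈ VVf Q m) :
    y1 k U v ∈ VVf Q (m + 1) :=
  VVf_map _ (fun i j u hu hij => by
    rw [y1_single]
    exact VVf_single hu (by push_cast; omega)) hv

theorem VVf_q0 {Q : Submodule k U} {m : ℤ} {v : Vy U} (hv : v ∈ VVf Q m) :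
    q0 k U v ∈ VVf Q (m - 1) :=
  VVf_map _ (fun i j u hu hij => by
    rw [q0_single]
    cases i with
    | zero => simp
    | succ i =>
      refine Submodule.smul_mem _ _ (VVf_single hu ?_)
      push_cast at hij
      simp only [Nat.add_sub_cancel]
      omega) hv

theorem VVf_q1 {Q : Submodule k U} {m : ℤ} {v : Vy U} (hv : v ∈ VVf Q m) :
    q1 k U v ∈ VVf Q (m - 1) :=
  VVf_map _ (fun i j u hu hij => by
    rw [q1_single]
    cases j with
    | zero => simp
    | succ j =>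
      refine Submodule.smul_mem _ _ (VVf_single hu ?_)
      push_cast at hij
      simp only [Nat.add_sub_cancel]
      omega) hv

theorem VVf_lf {Q Q' : Submodule k U} {m : ℤ} {L : U →ₗ[k] U} (hL : ∀ u ∈ Q, L u ∈ Q')
    {v : Vy U} (hv : v ∈ VVf Q m) : lf L v ∈ VVf Q' m :=
  VVf_map _ (fun i j u hu hij => by
    rw [lf_single]
    exact VVf_single (hL u hu) hij) hv

theorem VVf_euler {Q : Submodule k U} {m : ℤ} {v : Vy U} (hv : v ∈ VVf Q m) :
    y0 k U (q0 k U v) + y1 k U (q1 k U v) = (m : k) • v := by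
  have h : (y0 k U ∘ₗ q0 k U + y1 k U ∘ₗ q1 k U - (m : k) • LinearMap.id :
      Vy U →ₗ[k] Vy U) v ∈ (⊥ : Submodule k (Vy U)) := by
    refine VVf_map _ (fun i j u hu hij => ?_) hv
    rw [Submodule.mem_bot]
    simp only [LinearMap.sub_apply, LinearMap.add_apply, LinearMap.comp_apply,
      LinearMap.smul_apply, LinearMap.id_apply, q0_single, q1_single, map_smul, y0_single,
      y1_single]
    have h0 : (i : k) • (Finsupp.single (i - 1 + 1, j) u : Vy U) =
        (i : k) • Finsupp.single (i, j) u := by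
      cases i with
      | zero => simp
      | succ i => rfl
    have h1 : (j : k) • (Finsupp.single (i, j - 1 + 1) u : Vy U) =
        (j : k) • Finsupp.single (i, j) u := by
      cases j with
      | zero => simp
      | succ j => rfl
    rw [h0, h1, ← add_smul, ← sub_smul]
    have h2 : (m : k) = (i : k) + j := by
      rw [← hij]
      push_cast
      rfl
    rw [h2, sub_self, zero_smul]
  rw [Submodule.mem_bot] at h
  exact sub_eq_zero.1 h

/-- splitting of coefficients -/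
theorem VVf_gen {Q Q₀ Q₁ Q₂ : Submodule k U} {L M : U →ₗ[k] U}
    (h : ∀ u ∈ Q, ∃ a ∈ Q₀, ∃ b ∈ Q₁, ∃ c ∈ Q₂, u = L a + M b + c) {m : ℤ} {v : Vy U}
    (hv : v ∈ VVf Q m) : ∃ a ∈ VVf Q₀ m, ∃ b ∈ VVf Q₁ m, ∃ c ∈ VVf Q₂ m,
      v = lf L a + lf M b + c := by
  refine Submodule.span_induction (p := fun v _ => ∃ a ∈ VVf Q₀ m, ∃ b ∈ VVf Q₁ m,
    ∃ c ∈ VVf Q₂ m, v = lf L a + lf M b + c) ?_ ?_ ?_ ?_ hv
  · rintro _ ⟨i, j, u, hu, hij, rfl⟩
    obtain ⟨a, ha, b, hb, c, hc, rfl⟩ := h u hu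
    refine ⟨_, VVf_single ha hij, _, VVf_single hb hij, _, VVf_single hc hij, ?_⟩
    rw [lf_single, lf_single, Finsupp.single_add, Finsupp.single_add]
  · exact ⟨0, Submodule.zero_mem _, 0, Submodule.zero_mem _, 0, Submodule.zero_mem _, by simp⟩
  · rintro _ _ _ _ ⟨a, ha, b, hb, c, hc, rfl⟩ ⟨a', ha', b', hb', c', hc', rfl⟩
    refine ⟨a + a', Submodule.add_mem _ ha ha', b + b', Submodule.add_mem _ hb hb', c + c',
      Submodule.add_mem _ hc hc', ?_⟩
    rw [map_add, map_add]
    abel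
  · rintro e _ _ ⟨a, ha, b, hb, c, hc, rfl⟩
    refine ⟨e • a, Submodule.smul_mem _ _ ha, e • b, Submodule.smul_mem _ _ hb, e • c,
      Submodule.smul_mem _ _ hc, ?_⟩
    rw [smul_add, smul_add, map_smul, map_smul]

end P195A
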