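import Mathlib

/-!
# P195A: `U[y_0, y_1]` and its operators
-/

namespace P195A

variable {k U : Type} [Field k] [AddCommGroup U] [Module k U]

/-- polynomials in `y_0, y_1` with coefficients in `U` -/
abbrev Vy (U : Type) [AddCommGroup U] := ℕ × ℕ →₀ U

/-- a linear map applied to the coefficients -/
noncomputable def lf (L : U →ₗ[k] U) : Vy U →ₗ[k] Vy U := Finsupp.mapRange.linearMap L

variable (k U) in
/-- multiplication by `y_0` -/
noncomputable def y0 : Vy U →ₗ[k] Vy U := Finsupp.lmapDomain U k (fun p => (p.1 + 1, p.2))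

variable (k U) in
/-- multiplication by `y_1` -/
noncomputable def y1 : Vy U →ₗ[k] Vy U := Finsupp.lmapDomain U k (fun p => (p.1, p.2 + 1))

variable (k U) in
/-- derivative in `y_0` -/
noncomputable def q0 : Vy U →ₗ[k] Vy U :=
  Finsupp.lsum k (fun p => (p.1 : k) • Finsupp.lsingle (p.1 - 1, p.2))

variable (k U) in
/-- derivative in `y_1` -/
noncomputable def q1 : Vy U →ₗ[k] Vy U :=
  Finsupp.lsum k (fun p => (p.2 : k) • Finsupp.lsingle (p.1, p.2 - 1))

theorem lf_single (L : U →ₗ[k] U) (p : ℕ × ℕ) (u : U) :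
    lf L (Finsupp.single p u) = Finsupp.single p (L u) := by
  simp [lf]

theorem y0_single (i j : ℕ) (u : U) :
    y0 k U (Finsupp.single (i, j) u) = Finsupp.single (i + 1, j) u := by
  simp [y0, Finsupp.mapDomain_single]

theorem y1_single (i j : ℕ) (u : U) :
    y1 k U (Finsupp.single (i, j) u) = Finsupp.single (i, j + 1) u := by
  simp [y1, Finsupp.mapDomain_single]

theorem q0_single (i j : ℕ) (u : U) :
    q0 k U (Finsupp.single (i, j) u) = (i : k) • Finsupp.single (i - 1, j) u := by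
  simp [q0]

theorem q1_single (i j : ℕ) (u : U) :
    q1 k U (Finsupp.single (i, j) u) = (j : k) • Finsupp.single (i, j - 1) u := by
  simp [q1]

private theorem vy_ext {f g : Vy U →ₗ[k] Vy U}
    (h : ∀ i j u, f (Finsupp.single (i, j) u) = g (Finsupp.single (i, j) u)) (v : Vy U) :
    f v = g v := by
  have : f = g := Finsupp.lhom_ext fun p u => h p.1 p.2 u
  rw [this]

theorem q0_y0 (v : Vy U) : q0 k U (y0 k U v) = y0 k U (q0 k U v) + v := by
  refine vy_ext (f := q0 k U ∘ₗ y0 k U) (g := y0 k U ∘ₗ q0 k U + LinearMap.id) ?_ v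
  intro i j u
  simp only [LinearMap.comp_apply, LinearMap.add_apply, LinearMap.id_apply, y0_single, q0_single,
    map_smul]
  cases i with
  | zero => simp
  | succ i =>
    simp only [Nat.add_sub_cancel]
    rw [Nat.cast_succ (i + 1), add_smul, one_smul]

theorem q1_y1 (v : Vy U) : q1 k U (y1 k U v) = y1 k U (q1 k U v) + v := by
  refine vy_ext (f := q1 k U ∘ₗ y1 k U) (g := y1 k U ∘ₗ q1 k U + LinearMap.id) ?_ v
  intro i j u
  simp only [LinearMap.comp_apply, LinearMap.add_apply, LinearMap.id_apply, y1_single, q1_single,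
    map_smul]
  cases j with
  | zero => simp
  | succ j =>
    simp only [Nat.add_sub_cancel]
    rw [Nat.cast_succ (j + 1), add_smul, one_smul]

theorem q0_y1 (v : Vy U) : q0 k U (y1 k U v) = y1 k U (q0 k U v) := by
  refine vy_ext (f := q0 k U ∘ₗ y1 k U) (g := y1 k U ∘ₗ q0 k U) ?_ v
  intro i j u
  simp only [LinearMap.comp_apply, y1_single, q0_single, map_smul]

theorem q1_y0 (v : Vy U) : q1 k U (y0 k U v) = y0 k U (q1 k U v) := by
  refine vy_ext (f := q1 k U ∘ₗ y0 k U) (g := y0 k U ∘ₗ q1 k U) ?_ v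
  intro i j u
  simp only [LinearMap.comp_apply, y0_single, q1_single, map_smul]

theorem y0_y1 (v : Vy U) : y0 k U (y1 k U v) = y1 k U (y0 k U v) := by
  refine vy_ext (f := y0 k U ∘ₗ y1 k U) (g := y1 k U ∘ₗ y0 k U) ?_ v
  intro i j u
  simp only [LinearMap.comp_apply, y1_single, y0_single]

theorem q0_q1 (v : Vy U) : q0 k U (q1 k U v) = q1 k U (q0 k U v) := by
  refine vy_ext (f := q0 k U ∘ₗ q1 k U) (g := q1 k U ∘ₗ q0 k U) ?_ v
  intro i j u
  simp only [LinearMap.comp_apply, q1_single, q0_single, map_smul, smul_smul, mul_comm]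

theorem lf_lf (L M : U →ₗ[k] U) (v : Vy U) : lf L (lf M v) = lf (L ∘ₗ M) v := by
  refine vy_ext (f := lf L ∘ₗ lf M) (g := lf (L ∘ₗ M)) ?_ v
  intro i j u
  simp only [LinearMap.comp_apply, lf_single]

theorem lf_y0 (L : U →ₗ[k] U) (v : Vy U) : lf L (y0 k U v) = y0 k U (lf L v) := by
  refine vy_ext (f := lf L ∘ₗ y0 k U) (g := y0 k U ∘ₗ lf L) ?_ v
  intro i j u
  simp only [LinearMap.comp_apply, lf_single, y0_single]

theorem lf_y1 (L : U →ₗ[k] U) (v : Vy U) : lf L (y1 k U v) = y1 k U (lf L v) := by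
  refine vy_ext (f := lf L ∘ₗ y1 k U) (g := y1 k U ∘ₗ lf L) ?_ v
  intro i j u
  simp only [LinearMap.comp_apply, lf_single, y1_single]

theorem lf_q0 (L : U →ₗ[k] U) (v : Vy U) : lf L (q0 k U v) = q0 k U (lf L v) := by
  refine vy_ext (f := lf L ∘ₗ q0 k U) (g := q0 k U ∘ₗ lf L) ?_ v
  intro i j u
  simp only [LinearMap.comp_apply, lf_single, q0_single, map_smul]

theorem lf_q1 (L : U →ₗ[k] U) (v : Vy U) : lf L (q1 k U v) = q1 k U (lf L v) := by
  refine vy_ext (f := lf L ∘ₗ q1 k U) (g := q1 k U ∘ₗ lf L) ?_ v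
  intro i j u
  simp only [LinearMap.comp_apply, lf_single, q1_single, map_smul]

theorem lf_add (L M : U →ₗ[k] U) (v : Vy U) : lf (L + M) v = lf L v + lf M v := by
  refine vy_ext (f := lf (L + M)) (g := lf L + lf M) ?_ v
  intro i j u
  simp only [LinearMap.add_apply, lf_single, Finsupp.single_add]

theorem lf_id (v : Vy U) : lf (LinearMap.id : U →ₗ[k] U) v = v := by
  refine vy_ext (f := lf (LinearMap.id : U →ₗ[k] U)) (g := LinearMap.id) ?_ v
  intro i j u
  simp only [LinearMap.id_apply, lf_single]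

end P195A
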